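import Vale.Agent.P240.R2.H432.QJ
import Vale.Agent.P240.R2.H296.OFDefs

/-!
`PΩ(Q)` in any dimension `n ≥ 5`: rigidity in characteristic two, Gram matrices in odd
characteristic.
-/

set_option autoImplicit false
set_option linter.all false

namespace Vale.Agent.P240.R2.H432.Q

open Subgroup Matrix Vale.Agent.P240.H195
open Vale.Agent.P240.R2.H727

universe u

/-- **Rigidity** in characteristic two, any dimension at least `5` -/
theorem poq_rigid_two {F : Type u} [Field F] [Finite F] {p : ℕ} [hp : Fact p.Prime] [CharP F p]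
    {n : ℕ} (hn : 5 ≤ n) (h2 : (2 : F) = 0) (Q : QuadraticForm F (Fin n → F))
    (hQ : ∀ v, (∀ w, QuadraticMap.polar Q v w = 0) → v = 0) (hs : IsSimpleGroup (POQ Q))
    (hc : ∀ x : POQ Q, (∀ y, x * y = y * x) → x = 1) : RigidLie p (POQ Q) := by
  obtain ⟨m, hm, -⟩ := H703.normal_form_two h2 Q hQ
  obtain ⟨k, rfl⟩ : ∃ k, n = 2 * k + 1 + 1 := ⟨m - 1, by omega⟩
  exact poq_rigid (by omega) Q hQ hs hc

/-- **Lie type** in characteristic two, any dimension at least `5` -/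
theorem poq_lie_two {F : Type u} [Field F] [Finite F] {p : ℕ} [hp : Fact p.Prime] [CharP F p]
    {n : ℕ} (hn : 5 ≤ n) (h2 : (2 : F) = 0) (Q : QuadraticForm F (Fin n → F))
    (hQ : ∀ v, (∀ w, QuadraticMap.polar Q v w = 0) → v = 0) (hs : IsSimpleGroup (POQ Q))
    (hc : ∀ x : POQ Q, (∀ y, x * y = y * x) → x = 1) : LieType p (POQ Q) := by
  obtain ⟨m, hm, -⟩ := H703.normal_form_two h2 Q hQ
  obtain ⟨k, rfl⟩ : ∃ k, n = 2 * k + 1 + 1 := ⟨m - 1, by omega⟩
  exact poq_lie (by omega) Q hQ hs hc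

section
variable {F : Type u} [Field F] {n : ℕ}

/-- the Gram matrix of a quadratic form -/
noncomputable def gram (Q : QuadraticForm F (Fin n → F)) : Matrix (Fin n) (Fin n) F :=
  fun i j => QuadraticMap.polar Q (Pi.single i 1) (Pi.single j 1)

theorem polar_gram (Q : QuadraticForm F (Fin n → F)) (v w : Fin n → F) :
    QuadraticMap.polar Q v w = v ⬝ᵥ (gram Q) *ᵥ w := by
  have h1 : ∀ x : Fin n → F, x = ∑ i, x i • (Pi.single i 1 : Fin n → F) := by
    intro x
    funext j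
    rw [Finset.sum_apply, Finset.sum_eq_single j]
    · rw [Pi.smul_apply, Pi.single_eq_same, smul_eq_mul, mul_one]
    · intro i _ hi
      rw [Pi.smul_apply, Pi.single_eq_of_ne (Ne.symm hi), smul_zero]
    · intro h
      exact absurd (Finset.mem_univ j) h
  have h2 : QuadraticMap.polar Q v w = (QuadraticMap.polarBilin Q) v w := rfl
  have h3 : (QuadraticMap.polarBilin Q) v =
      ∑ i, v i • (QuadraticMap.polarBilin Q) (Pi.single i 1) := by
    conv_lhs => rw [h1 v]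
    rw [map_sum]
    exact Finset.sum_congr rfl fun i _ => map_smul _ _ _
  rw [h2, h3, LinearMap.sum_apply, dotProduct]
  refine Finset.sum_congr rfl fun i _ => ?_
  rw [LinearMap.smul_apply, smul_eq_mul, mulVec, dotProduct]
  congr 1
  conv_lhs => rw [h1 w]
  rw [map_sum]
  refine Finset.sum_congr rfl fun j _ => ?_
  rw [map_smul, smul_eq_mul, mul_comm]
  rfl

theorem gram_symm (Q : QuadraticForm F (Fin n → F)) : (gram Q)ᵀ = gram Q := by
  ext i j
  rw [transpose_apply]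
  exact QuadraticMap.polar_comm Q _ _

theorem gram_det (Q : QuadraticForm F (Fin n → F))
    (hQ : ∀ v, (∀ w, QuadraticMap.polar Q v w = 0) → v = 0) : (gram Q).det ≠ 0 := by
  intro h
  obtain ⟨v, hv, hv'⟩ := Matrix.exists_mulVec_eq_zero_iff.2 h
  apply hv
  apply hQ
  intro w
  rw [QuadraticMap.polar_comm, polar_gram, hv', dotProduct_zero]

theorem two_Q (Q : QuadraticForm F (Fin n → F)) (v : Fin n → F) :
    2 * Q v = v ⬝ᵥ (gram Q) *ᵥ v := by
  rw [← polar_gram, QuadraticMap.polar_self, two_nsmul, two_mul]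

theorem mem_gram (h2 : (2 : F) ≠ 0) (Q : QuadraticForm F (Fin n → F)) (g : GL (Fin n) F) :
    g ∈ OQ Q ↔ g ∈ OF.OA (gram Q) := by
  have hd : ∀ (B : Matrix (Fin n) (Fin n) F) (v w : Fin n → F),
      (g.1 *ᵥ v) ⬝ᵥ B *ᵥ (g.1 *ᵥ w) = v ⬝ᵥ ((g.1)ᵀ * B * g.1) *ᵥ w := by
    intro B v w
    rw [← mulVec_mulVec, ← mulVec_mulVec, dotProduct_mulVec v, vecMul_transpose]
  constructor
  · intro (hg : ∀ v, Q (g.1 *ᵥ v) = Q v)
    show (g.1)ᵀ * (gram Q) * g.1 = gram Q
    have h3 : ∀ v w, v ⬝ᵥ ((g.1)ᵀ * (gram Q) * g.1) *ᵥ w = v ⬝ᵥ (gram Q) *ᵥ w := by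
      intro v w
      rw [← hd, ← polar_gram, ← polar_gram, QuadraticMap.polar, QuadraticMap.polar, ← mulVec_add,
        hg, hg, hg]
    ext i j
    have h4 := h3 (Pi.single i 1) (Pi.single j 1)
    rw [mulVec_single_one, mulVec_single_one, single_one_dotProduct, single_one_dotProduct] at h4
    exact h4
  · intro (hg : (g.1)ᵀ * (gram Q) * g.1 = gram Q) v
    have h3 : 2 * Q (g.1 *ᵥ v) = 2 * Q v := by
      rw [two_Q, two_Q, hd, hg]
    exact mul_left_cancel₀ h2 h3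

theorem OQ_eq (h2 : (2 : F) ≠ 0) (Q : QuadraticForm F (Fin n → F)) :
    OQ Q = OF.OA (gram Q) := by
  ext g
  exact mem_gram h2 Q g

/-- **Gram matrices**: in odd characteristic `PΩ(Q)` is the group `PΩ` of the Gram matrix -/
theorem poq_pom (h2 : (2 : F) ≠ 0) (Q : QuadraticForm F (Fin n → F))
    (hQ : ∀ v, (∀ w, QuadraticMap.polar Q v w = 0) → v = 0) :
    ∃ A : Matrix (Fin n) (Fin n) F, Aᵀ = A ∧ A.det ≠ 0 ∧ Nonempty (POQ Q ≃* OF.POm A) :=
  ⟨gram Q, gram_symm Q, gram_det Q hQ, der_congr (MulEquiv.subgroupCongr (OQ_eq h2 Q))⟩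

end

end Vale.Agent.P240.R2.H432.Q
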