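import Mathlib.LinearAlgebra.QuadraticForm.Basic
import Mathlib.LinearAlgebra.Matrix.GeneralLinearGroup.Defs
import Mathlib.GroupTheory.QuotientGroup.Basic
import Mathlib.GroupTheory.Abelianization.Defs

/-!
The orthogonal groups `O(Q)` and `PΩ(Q)` of a quadratic form on `F ^ n`, all characteristics.
-/

set_option autoImplicit false

namespace Vale.Agent.P240.R2.H432.Q

open Matrix Subgroup

universe u

section
variable {F : Type u} [Field F] {n : ℕ}

/-- the isometries of a quadratic form on `F ^ n` -/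
def OQ (Q : QuadraticForm F (Fin n → F)) : Subgroup (GL (Fin n) F) where
  carrier := {g | ∀ v, Q (g.1 *ᵥ v) = Q v}
  mul_mem' := by
    intro g h hg hh v
    have h1 : (g * h).1 *ᵥ v = g.1 *ᵥ (h.1 *ᵥ v) := by
      rw [mulVec_mulVec]
      rfl
    rw [h1, hg, hh]
  one_mem' := by
    intro v
    have h1 : (1 : GL (Fin n) F).1 *ᵥ v = v := one_mulVec v
    rw [h1]
  inv_mem' := by
    intro g hg v
    have h1 : g.1 *ᵥ (g⁻¹.1 *ᵥ v) = v := by
      rw [mulVec_mulVec]
      have h2 : g.1 * g⁻¹.1 = 1 := by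
        rw [← Units.val_mul, mul_inv_cancel, Units.val_one]
      rw [h2, one_mulVec]
    have h2 := hg (g⁻¹.1 *ᵥ v)
    rw [h1] at h2
    exact h2.symm

/-- `PΩ(Q)`: the commutator subgroup of the isometry group modulo its centre -/
abbrev POQ (Q : QuadraticForm F (Fin n → F)) : Type u :=
  ↥(commutator (↥(OQ Q) ⧸ center ↥(OQ Q)))

end

end Vale.Agent.P240.R2.H432.Q
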