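import Vale.Agent.P240.R2.H775.RD3
import Vale.Agent.P240.R2.H997.NoOut

/-!
Groups of type `D`: the opposite root subgroups of the simple reflections have the order of the
field; automorphisms of order `p` prime to the characteristic are inner, if there are no
automorphisms of the diagram and of the field of `p`-power order.
-/

set_option autoImplicit false
set_option linter.all false

namespace Vale.Agent.P240.R2.H432.NO

open Subgroup Matrix Vale.Agent.P240.H195 Vale.Agent.P240.R2.H487.CG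
open Vale.Agent.P240.K (cj mem_cj)
open Vale.Agent.P240.R2.H38.DD
open Vale.Agent.P240.R2.H775.RG (Pt LoU pt_of_dc pt_of_up lin_fix diag_comm)
open Vale.Agent.P240.R2.H775.RD (Sim_roots anti anti' X_form X_mem pi_inj xr_lou)
open Vale.Agent.P240.R2.H997

section
variable {k : ℕ} {F : Type*} [Field F] [Finite F] {H : Subgroup (SLm (2 * k + 1) F)}

/-- the orders of the opposite root subgroups -/
lemma card_X {L : Type*} [Group L] {π : ↥H →* L} (hg : Good H)
    (hker : ∀ x : ↥H, π x = 1 → Mon x.1 1)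
    (hB : ∀ x, π x ∈ (BH H).map π ↔ x ∈ BH H) {s : ↥H} (hs : Sim s.1)
    (hPar : ∀ {y}, y ∈ Par ((BH H).map π) (π s) → y ∈ (BH H).map π ∨ DC ((BH H).map π) (π s) y)
    {n : ↥H} {σ : Equiv.Perm (VI k)} (hσ : Mon n.1 σ)
    (hopp : ∀ x ∈ (UH H).map π, π n * x * (π n)⁻¹ ∈ (UH H).map π → x = 1) :
    Nat.card (cj (π n) ((UH H).map π) ⊓ Par ((BH H).map π) (π s) : Subgroup L) = Nat.card F := by
  have hanti : ∀ {a b : VI k}, a < b → a ≠ Fin.rev b → σ b < σ a :=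
    fun h1 h2 => anti hg hker hσ hopp h1 h2
  have hanti' : ∀ {a b : VI k}, a < b → ¬ (a = c0 k ∧ b = c1 k) → σ b < σ a :=
    fun h1 h2 => anti' hanti h1 h2
  obtain ⟨a, b, hab, hab', ⟨τ, hτs, hτa, hτb⟩, hform⟩ := Sim_roots hs
  have hba' : b ≠ Fin.rev a := fun h5 => hab' (by rw [h5, Fin.rev_rev])
  have hxm : ∀ c : F, xr b a c ∈ H := fun c => hg.xr b a hab.ne' hba' c
  have hX : ∀ y, y ∈ Par ((BH H).map π) (π s) → (π n)⁻¹ * y * π n ∈ (UH H).map π →
      ∃ c : F, y = π ⟨xr b a c, hxm c⟩ := fun y h1 h2 =>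
    X_form hg hB hPar hform hxm hσ hanti' h1 h2
  have hX' : ∀ c : F, π ⟨xr b a c, hxm c⟩ ∈ Par ((BH H).map π) (π s) ∧
      (π n)⁻¹ * π ⟨xr b a c, hxm c⟩ * π n ∈ (UH H).map π := fun c =>
    X_mem hg hab hab' hτs hτa hτb hxm hσ hanti c
  symm
  refine Nat.card_congr (Equiv.ofBijective (fun c : F =>
    (⟨π ⟨xr b a c, hxm c⟩, mem_cj.2 (hX' c).2, (hX' c).1⟩ :
      (cj (π n) ((UH H).map π) ⊓ Par ((BH H).map π) (π s) : Subgroup L))) ⟨?_, ?_⟩)
  · intro c d hcd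
    have hcd' : π ⟨xr b a c, hxm c⟩ = π ⟨xr b a d, hxm d⟩ := congrArg Subtype.val hcd
    have h1 := pi_inj hker (x := ⟨xr b a c, hxm c⟩) (y := ⟨xr b a d, hxm d⟩) (xr_lou hab c)
      (xr_lou hab d) hcd'
    have h2 := congrArg (fun B : ↥H => B.1.1 b a) h1
    have h3 : (xr b a c).1 b a = (xr b a d).1 b a := h2
    rw [xr_apply hab.ne', xr_apply hab.ne', if_neg hab.ne',
      if_neg (fun h4 : b = Fin.rev a ∧ a = Fin.rev b => hba' h4.1),
      if_neg (fun h4 : b = Fin.rev a ∧ a = Fin.rev b => hba' h4.1)] at h3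
    simpa using h3
  · rintro ⟨y, hyU, hyP⟩
    obtain ⟨c, hc⟩ := hX y hyP (mem_cj.1 hyU)
    exact ⟨c, Subtype.ext hc.symm⟩

/-- automorphisms of order `p` are inner, if those of `p`-power order that stabilize `B` stabilize
the minimal parabolic subgroups -/
theorem dd_inner {r f : ℕ} [hr : Fact r.Prime] [CharP F r] (hg : Good H) {N : Subgroup ↥H}
    (hN : ∀ n ∈ N, ∃ τ, Mon n.1 τ) (hT : ∀ t : ↥H, Mon t.1 1 → t ∈ N)
    (h : SB r (BH H) N (UH H) {s | Sim s.1}) (hsimple : IsSimpleGroup (↥H ⧸ center ↥H))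
    {p : ℕ} (hp : p.Prime) (hpr : p ≠ r) (hF : Nat.card F = r ^ f)
    (hpF : ∀ j, 0 < j → j ≤ f → ¬ p ∣ r ^ j - 1)
    (h1 : ∀ e : MulAut (↥H ⧸ center ↥H), (∃ k, e ^ p ^ k = 1) →
      am e ((BH H).map (QuotientGroup.mk' (center ↥H))) =
        (BH H).map (QuotientGroup.mk' (center ↥H)) →
      ∀ s ∈ QuotientGroup.mk' (center ↥H) '' {s : ↥H | Sim s.1},
        am e (Par ((BH H).map (QuotientGroup.mk' (center ↥H))) s) =
          Par ((BH H).map (QuotientGroup.mk' (center ↥H))) s)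
    {g : MulAut (↥H ⧸ center ↥H)} (hgp : g ^ p = 1) :
    g ∈ (MulAut.conj (G := ↥H ⧸ center ↥H)).range := by
  have hr := hr.out
  have h' := Vale.Agent.P240.R2.H487.CG.SB.centre_quot h hr
  have hker : ∀ k, QuotientGroup.mk' (center ↥H) k = 1 → k ∈ BH H ∧ k ∈ N := by
    intro k hk
    have h1 : k ∈ center ↥H := (QuotientGroup.eq_one_iff k).1 hk
    exact center_le_T h hr fun g => (mem_center_iff.1 h1 g).symm
  generalize QuotientGroup.mk' (center ↥H) = π at *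
  have hB : ∀ x, π x ∈ (BH H).map π ↔ x ∈ BH H := fun x => map_mem_iff fun k hk => (hker k hk).1
  have hN' : ∀ x, π x ∈ N.map π ↔ x ∈ N := fun x => map_mem_iff fun k hk => (hker k hk).2
  have hT1 : ∀ {x : ↥H}, x ∈ BH H → x ∈ N → Mon x.1 1 := by
    intro x hx hxN
    obtain ⟨τ, hτ⟩ := hN x hxN
    have := mon_up hτ (mem_BH'.1 hx)
    rwa [this] at hτ
  have hker' : ∀ x : ↥H, π x = 1 → Mon x.1 1 := fun x hx => hT1 (hker x hx).1 (hker x hx).2
  obtain ⟨n₀, hn₀, hopp⟩ := h'.opp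
  refine noOut_root h' hsimple hr hp hpr hn₀ hopp (fun e he heB _ => h1 e he heB) ?_ hgp
  obtain ⟨n, hn, rfl⟩ := hn₀
  obtain ⟨σ, hσ⟩ := hN n hn
  rintro _ ⟨s, hs, rfl⟩ e he
  exact triv_of_pow (r := r) (a := f) hp hr hpr
    ((card_X hg hker' hB (s := s) hs (fun {y} hy => (h'.mem_Par ⟨s, hs, rfl⟩).1 hy) hσ hopp).trans
      hF) hpF he

end

end Vale.Agent.P240.R2.H432.NO
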