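import Vale.Agent.P240.H195.Few
import Vale.Agent.P240.R2.H112.Dg3
import Vale.Agent.P240.R2.H38.D13
import Vale.Agent.P240.R2.H432.N2b

/-!
The groups `PΩ⁺` in even dimension at least `6`: no outer automorphisms of order `p`, for odd `p`
different from the characteristic `r` of `F` and prime to `r ^ j - 1` for all `j` with
`r ^ j ≤ |F|`; in dimension `8`, `p ≠ 3`.
-/

set_option autoImplicit false
set_option linter.all false

namespace Vale.Agent.P240.R2.H432.NO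

open Subgroup Matrix Vale.Agent.P240.H195 Vale.Agent.P240.R2.H487.CG
open Vale.Agent.P240.K (cj mem_cj)
open Vale.Agent.P240.R2.H38.DD Vale.Agent.P240.R2.H997 Vale.Agent.P240.R2.H112.Dg

section
universe u
variable {F : Type*} [Field F] [Finite F] {H : Subgroup (SLm (2 * 2 + 1) F)}
variable {L : Type u} [Group L] {B N U : Subgroup L} {S : Set L} {r : ℕ}

/-- dimension `6`: the diagram is a path -/
theorem par_fix_D2 (hg : Good H) (h : SB r B N U S) [Finite L] (φ : ↥H →* L)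
    (hS : ∀ x ∈ SH H, φ x ∈ S) (hS' : ∀ t ∈ S, ∃ x ∈ SH H, φ x = t)
    (hB : ∀ x, φ x ∈ B ↔ x ∈ BH H)
    {e : MulAut L} (he : am e B = B) {n : ℕ} (hn : Odd n) (hen : e ^ n = 1) :
    ∀ t ∈ S, am e (Par B t) = Par B t := by
  have hk0 : 0 < 2 := by omega
  have hex : ∀ i : Fin (2 + 1), ∃ s : ↥H, Mon s.1 (nd 2 hk0 i) := fun i =>
    exists_STy hg (nd_STy hk0 i)
  choose s hs using hex
  have hcom : ∀ i j, (φ (s j) * φ (s i))⁻¹ * (φ (s i) * φ (s j)) ∈ B ↔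
      nd 2 hk0 i * nd 2 hk0 j = nd 2 hk0 j * nd 2 hk0 i := by
    intro i j
    rw [← map_mul, ← map_mul, ← map_inv, ← map_mul, hB]
    have h1 : Mon ((s j * s i)⁻¹ * (s i * s j)).1
        ((nd 2 hk0 j * nd 2 hk0 i)⁻¹ * (nd 2 hk0 i * nd 2 hk0 j)) :=
      mon_mul (mon_inv (mon_mul (hs j) (hs i))) (mon_mul (hs i) (hs j))
    constructor
    · intro h2
      have h3 := mon_up h1 h2
      rw [inv_mul_eq_one] at h3
      exact h3.symm
    · intro h2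
      rw [h2, inv_mul_cancel] at h1
      exact mem_T' h1
  obtain ⟨c, hc0, hc1, hc2, hci⟩ : ∃ c : Fin 3 → Fin (2 + 1), c 0 = 1 ∧ c 1 = 0 ∧ c 2 = 2 ∧
      ∀ i j, c i = c j → i = j := ⟨![1, 0, 2], rfl, rfl, rfl, by decide⟩
  have hcs : ∀ i, ∃ j, c j = i := by
    intro i
    fin_cases i
    · exact ⟨1, hc1⟩
    · exact ⟨0, hc0⟩
    · exact ⟨2, hc2⟩
  have n01 : nd 2 hk0 0 * nd 2 hk0 1 ≠ nd 2 hk0 1 * nd 2 hk0 0 :=
    nd_nc_lt (i := 0) (j := 1) rfl (by decide)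
  have n02 : nd 2 hk0 0 * nd 2 hk0 2 ≠ nd 2 hk0 2 * nd 2 hk0 0 :=
    nd_nc_last (i := 0) (j := 2) rfl rfl
  have c12 : nd 2 hk0 1 * nd 2 hk0 2 = nd 2 hk0 2 * nd 2 hk0 1 :=
    nd_comm_last (i := 1) (j := 2) (by decide) (by decide) rfl
  refine par_fix_of_path h (fun i : Fin 3 => φ (s (c i))) ?_ ?_ ?_ ?_ ?_ he hn hen
  · exact fun i => hS _ (Sim_iff.2 ⟨_, nd_STy hk0 _, hs _⟩)
  · intro t ht
    obtain ⟨x, hx, rfl⟩ := hS' t ht
    obtain ⟨τ, hτ, hxτ⟩ := Sim_iff.1 (show Sim x.1 from hx)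
    obtain ⟨i, rfl⟩ := exists_nd (hk := hk0) hτ
    obtain ⟨j, rfl⟩ := hcs i
    refine ⟨j, ?_⟩
    change (φ (s (c j)))⁻¹ * φ x ∈ B
    rw [← map_inv, ← map_mul, hB]
    have : Mon ((s (c j))⁻¹ * x).1 ((nd 2 hk0 (c j))⁻¹ * nd 2 hk0 (c j)) :=
      mon_mul (mon_inv (hs _)) hxτ
    rw [inv_mul_cancel] at this
    exact mem_T' this
  · intro i j hij
    have hij' : (φ (s (c i)))⁻¹ * φ (s (c j)) ∈ B := hij
    rw [← map_inv, ← map_mul, hB] at hij'
    have : Mon ((s (c i))⁻¹ * s (c j)).1 ((nd 2 hk0 (c i))⁻¹ * nd 2 hk0 (c j)) :=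
      mon_mul (mon_inv (hs _)) (hs _)
    have h2 := mon_up this hij'
    rw [inv_mul_eq_one] at h2
    exact hci _ _ (nd_inj h2)
  · intro i j hij h1
    have h2 := (hcom (c i) (c j)).1 h1
    have hcase : (i = 0 ∧ j = 1) ∨ (i = 1 ∧ j = 2) := by
      have := j.2
      rcases (by omega : i.val = 0 ∨ i.val = 1) with h3 | h3
      · exact Or.inl ⟨Fin.ext h3, Fin.ext (by omega)⟩
      · exact Or.inr ⟨Fin.ext h3, Fin.ext (by omega)⟩
    rcases hcase with ⟨rfl, rfl⟩ | ⟨rfl, rfl⟩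
    · rw [hc0, hc1] at h2
      exact n01 h2.symm
    · rw [hc1, hc2] at h2
      exact n02 h2
  · intro i j hij
    have hcase : i = 0 ∧ j = 2 := by
      have := j.2
      exact ⟨Fin.ext (by simp only [Fin.val_zero]; omega), Fin.ext (by simp only [Fin.val_two]; omega)⟩
    obtain ⟨rfl, rfl⟩ := hcase
    refine (hcom (c 0) (c 2)).2 ?_
    rw [hc0, hc2]
    exact c12

end

section
variable {k : ℕ} {F : Type*} [Field F] [Finite F]

/-- **no outer automorphisms of order `p`** for groups of type `D` -/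
theorem dd_inner' {H : Subgroup (SLm (2 * k + 1) F)} {r f : ℕ} [hr : Fact r.Prime] [CharP F r]
    (hk : 2 ≤ k) (hg : Good H) (hgen : Gen H) (hsimple : IsSimpleGroup (↥H ⧸ center ↥H))
    {p : ℕ} (hp : p.Prime) (hp2 : p ≠ 2) (hpr : p ≠ r) (h43 : ¬ (k = 3 ∧ p = 3))
    (hF : Nat.card F = r ^ f) (hpF : ∀ j, 0 < j → j ≤ f → ¬ p ∣ r ^ j - 1)
    {g : MulAut (↥H ⧸ center ↥H)} (hgp : g ^ p = 1) :
    g ∈ (MulAut.conj (G := ↥H ⧸ center ↥H)).range := by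
  refine dd_inner (r := r) hg (N := NH H) (fun _ hn => NH_mon hn)
    (fun _ ht => (le_sup_right : TH H ≤ NH H) (mem_TH'.2 ht)) (dSB (p := r) (by omega) hg hgen)
    hsimple hp hpr hF hpF ?_ hgp
  rintro e ⟨a, hea⟩ he
  by_cases h3 : 3 ≤ k
  · exact par_fix_qSB (q := r) h3 hg hgen he hp hp2 h43 hea
  · obtain rfl : k = 2 := by omega
    exact par_fix_D2 hg (qSB (p := r) (by omega) hg hgen) (pH H) (fun x hx => ⟨x, hx, rfl⟩)
      (fun t ht => ht)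
      (fun x => Vale.Agent.P240.R2.H487.CG.pi_mem (dSB (p := r) (by omega) hg hgen) hr.out)
      he (hp.odd_of_ne_two hp2).pow hea

/-- **`FewAut p` for `PΩ⁺`** -/
theorem fewAut_pod {r f : ℕ} [hr : Fact r.Prime] [CharP F r] (hk : 2 ≤ k)
    (hs : IsSimpleGroup (POD k F)) {p : ℕ} (hp : p.Prime) (hp2 : p ≠ 2) (hpr : p ≠ r)
    (h43 : ¬ (k = 3 ∧ p = 3)) (hF : Nat.card F = r ^ f)
    (hpF : ∀ j, 0 < j → j ≤ f → ¬ p ∣ r ^ j - 1) : FewAut p (POD k F) := by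
  have e := podIso (F := F) hk
  have h1 : IsSimpleGroup (↥(EE k F) ⧸ center ↥(EE k F)) := e.isSimpleGroup
  exact FewAut.congr e (fewAut_of_inner fun g hg =>
    dd_inner' (r := r) hk EE_good EE_gen h1 hp hp2 hpr h43 hF hpF hg)

end

end Vale.Agent.P240.R2.H432.NO
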