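import Vale.Agent.P240.H195.Few
import Vale.Agent.P240.R2.H38.T7
import Vale.Agent.P240.R2.H432.N3a
import Vale.Agent.P240.R2.H997.ParFix

/-!
The groups `PΩ⁻` in even dimension: no outer automorphisms of order `p`, for odd `p` different from
the characteristic `r` of `K` and prime to `r ^ j - 1` for all `j` with `r ^ j ≤ |K|`.
-/

set_option autoImplicit false
set_option linter.all false

namespace Vale.Agent.P240.R2.H432.NT

open Subgroup Matrix Vale.Agent.P240.H195 Vale.Agent.P240.R2.H487.CG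
open Vale.Agent.P240.K (cj mem_cj)
open Vale.Agent.P240.R2.H38.DD Vale.Agent.P240.R2.H727 Vale.Agent.P240.R2.H38.TT
open Vale.Agent.P240.R2.H775.RT (SimT)
open Vale.Agent.P240.R2.H997

section
variable {r : ℕ}

lemma ts_same {i j : ℕ} (hi : i < r) (hj : j < r) (hij : i < j) :
    O.ts j hj (O.ix i hi : Fin (2 * r + 1 + 1)) = O.ix i hi := by
  apply Fin.ext
  by_cases h1 : j + 1 < r
  · rw [O.ts_val1 hj h1, O.ix_val]
    split_ifs <;> omega
  · rw [O.ts_val2 hj (by omega), O.ix_val]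
    split_ifs <;> omega

lemma ts_moves {i : ℕ} (hi : i < r) : O.ts i hi (O.ix i hi : Fin (2 * r + 1 + 1)) ≠ O.ix i hi := by
  intro h
  have h2 := congrArg Fin.val h
  by_cases h1 : i + 1 < r
  · rw [O.ts_val1 hi h1, O.ix_val, if_pos rfl] at h2
    omega
  · rw [O.ts_val2 hi (by omega), O.ix_val, if_pos rfl] at h2
    omega

lemma ts_inj {i j : ℕ} (hi : i < r) (hj : j < r) (h : O.ts i hi = O.ts j hj) : i = j := by
  rcases lt_trichotomy i j with h1 | h1 | h1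
  · exact absurd (by rw [h]; exact ts_same hi hj h1) (ts_moves hi)
  · exact h1
  · exact absurd (by rw [← h]; exact ts_same hj hi h1) (ts_moves hj)

lemma ts_comm {i j : ℕ} (hi : i < r) (hj : j < r) (hij : i + 1 < j) :
    O.ts i hi * O.ts j hj = O.ts j hj * O.ts i hi := by
  have hi1 : i + 1 < r := by omega
  have h1 : Equiv.Perm.Disjoint (O.ts i hi) (O.ts j hj) := by
    intro x
    have hx := x.2
    by_cases hx : x.val = i ∨ x.val = i + 1 ∨ x.val = 2 * r - i ∨ x.val = 2 * r + 1 - i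
    · right
      apply Fin.ext
      by_cases h1 : j + 1 < r
      · rw [O.ts_val1 hj h1]
        split_ifs <;> omega
      · rw [O.ts_val2 hj (by omega)]
        split_ifs <;> omega
    · left
      apply Fin.ext
      rw [O.ts_val1 hi hi1]
      split_ifs <;> omega
  exact h1.commute

end

section
universe u
variable {K : Type u} [Field K] [Finite K] {r : ℕ} {σ : K ≃+* K}
  {H : Subgroup (SLm (2 * r + 1) K)}

/-- the split BN-pair -/
theorem ad_sb (hA : Ad σ H) {p : ℕ} [hp : Fact p.Prime] [CharP K p] (hr : 0 < r)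
    (hσ : ∀ x, σ (σ x) = x) :
    ∃ (N : Subgroup ↥H) (S : Set ↥H), (∀ s ∈ S, SimT s.1) ∧
      (∀ n ∈ N, ∃ τ, Mon n.1 τ) ∧ (∀ t : ↥H, Mon t.1 1 → t ∈ N) ∧
      SB p (BH H) N (UH H) S ∧ (∀ s ∈ S, ∃ (i : ℕ) (hi : i < r), Mon s.1 (O.ts i hi)) ∧
      (∀ (i : ℕ) (hi : i < r), ∃ s ∈ S, Mon s.1 (O.ts i hi)) := by
  haveI := hA.normal
  have hSB := (eo_Split (p := p) hr hσ).toSB
  have h1 := Vale.Agent.P240.R2.H487.CG.SB.subgroup hSB
    (H := H.subgroupOf (O.EO r σ)) (fun x hx => hA.U hx)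
  have h2 := h1.tr (subgroupOfEquivOfLe hA.leE)
  have hS1 : ∀ s ∈ (subgroupOfEquivOfLe hA.leE).symm ⁻¹'
      (Vale.Agent.P240.R2.H487.CG.subS ((O.BO r σ).subgroupOf (O.EO r σ))
        ((O.NO r σ).subgroupOf (O.EO r σ)) {s : ↥(O.EO r σ) | s.1 ∈ O.SS' r σ}
        (H.subgroupOf (O.EO r σ))), ∃ (i : ℕ) (hi : i < r), Mon s.1 (O.ts i hi) := by
    rintro s ⟨hsN, a, ⟨haG, i, hi, ham⟩, has⟩
    have hs' : s.1 ∈ O.NO r σ := hsN
    have has' : a.1⁻¹ * s.1 ∈ O.BO r σ := has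
    have haN : a.1 ∈ O.NO r σ := (O.mem_NO σ).2 ⟨haG, _, O.ts_gp hi, ham⟩
    have h3 : Mon (a.1⁻¹ * s.1) 1 := O.BO_T has' (mul_mem (inv_mem haN) hs')
    have h4 : Mon (a.1 * (a.1⁻¹ * s.1)) (O.ts i hi * 1) := mon_mul ham h3
    rw [mul_inv_cancel_left, mul_one] at h4
    exact ⟨i, hi, h4⟩
  refine ⟨tr (subgroupOfEquivOfLe hA.leE) (((O.NO r σ).subgroupOf (O.EO r σ)).subgroupOf
      (H.subgroupOf (O.EO r σ))), (subgroupOfEquivOfLe hA.leE).symm ⁻¹'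
      (Vale.Agent.P240.R2.H487.CG.subS ((O.BO r σ).subgroupOf (O.EO r σ))
        ((O.NO r σ).subgroupOf (O.EO r σ)) {s : ↥(O.EO r σ) | s.1 ∈ O.SS' r σ}
        (H.subgroupOf (O.EO r σ))), ?_, ?_, ?_, ?_, hS1, ?_⟩
  rotate_left 3
  · have eB : tr (subgroupOfEquivOfLe hA.leE) (((O.BO r σ).subgroupOf (O.EO r σ)).subgroupOf
        (H.subgroupOf (O.EO r σ))) = BH H := by
      ext x
      exact ⟨fun hx => hx.1, fun hx => mem_inf.2 ⟨hx, hA.le x.2⟩⟩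
    have eU : tr (subgroupOfEquivOfLe hA.leE) (((O.UO r σ).subgroupOf (O.EO r σ)).subgroupOf
        (H.subgroupOf (O.EO r σ))) = UH H := by
      ext x
      exact ⟨fun hx => hx.1, fun hx => mem_inf.2 ⟨hx, hA.le x.2⟩⟩
    rw [eB, eU] at h2
    exact h2
  · intro i hi
    obtain ⟨a, haS, ham⟩ := exists_ts hσ hi
    obtain ⟨t, htB, htN, ht⟩ := Vale.Agent.P240.R2.H487.CG.sub_rep_simple hSB
      (H := H.subgroupOf (O.EO r σ)) (fun x hx => hA.U hx) (s := a) haS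
    have haN : a.1 ∈ O.NO r σ := (O.mem_NO σ).2 ⟨haS.1, _, O.ts_gp hi, ham⟩
    have htM : Mon t.1 1 := O.BO_T htB htN
    have hM : Mon (a.1 * t.1) (O.ts i hi * 1) := mon_mul ham htM
    rw [mul_one] at hM
    refine ⟨⟨a.1 * t.1, ht⟩, ⟨?_, a, haS, ?_⟩, hM⟩
    · change a.1 * t.1 ∈ O.NO r σ
      exact mul_mem haN htN
    · change a.1⁻¹ * (a.1 * t.1) ∈ O.BO r σ
      rw [inv_mul_cancel_left]
      exact htB
  · intro s hs
    obtain ⟨i, hi, h4⟩ := hS1 s hs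
    by_cases h5 : i + 1 < r
    · exact ⟨⟨i, hi⟩, Or.inl ⟨h5, by rw [← ts_tau1 hi h5]; exact h4⟩⟩
    · have h6 : i + 1 = r := by omega
      exact ⟨⟨i, hi⟩, Or.inr ⟨h6, by rw [← ts_tau2 hi h6]; exact h4⟩⟩
  · rintro n hn
    have hn' : n.1 ∈ O.NO r σ := hn
    obtain ⟨-, w, -, hm⟩ := (O.mem_NO σ).1 hn'
    exact ⟨w, hm⟩
  · intro t ht
    change t.1 ∈ O.NO r σ
    exact (O.mem_NO σ).2 ⟨hA.le t.2, 1, O.Gp.one, ht⟩

/-- automorphisms of odd order that stabilize `B` stabilize the minimal parabolic subgroups -/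
theorem par_fix_t {p : ℕ} (hp : p.Prime) {N : Subgroup ↥H} {S : Set ↥H}
    (h : SB p (BH H) N (UH H) S)
    (hS1 : ∀ s ∈ S, ∃ (i : ℕ) (hi : i < r), Mon s.1 (O.ts i hi))
    (hS2 : ∀ (i : ℕ) (hi : i < r), ∃ s ∈ S, Mon s.1 (O.ts i hi))
    {e : MulAut (↥H ⧸ center ↥H)}
    (he : am e ((BH H).map (QuotientGroup.mk' (center ↥H))) =
        (BH H).map (QuotientGroup.mk' (center ↥H))) {n : ℕ} (hn : Odd n) (hen : e ^ n = 1) :
    ∀ s ∈ QuotientGroup.mk' (center ↥H) '' S,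
      am e (Par ((BH H).map (QuotientGroup.mk' (center ↥H))) s) =
        Par ((BH H).map (QuotientGroup.mk' (center ↥H))) s := by
  have h' := Vale.Agent.P240.R2.H487.CG.SB.centre_quot h hp
  have hB : ∀ x : ↥H, QuotientGroup.mk' (center ↥H) x ∈
      (BH H).map (QuotientGroup.mk' (center ↥H)) ↔ x ∈ BH H := fun x => pi_mem h hp
  generalize QuotientGroup.mk' (center ↥H) = π at *
  choose s hsS hsM using fun i : Fin r => hS2 i.1 i.2
  have hmc : ∀ i j : Fin r, Mon ((s j * s i)⁻¹ * (s i * s j)).1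
      ((O.ts j.1 j.2 * O.ts i.1 i.2)⁻¹ * (O.ts i.1 i.2 * O.ts j.1 j.2)) := fun i j =>
    mon_mul (mon_inv (mon_mul (hsM j) (hsM i))) (mon_mul (hsM i) (hsM j))
  have hmap : ∀ i j : Fin r, π ((s j * s i)⁻¹ * (s i * s j)) =
      (π (s j) * π (s i))⁻¹ * (π (s i) * π (s j)) := fun i j => by
    rw [map_mul, map_inv, map_mul, map_mul]
  refine par_fix_of_path h' (fun i : Fin r => π (s i)) (fun i => ⟨_, hsS i, rfl⟩) ?_ ?_ ?_ ?_ he
    hn hen
  · rintro _ ⟨t, ht, rfl⟩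
    obtain ⟨i, hi, hm⟩ := hS1 t ht
    refine ⟨⟨i, hi⟩, ?_⟩
    rw [← map_inv, ← map_mul, hB]
    have h3 : Mon ((s ⟨i, hi⟩).1⁻¹ * t.1) _ := mon_mul (mon_inv (hsM ⟨i, hi⟩)) hm
    rw [inv_mul_cancel] at h3
    exact mem_T' h3
  · intro i j hij
    rw [← map_inv, ← map_mul, hB] at hij
    have h3 : Mon ((s i).1⁻¹ * (s j).1) _ := mon_mul (mon_inv (hsM i)) (hsM j)
    have h4 := mon_up h3 hij
    exact Fin.ext (ts_inj i.2 j.2 (inv_mul_eq_one.1 h4))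
  · intro i j hij hcon
    have hcon' : π ((s j * s i)⁻¹ * (s i * s j)) ∈ (BH H).map π := by
      rw [hmap]
      exact hcon
    have h4 := mon_up (hmc i j) ((hB _).1 hcon')
    have h5 := inv_mul_eq_one.1 h4
    obtain ⟨i, hi⟩ := i
    obtain ⟨j, hj⟩ := j
    obtain rfl : i + 1 = j := hij
    exact ts_nc hi hj h5.symm
  · intro i j hij
    change (π (s j) * π (s i))⁻¹ * (π (s i) * π (s j)) ∈ (BH H).map π
    rw [← hmap, hB]
    have h5 : (O.ts j.1 j.2 * O.ts i.1 i.2)⁻¹ * (O.ts i.1 i.2 * O.ts j.1 j.2) = 1 :=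
      inv_mul_eq_one.2 (ts_comm i.2 j.2 hij).symm
    have h4 := hmc i j
    rw [h5] at h4
    exact mem_T' h4

/-- **no outer automorphisms of order `p`** -/
theorem ad_inner (hA : Ad σ H) {q f : ℕ} [hq : Fact q.Prime] [CharP K q] (hr : 0 < r)
    (hσ : ∀ x, σ (σ x) = x) (hs : IsSimpleGroup (↥H ⧸ center ↥H))
    {p : ℕ} (hp : p.Prime) (hp2 : p ≠ 2) (hpq : p ≠ q) (hF : Nat.card K = q ^ f)
    (hpF : ∀ j, 0 < j → j ≤ f → ¬ p ∣ q ^ j - 1)
    {g : MulAut (↥H ⧸ center ↥H)} (hgp : g ^ p = 1) :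
    g ∈ (MulAut.conj (G := ↥H ⧸ center ↥H)).range := by
  obtain ⟨N, S, hS, hN, hT, hSB, hS1, hS2⟩ := ad_sb hA (p := q) hr hσ
  exact dt_inner hA.good hσ hS hN hT hSB hs hp hpq hF hpF (fun e ⟨k, hk⟩ he =>
    par_fix_t hq.out hSB hS1 hS2 he (hp.odd_of_ne_two hp2).pow hk) hgp

/-- **`FewAut p` for `PΩ⁻`** -/
theorem fewAut_p2 {q f : ℕ} [hq : Fact q.Prime] [CharP K q] (hr : 0 < r)
    (hσ : ∀ x, σ (σ x) = x) (hne : ∃ x, σ x ≠ x) (hs : IsSimpleGroup (P2 r σ))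
    {p : ℕ} (hp : p.Prime) (hp2 : p ≠ 2) (hpq : p ≠ q) (hF : Nat.card K = q ^ f)
    (hpF : ∀ j, 0 < j → j ≤ f → ¬ p ∣ q ^ j - 1) : FewAut p (P2 r σ) := by
  have e' := centreIso (comm2 (r := r) (σ := σ))
  have h3 : IsSimpleGroup (↥(⁅O.GM r σ, O.GM r σ⁆) ⧸ center ↥(⁅O.GM r σ, O.GM r σ⁆)) :=
    e'.isSimpleGroup
  exact FewAut.congr e' (fewAut_of_inner fun g hg => ad_inner (ad_comm hσ hne) hr hσ h3 hp hp2 hpq
    hF hpF hg)

end

end Vale.Agent.P240.R2.H432.NT
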