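import Vale.Agent.P240.R2.H432.QH
import Vale.Agent.P240.R2.H703.QF3
import Vale.Agent.P240.R2.H703.QF4

/-!
`PΩ(Q)` for all nondegenerate quadratic forms in even dimension at least `6` over a finite field.
-/

set_option autoImplicit false
set_option linter.all false

namespace Vale.Agent.P240.R2.H432.Q

open Subgroup Matrix Vale.Agent.P240.H195
open Vale.Agent.P240.R2.H38.DD
open Vale.Agent.P240.R2.H727

universe u

/-- **the groups `PΩ(Q)`**, dimension `2 k + 2 ≥ 6`, any finite field -/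
theorem poq_cases {F : Type u} [Field F] [Finite F] {k : ℕ} (hk : 2 ≤ k)
    (Q : QuadraticForm F (Fin (2 * k + 1 + 1) → F))
    (hQ : ∀ v, (∀ w, QuadraticMap.polar Q v w = 0) → v = 0) :
    Nonempty (POQ Q ≃* POD k F) ∨
    ∃ (K : Type u) (_ : Field K) (_ : Finite K) (σ : K ≃+* K), (∀ x, σ (σ x) = x) ∧
      (∃ x, σ x ≠ x) ∧ (∀ p : ℕ, CharP F p → CharP K p) ∧
      Nonempty (POQ Q ≃* ↥(commutator ↥(O.GM k σ)) ⧸ center ↥(commutator ↥(O.GM k σ))) := by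
  rcases H703.normal_form_VI Q hQ with ⟨P, hP⟩ | ⟨c, hc, P, hP⟩
  · exact Or.inl (poq_pod hk Q P hP)
  · obtain ⟨K, i1, i2, i3, σ, θ, h1, h2, h3, h4, h5, h6, h7⟩ := H703.exists_BC hc
    refine Or.inr ⟨K, i1, i2, σ, h1, ⟨θ, h6⟩, h7, ?_⟩
    refine poq_gm hk (⟨h1, h2, h3, h4, h5, h6⟩ : BC F σ θ c) Q P fun v => ?_
    have h8 : Q (P.1 *ᵥ v) = _ := hP v
    rw [h8, qm, Finset.sum_filter]
    rfl

end Vale.Agent.P240.R2.H432.Q
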