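import Vale.Agent.P240.R2.H432.N2c
import Vale.Agent.P240.R2.H727.P6

/-!
`FewAut p` for the groups `PΩ(Q)`, odd `p`, in even dimension at least `6` over a field of prime
order `ℓ`, where `p` does not divide `ℓ (ℓ - 1)`; in particular over the fields with `3` and `5`
elements.
-/

set_option autoImplicit false
set_option linter.all false

namespace Vale.Agent.P240.R2.H432.Q

open Subgroup Matrix Vale.Agent.P240.H195
open Vale.Agent.P240.R2.H38.DD
open Vale.Agent.P240.R2.H727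

universe u

section
variable {F : Type u} [Field F] [Finite F]

/-- the fields of prime order, dimension `2 k + 2` -/
theorem fewAut_poq_k {k : ℕ} (hk : 2 ≤ k) (Q : QuadraticForm F (Fin (2 * k + 1 + 1) → F))
    (hQ : ∀ v, (∀ w, QuadraticMap.polar Q v w = 0) → v = 0) {l p : ℕ} (hl : l.Prime)
    (hF : Nat.card F = l) (hl2 : l ≠ 2) (hp : p.Prime) (hp2 : p ≠ 2) (hpl : p ≠ l)
    (hpl1 : ¬ p ∣ l - 1) (h43 : ¬ (k = 3 ∧ p = 3)) (hs : IsSimpleGroup (POQ Q)) :
    FewAut p (POQ Q) := by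
  rcases P.poq_fewAut_or hk Q hQ hl hF hl2 hp hp2 hpl hpl1 hs with ⟨⟨e⟩⟩ | h
  · haveI : Fact l.Prime := ⟨hl⟩
    haveI : Fintype F := Fintype.ofFinite F
    have hlc : (l : F) = 0 := by
      have h1 := Nat.cast_card_eq_zero F
      rwa [← Nat.card_eq_fintype_card, hF] at h1
    haveI : CharP F l := by
      obtain ⟨r', hr'⟩ := CharP.exists F
      have h3 : r' ∣ l := (CharP.cast_eq_zero_iff F r' l).1 hlc
      rcases (Nat.dvd_prime hl).1 h3 with rfl | rfl
      · exact absurd rfl (CharP.char_ne_one F 1)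
      · exact hr'
    refine FewAut.congr e.symm (NO.fewAut_pod (r := l) (f := 1) hk e.symm.isSimpleGroup hp hp2 hpl h43
      (by rw [hF, pow_one]) ?_)
    intro j hj hj1
    obtain rfl : j = 1 := by omega
    rwa [pow_one]
  · exact h

/-- **`FewAut p` for `PΩ(Q)`**, `p` odd, in even dimension `n ≥ 6` over a field with `3` or `5`
elements, except for `n = 8` and `p = 3` -/
theorem fewAut_poq_small {n : ℕ} (hn : 5 ≤ n) (hev : n % 2 = 0) (Q : QuadraticForm F (Fin n → F))
    (hQ : ∀ v, (∀ w, QuadraticMap.polar Q v w = 0) → v = 0) (hF : Nat.card F = 3 ∨ Nat.card F = 5)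
    {p : ℕ} (hp : p.Prime) (hp2 : p ≠ 2) (hpF : (p : F) ≠ 0) (h83 : ¬ (n = 8 ∧ p = 3))
    (hs : IsSimpleGroup (POQ Q)) : FewAut p (POQ Q) := by
  obtain ⟨k, rfl⟩ : ∃ k, n = 2 * k + 1 + 1 := ⟨(n - 2) / 2, by omega⟩
  obtain ⟨l, hl⟩ : ∃ l, Nat.card F = l := ⟨_, rfl⟩
  have hl35 : l = 3 ∨ l = 5 := by rwa [hl] at hF
  have hlp : l.Prime := by
    rcases hl35 with rfl | rfl
    · exact Nat.prime_three
    · exact Nat.prime_five
  haveI : Fintype F := Fintype.ofFinite F
  have hlc : (l : F) = 0 := by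
    have h1 := Nat.cast_card_eq_zero F
    rwa [← Nat.card_eq_fintype_card, hl] at h1
  refine fewAut_poq_k (by omega) Q hQ hlp hl (by rcases hl35 with rfl | rfl <;> decide) hp hp2
    (by rintro rfl; exact hpF hlc) ?_ (fun h => h83 ⟨by omega, h.2⟩) hs
  intro hd
  have h6 : p ∣ 2 := by
    rcases hl35 with rfl | rfl
    · exact hd
    · have h7 : p ∣ 2 ^ 2 := hd
      exact hp.dvd_of_dvd_pow h7
  exact hp2 ((Nat.prime_dvd_prime_iff_eq hp Nat.prime_two).1 h6)

end

end Vale.Agent.P240.R2.H432.Q
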