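import Vale.Agent.P240.R2.H432.QC
import Vale.Agent.P240.R2.H38.D12

/-!
`PΩ(Q)` for the quadratic forms of plus type, in the form of helper38's groups.
-/

set_option autoImplicit false
set_option linter.all false

namespace Vale.Agent.P240.R2.H432.Q

open Subgroup Matrix Vale.Agent.P240.H195
open Vale.Agent.P240.R2.H38.DD
open scoped commutatorElement

universe u

section
variable {k : ℕ} {K : Type u} [Field K] [Finite K]

lemma xr_comm (hk : 2 ≤ k) {a b : VI k} (h : a ≠ b) (h' : a ≠ Fin.rev b) (t : K) :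
    xr a b t ∈ ⁅SOD k K, SOD k K⁆ := by
  rw [comm_eq hk]
  exact (EE_good (k := k) (F := K)).xr a b h h' t

/-- a diagonal isometry has determinant one -/
lemma diag_det {g : GL (VI k) K} (hg : g ∈ OD0 k K) (hd : ∀ i j, i ≠ j → g.1 i j = 0) :
    g.1.det = 1 := by
  have h1 : ∀ i, g.1 i i * g.1 (Fin.rev i) (Fin.rev i) = 1 := by
    intro i
    have h2 := Pd_of' hg (Pi.single i 1) (Pi.single (Fin.rev i) 1)
    unfold Pd at h2
    have h3 : ∀ c l, (g.1 *ᵥ Pi.single c 1) l = g.1 l c := fun c l => by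
      rw [Matrix.mulVec_single_one]; rfl
    simp only [h3] at h2
    rw [Finset.sum_eq_single i, Finset.sum_eq_single i] at h2
    · rw [h2, Pi.single_eq_same, Pi.single_eq_same, one_mul]
    · intro l _ hl
      rw [Pi.single_eq_of_ne hl, zero_mul]
    · exact fun h => absurd (Finset.mem_univ _) h
    · intro l _ hl
      rw [hd l i hl, zero_mul]
    · exact fun h => absurd (Finset.mem_univ _) h
  have h2 : g.1 = Matrix.diagonal fun i => g.1 i i := by
    ext i j
    by_cases hij : i = j
    · rw [hij, Matrix.diagonal_apply_eq]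
    · rw [Matrix.diagonal_apply_ne _ hij, hd i j hij]
  rw [h2, det_diagonal]
  refine Finset.prod_involution (fun i _ => Fin.rev i) ?_ ?_ ?_ ?_
  · intro i _
    exact h1 i
  · intro i _ _
    exact rv_ne i
  · intro i _
    exact Finset.mem_univ _
  · intro i _
    exact Fin.rev_rev i

/-- elimination, odd characteristic -/
lemma elim_odd (hk : 2 ≤ k) (h2 : (2 : K) ≠ 0) :
    ∀ A ∈ SOD k K, ∃ e ∈ ⁅SOD k K, SOD k K⁆, Mon (e * A) 1 := by
  intro A hA
  obtain ⟨e, he, n, hn, hm, rfl⟩ := elim hA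
  refine ⟨e⁻¹, by rw [comm_eq hk]; exact inv_mem he, ?_⟩
  rw [inv_mul_cancel_left]
  rcases hm with h | h
  · exact h
  · exfalso
    have h3 : (tg k K n * rho k K).1.det = 1 := by
      refine diag_det (mul_mem (tg_mem.2 hn) rho_mem) ?_
      intro i j hij
      show (n.1 * pM (pp k) K) i j = 0
      rw [mul_pM_apply]
      refine mon_eq h ?_
      have h4 : (pp k).symm j = pp k j := by
        rw [Equiv.symm_apply_eq, pp_pp]
      rw [h4, pp_pp]
      exact hij
    rw [Units.val_mul, det_mul, rho_det] at h3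
    have h4 : (tg k K n).1.det = 1 := n.2
    rw [h4] at h3
    apply h2
    linear_combination -h3

/-- **`PΩ(Q)`, plus type**, dimension `2 k + 2 ≥ 6`, any finite field -/
theorem poq_pod (hk : 2 ≤ k) (Q : QuadraticForm K (Fin (2 * k + 1 + 1) → K))
    (P : GL (Fin (2 * k + 1 + 1)) K) (hP : ∀ v, Q (P.1 *ᵥ v) = Qd k K v) :
    Nonempty (POQ Q ≃* POD k K) := by
  obtain ⟨e⟩ := poq_split (by omega) (by
    by_cases h2 : (2 : K) = 0
    · exact Or.inl h2
    · exact Or.inr (elim_odd hk h2)) (fun a b h h' t => xr_comm hk h h' t) Q P hP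
  have e1 : ↥(commutator ↥(SOD k K)) ≃* ↥⁅SOD k K, SOD k K⁆ :=
    ((commutator ↥(SOD k K)).equivMapOfInjective (SOD k K).subtype Subtype.val_injective).trans
      (MulEquiv.subgroupCongr (map_subtype_commutator (SOD k K)))
  exact ⟨e.trans (centreIso e1).symm⟩

end

end Vale.Agent.P240.R2.H432.Q
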