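import Vale.Agent.P240.R2.H145.EP
import Vale.Agent.P240.R2.H432.QD

/-!
The isomorphism of the root group of type `D_4` modulo its centre with the simple orthogonal group of
a diagonal form of plus type, given by conjugation with a matrix.
-/

set_option autoImplicit false
set_option linter.all false

namespace Vale.Agent.P240.R2.H432.Q5

open Subgroup Matrix Vale.Agent.P240.R2.H38.DD
open Vale.Agent.P240.R2.H145.EO (B ac OD PO B_comm B_add_left B_add_right)
open Vale.Agent.P240.R2.H432.Q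

universe u v

section
variable {H : Type u} {O : Type v} [Group H] [Group O]

/-- the derived group of `O / Z(O)` from an injective homomorphism onto the derived group of `O` -/
theorem der_equiv' (f : H →* O) (hf : Function.Injective f) (hr : f.range = commutator O)
    (hc : ∀ x ∈ commutator O, (∀ y ∈ commutator O, x * y = y * x) → x ∈ center O) :
    ∃ e : (H ⧸ center H) ≃* ↥(commutator (O ⧸ center O)), ∀ x : H,
      ((e (QuotientGroup.mk' (center H) x) : ↥(commutator (O ⧸ center O))) : O ⧸ center O) =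
        QuotientGroup.mk' (center O) (f x) := by
  let g : H →* O ⧸ center O := (QuotientGroup.mk' (center O)).comp f
  have hrange : g.range = commutator (O ⧸ center O) := by
    rw [MonoidHom.range_comp, hr, commutator_def, Subgroup.map_commutator, commutator_def]
    rw [Subgroup.map_top_of_surjective _ (QuotientGroup.mk'_surjective _)]
  have hker : ∀ x, g x = 1 ↔ x ∈ center H := by
    intro x
    have h1 : g x = 1 ↔ f x ∈ center O := QuotientGroup.eq_one_iff _
    rw [h1]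
    constructor
    · intro h
      rw [Subgroup.mem_center_iff] at h ⊢
      intro y
      apply hf
      rw [map_mul, map_mul]
      exact h (f y)
    · intro h
      rw [Subgroup.mem_center_iff] at h
      refine hc _ (by rw [← hr]; exact ⟨x, rfl⟩) ?_
      intro y hy
      rw [← hr] at hy
      obtain ⟨z, rfl⟩ := hy
      rw [← map_mul, ← map_mul, h z]
  let g' : H →* ↥(commutator (O ⧸ center O)) :=
    g.codRestrict _ (fun x => by rw [← hrange]; exact ⟨x, rfl⟩)
  have hg' : ∀ x, (g' x : O ⧸ center O) = g x := fun x => rfl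
  have hz : ∀ x ∈ center H, g' x = 1 := fun x hx => Subtype.ext ((hker x).2 hx)
  let M : H ⧸ center H →* ↥(commutator (O ⧸ center O)) := QuotientGroup.lift (center H) g' hz
  have hM : ∀ x : H, M (QuotientGroup.mk' (center H) x) = g' x := fun x => rfl
  have hinj : Function.Injective M := by
    rw [injective_iff_map_eq_one]
    intro y hy
    obtain ⟨x, rfl⟩ := QuotientGroup.mk'_surjective _ y
    rw [hM] at hy
    have h1 : g x = 1 := congrArg Subtype.val hy
    exact (QuotientGroup.eq_one_iff x).2 ((hker x).1 h1)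
  have hsurj : Function.Surjective M := by
    intro y
    have h1 : y.1 ∈ g.range := by rw [hrange]; exact y.2
    obtain ⟨x, hx⟩ := h1
    exact ⟨QuotientGroup.mk' _ x, Subtype.ext hx⟩
  exact ⟨MulEquiv.ofBijective M ⟨hinj, hsurj⟩, fun x => rfl⟩

end

section
variable {K : Type u} [Field K]

lemma B_pol {a x y : VI 3 → K} : B a (x + y) (x + y) = B a x x + B a y y + 2 * B a x y := by
  rw [B_add_left, B_add_right, B_add_right, B_comm y x]
  ring

lemma mem_iff (h2 : (2 : K) ≠ 0) {a : VI 3 → K} (P : GL (VI 3) K)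
    (hP : ∀ v, B a (P.1 *ᵥ v) (P.1 *ᵥ v) = Qd 3 K v) (g : GL (VI 3) K) :
    P * g * P⁻¹ ∈ OD a ↔ g ∈ OD0 3 K := by
  have h0 : ∀ w : VI 3 → K, (P * g * P⁻¹).1 *ᵥ (P.1 *ᵥ w) = P.1 *ᵥ (g.1 *ᵥ w) := by
    intro w
    rw [mulVec_mulVec, mulVec_mulVec, ← Units.val_mul, ← Units.val_mul]
    congr 2
    group
  constructor
  · intro h v
    have h1 : B a (ac (P * g * P⁻¹) (P.1 *ᵥ v)) (ac (P * g * P⁻¹) (P.1 *ᵥ v)) =
      B a (P.1 *ᵥ v) (P.1 *ᵥ v) := h _ _
    have h3 : ac (P * g * P⁻¹) (P.1 *ᵥ v) = P.1 *ᵥ (g.1 *ᵥ v) := h0 v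
    rw [h3, hP, hP] at h1
    exact h1
  · intro hg
    have hq : ∀ v : VI 3 → K, B a (ac (P * g * P⁻¹) v) (ac (P * g * P⁻¹) v) = B a v v := by
      intro v
      have h4 : v = P.1 *ᵥ (P⁻¹.1 *ᵥ v) := by
        rw [mulVec_mulVec, ← Units.val_mul, mul_inv_cancel, Units.val_one, one_mulVec]
      obtain ⟨w, rfl⟩ : ∃ w, v = P.1 *ᵥ w := ⟨_, h4⟩
      have h3 : ac (P * g * P⁻¹) (P.1 *ᵥ w) = P.1 *ᵥ (g.1 *ᵥ w) := h0 w
      rw [h3, hP, hP]
      exact hg w
    intro x y
    have h3 := hq (x + y)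
    have h4 : ac (P * g * P⁻¹) (x + y) = ac (P * g * P⁻¹) x + ac (P * g * P⁻¹) y :=
      mulVec_add _ _ _
    rw [h4, B_pol, B_pol, hq, hq] at h3
    exact mul_left_cancel₀ h2 (add_left_cancel h3)

theorem iso_P [Fintype K] (h2 : (2 : K) ≠ 0) {a : VI 3 → K} (P : GL (VI 3) K)
    (hP : ∀ v, B a (P.1 *ᵥ v) (P.1 *ᵥ v) = Qd 3 K v) :
    ∃ e : (↥(EE 3 K) ⧸ center ↥(EE 3 K)) ≃* ↥(commutator (PO a)), ∀ x : ↥(EE 3 K),
      ∃ h : P * tg 3 K x.1 * P⁻¹ ∈ OD a,
        ((e (QuotientGroup.mk' _ x) : ↥(commutator (PO a))) : PO a) =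
          QuotientGroup.mk ⟨P * tg 3 K x.1 * P⁻¹, h⟩ := by
  have hk : 2 ≤ 3 := by omega
  have hDD : ⁅SOD 3 K, SOD 3 K⁆ = EE 3 K := comm_eq hk
  have hmem : ∀ x : ↥(EE 3 K), P * tg 3 K x.1 * P⁻¹ ∈ OD a := fun x =>
    (mem_iff h2 P hP _).2 (tg_mem.2 (EE_good.le x.2))
  let f : ↥(EE 3 K) →* ↥(OD a) :=
    ((MulAut.conj P).toMonoidHom.comp ((tg 3 K).comp (EE 3 K).subtype)).codRestrict (OD a) hmem
  have hfv : ∀ A, (f A).1 = P * tg 3 K A.1 * P⁻¹ := fun A => rfl
  have hfi : Function.Injective f := by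
    intro A A' h
    have h1 := congrArg Subtype.val h
    rw [hfv, hfv] at h1
    exact Subtype.ext (tg_inj (mul_left_cancel (mul_right_cancel h1)))
  have hO : (OD0 3 K).map (MulAut.conj P).toMonoidHom = OD a := by
    ext g
    constructor
    · rintro ⟨h, hh, rfl⟩
      exact (mem_iff h2 P hP _).2 hh
    · intro hg
      refine ⟨P⁻¹ * g * P, ?_, ?_⟩
      · apply (mem_iff h2 P hP _).1
        have : P * (P⁻¹ * g * P) * P⁻¹ = g := by group
        rw [this]
        exact hg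
      · show P * (P⁻¹ * g * P) * P⁻¹ = g
        group
  have hr : f.range = commutator ↥(OD a) := by
    have h1 : (commutator ↥(OD a)).map (OD a).subtype = ⁅OD a, OD a⁆ :=
      Subgroup.map_subtype_commutator _
    have h3 : ⁅OD a, OD a⁆ = ((EE 3 K).map (tg 3 K)).map (MulAut.conj P).toMonoidHom := by
      rw [← hO, ← Subgroup.map_commutator, comm_odd (by omega) (elim_odd hk h2), hDD]
    ext x
    have h4 : x ∈ commutator ↥(OD a) ↔ x.1 ∈ ⁅OD a, OD a⁆ := by
      rw [← h1]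
      constructor
      · intro h
        exact ⟨x, h, rfl⟩
      · rintro ⟨y, hy, hyx⟩
        have h5 : y = x := Subtype.ext hyx
        exact h5 ▸ hy
    rw [h4, h3]
    constructor
    · rintro ⟨A, rfl⟩
      exact ⟨_, ⟨A.1, A.2, rfl⟩, rfl⟩
    · rintro ⟨_, ⟨A, hA, rfl⟩, hAx⟩
      exact ⟨⟨A, hA⟩, Subtype.ext hAx⟩
  obtain ⟨e, he⟩ := der_equiv' f hfi hr fun x _ hx' => by
    have h1 : ∀ i j : VI 3, i ≠ j → i ≠ Fin.rev j →
        (P⁻¹ * x.1 * P).1 * (xr i j (1 : K)).1 = (xr i j (1 : K)).1 * (P⁻¹ * x.1 * P).1 := by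
      intro i j hij hij'
      have h3 := hx' (f ⟨xr i j 1, xr_EE hij hij' 1⟩) (by rw [← hr]; exact ⟨_, rfl⟩)
      have h4 : x.1 * (P * tg 3 K (xr i j 1) * P⁻¹) = P * tg 3 K (xr i j 1) * P⁻¹ * x.1 :=
        congrArg Subtype.val h3
      have h5 : P⁻¹ * x.1 * P * tg 3 K (xr i j 1) = tg 3 K (xr i j 1) * (P⁻¹ * x.1 * P) := by
        calc P⁻¹ * x.1 * P * tg 3 K (xr i j 1)
            = P⁻¹ * (x.1 * (P * tg 3 K (xr i j 1) * P⁻¹)) * P := by group
          _ = P⁻¹ * (P * tg 3 K (xr i j 1) * P⁻¹ * x.1) * P := by rw [h4]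
          _ = _ := by group
      exact congrArg Units.val h5
    obtain ⟨c, hc⟩ := scalar_of (by omega) h1
    have h6 : x.1.1 = c • (1 : Matrix (VI 3) (VI 3) K) := by
      have h7 : x.1 = P * (P⁻¹ * x.1 * P) * P⁻¹ := by group
      rw [h7, Units.val_mul, Units.val_mul, hc, mul_smul_comm, mul_one, smul_mul_assoc,
        ← Units.val_mul, mul_inv_cancel, Units.val_one]
    rw [Subgroup.mem_center_iff]
    intro y
    apply Subtype.ext
    apply Units.ext
    show y.1.1 * x.1.1 = x.1.1 * y.1.1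
    rw [h6, mul_smul_comm, mul_one, smul_mul_assoc, one_mul]
  exact ⟨e, fun x => ⟨hmem x, he x⟩⟩

end

end Vale.Agent.P240.R2.H432.Q5
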