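import Vale.Agent.P240.R2.H145.EO1
import Vale.Agent.P240.R2.H38.D1
import Vale.Agent.P240.R2.H401.DDefs
import Vale.Agent.P240.R2.H945.EH

/-!
The form `(1, .., 1, d)` in dimension `8`, where `d` is a square, is of plus type.
-/

set_option autoImplicit false
set_option linter.all false

namespace Vale.Agent.P240.R2.H432.Q5

open Matrix Vale.Agent.P240.R2.H38.DD Vale.Agent.P240.R2.H145.EO Vale.Agent.P240.R2.H401.D

universe u

section
variable {K : Type u} [Field K]

/-- the signs -/
def sg (K : Type*) [Field K] (i : VI 3) : K := if i < Fin.rev i then 1 else -1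

lemma sg_rev (i : VI 3) : sg K (Fin.rev i) = -sg K i := by
  unfold sg
  rw [Fin.rev_rev]
  by_cases h : i < Fin.rev i
  · rw [if_pos h, if_neg (not_lt.2 h.le)]
  · rw [if_neg h, if_pos (lt_of_le_of_ne (not_lt.1 h) (rv_ne i)), neg_neg]

lemma sg_sq (i : VI 3) : sg K i * sg K i = 1 := by
  unfold sg
  split_ifs <;> ring

/-- `v ↦ (v_i ± v_(rev i))` -/
def fl (K : Type*) [Field K] : (VI 3 → K) →ₗ[K] (VI 3 → K) where
  toFun v := fun i => sg K i * v i + v (Fin.rev i)
  map_add' v w := by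
    funext i
    simp only [Pi.add_apply]
    ring
  map_smul' t v := by
    funext i
    simp only [Pi.smul_apply, smul_eq_mul, RingHom.id_apply]
    ring

lemma fl_fl (v : VI 3 → K) : fl K (fl K v) = (2 : K) • v := by
  funext i
  change sg K i * (sg K i * v i + v (Fin.rev i)) +
    (sg K (Fin.rev i) * v (Fin.rev i) + v (Fin.rev (Fin.rev i))) = 2 * v i
  rw [Fin.rev_rev, sg_rev]
  linear_combination v i * sg_sq (K := K) i

lemma Qd_fl (v : VI 3 → K) : Qd 3 K (fl K v) = ∑ i, sg K i * v i * v i := by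
  unfold Qd
  have h1 : ∀ i : VI 3, i < Fin.rev i → fl K v i * fl K v (Fin.rev i) =
      v i * v i - v (Fin.rev i) * v (Fin.rev i) := by
    intro i hi
    change (sg K i * v i + v (Fin.rev i)) * (sg K (Fin.rev i) * v (Fin.rev i) +
      v (Fin.rev (Fin.rev i))) = _
    rw [Fin.rev_rev, sg_rev]
    have h2 : sg K i = 1 := if_pos hi
    rw [h2]
    ring
  rw [Finset.sum_congr rfl fun i hi => h1 i (Finset.mem_filter.1 hi).2, Finset.sum_sub_distrib]
  have h2 : ∑ i with i < Fin.rev i, v (Fin.rev i) * v (Fin.rev i) =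
      ∑ i with ¬ (i < Fin.rev i), v i * v i := by
    refine Finset.sum_bij' (fun i _ => Fin.rev i) (fun i _ => Fin.rev i) ?_ ?_ ?_ ?_ ?_
    · intro i hi
      have := (Finset.mem_filter.1 hi).2
      simp only [Finset.mem_filter, Finset.mem_univ, true_and, Fin.rev_rev]
      exact not_lt.2 this.le
    · intro i hi
      have := (Finset.mem_filter.1 hi).2
      simp only [Finset.mem_filter, Finset.mem_univ, true_and, Fin.rev_rev]
      exact lt_of_le_of_ne (not_lt.1 this) (rv_ne i)
    · intro i _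
      exact Fin.rev_rev i
    · intro i _
      exact Fin.rev_rev i
    · intro i _
      rfl
  rw [h2, ← Finset.sum_filter_add_sum_filter_not Finset.univ (fun i : VI 3 => i < Fin.rev i)
    (fun i => sg K i * v i * v i)]
  have h3 : ∑ i with i < Fin.rev i, sg K i * v i * v i = ∑ i with i < Fin.rev i, v i * v i := by
    refine Finset.sum_congr rfl fun i hi => ?_
    have h4 : sg K i = 1 := if_pos (Finset.mem_filter.1 hi).2
    rw [h4, one_mul]
  have h4 : ∑ i with ¬ (i < Fin.rev i), sg K i * v i * v i =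
      - ∑ i with ¬ (i < Fin.rev i), v i * v i := by
    rw [← Finset.sum_neg_distrib]
    refine Finset.sum_congr rfl fun i hi => ?_
    have h4 : sg K i = -1 := if_neg (Finset.mem_filter.1 hi).2
    rw [h4]
    ring
  rw [h3, h4]
  ring

lemma prod_sg : ∏ i, sg K i = 1 := by
  have h : ∀ i : VI 3, sg K i = if i.val ≤ 3 then 1 else -1 := by
    intro i
    unfold sg
    simp only [lt_rv]
  rw [Finset.prod_congr rfl fun i _ => h i]
  change ∏ i : Fin 8, (if i.val ≤ 3 then (1 : K) else -1) = 1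
  rw [Fin.prod_univ_eight]
  norm_num

theorem exists_P [Fintype K] (h2 : (2 : K) ≠ 0) {d : K} (hd : d ≠ 0) (hsq : IsSquare d) :
    ∃ P : GL (VI 3) K, ∀ v : VI 3 → K, B (fd 7 d) (P.1 *ᵥ v) (P.1 *ᵥ v) = Qd 3 K v := by
  obtain ⟨s, hs⟩ := hsq
  have hs0 : s ≠ 0 := by
    rintro rfl
    exact hd (by rw [hs, mul_zero])
  obtain ⟨N, hN⟩ := H945.EH.exists_disc_sq h2 (Fin.last 7 : VI 3) (sg K)
    (fun i => by
      intro h0
      have := sg_sq (K := K) i
      rw [h0, mul_zero] at this
      exact zero_ne_one this) (e := s⁻¹) (D := d) (inv_ne_zero hs0) (by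
        rw [prod_sg, hs]
        field_simp)
  have hN' : Nᵀ * diagonal (sg K) * N = diagonal (fd 7 d) := hN
  have hNdet : N.det ≠ 0 := by
    intro h0
    have h1 := congrArg Matrix.det hN'
    rw [det_mul, h0, mul_zero, det_diagonal] at h1
    have h3 : ∀ i, fd 7 d i ≠ 0 := by
      intro i
      unfold fd
      split_ifs
      · exact hd
      · exact one_ne_zero
    exact Finset.prod_ne_zero_iff.2 (fun i _ => h3 i) h1.symm
  have hF : LinearMap.toMatrix' (fl K) * LinearMap.toMatrix' (fl K) =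
      (2 : K) • (1 : Matrix (VI 3) (VI 3) K) := by
    rw [← LinearMap.toMatrix'_comp]
    have h1 : fl K ∘ₗ fl K = (2 : K) • LinearMap.id := by
      ext1 i
      ext1
      exact fl_fl _
    rw [h1, map_smul, LinearMap.toMatrix'_id]
  have hFdet : (LinearMap.toMatrix' (fl K)).det ≠ 0 := by
    intro h0
    have h1 := congrArg Matrix.det hF
    rw [det_mul, h0, mul_zero, det_smul, det_one, mul_one] at h1
    exact pow_ne_zero _ h2 h1.symm
  have hR : (LinearMap.toMatrix' (fl K) * N).det ≠ 0 := by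
    rw [det_mul]
    exact mul_ne_zero hFdet hNdet
  obtain ⟨R, hRe⟩ : ∃ R : GL (VI 3) K, R.1 = LinearMap.toMatrix' (fl K) * N :=
    ⟨Matrix.GeneralLinearGroup.mkOfDetNeZero _ hR, rfl⟩
  have key : ∀ w : VI 3 → K, B (fd 7 d) w w = Qd 3 K (R.1 *ᵥ w) := by
    intro w
    have h1 : R.1 *ᵥ w = fl K (N *ᵥ w) := by
      rw [hRe, ← mulVec_mulVec, LinearMap.toMatrix'_mulVec]
    rw [h1, Qd_fl]
    have h3 : w ⬝ᵥ (diagonal (fd 7 d) *ᵥ w) = (N *ᵥ w) ⬝ᵥ (diagonal (sg K) *ᵥ (N *ᵥ w)) := by
      rw [← hN', ← mulVec_mulVec, ← mulVec_mulVec, dotProduct_mulVec, vecMul_transpose]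
    have h4 : B (fd 7 d) w w = w ⬝ᵥ (diagonal (fd 7 d) *ᵥ w) := by
      unfold B
      refine Finset.sum_congr rfl fun i _ => ?_
      rw [mulVec_diagonal]
      ring
    rw [h4, h3]
    refine Finset.sum_congr rfl fun i _ => ?_
    rw [mulVec_diagonal]
    ring
  refine ⟨R⁻¹, fun v => ?_⟩
  rw [key, mulVec_mulVec, ← Units.val_mul, mul_inv_cancel, Units.val_one, one_mulVec]

end

end Vale.Agent.P240.R2.H432.Q5
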