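import Vale.Agent.P240.R2.H432.QDefs

/-!
Abstract lemmas: the derived group of a group modulo its centre.
-/

set_option autoImplicit false
set_option linter.all false

namespace Vale.Agent.P240.R2.H432.Q

open Subgroup

universe u v

section
variable {H : Type u} {O : Type v} [Group H] [Group O]

/-- the derived group of `O / Z(O)` from an injective homomorphism onto the derived group of `O` -/
theorem der_equiv (f : H →* O) (hf : Function.Injective f) (hr : f.range = commutator O)
    (hc : ∀ x ∈ commutator O, (∀ y ∈ commutator O, x * y = y * x) → x ∈ center O) :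
    Nonempty (↥(commutator (O ⧸ center O)) ≃* H ⧸ center H) := by
  let g : H →* O ⧸ center O := (QuotientGroup.mk' (center O)).comp f
  have hrange : g.range = commutator (O ⧸ center O) := by
    rw [MonoidHom.range_comp, hr, commutator_def, Subgroup.map_commutator, commutator_def]
    rw [Subgroup.map_top_of_surjective _ (QuotientGroup.mk'_surjective _)]
  have hker : g.ker = center H := by
    ext x
    rw [MonoidHom.mem_ker]
    have h1 : g x = 1 ↔ f x ∈ center O := QuotientGroup.eq_one_iff _
    rw [h1]
    constructor
    · intro h
      rw [Subgroup.mem_center_iff] at h ⊢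
      intro y
      apply hf
      rw [map_mul, map_mul]
      exact h (f y)
    · intro h
      rw [Subgroup.mem_center_iff] at h
      refine hc _ (by rw [← hr]; exact ⟨x, rfl⟩) ?_
      intro y hy
      rw [← hr] at hy
      obtain ⟨z, rfl⟩ := hy
      rw [← map_mul, ← map_mul, h z]
  have e1 := QuotientGroup.quotientKerEquivRange g
  have e2 := QuotientGroup.quotientMulEquivOfEq hker
  have e3 := MulEquiv.subgroupCongr hrange
  exact ⟨(e2.symm.trans (e1.trans e3)).symm⟩

/-- transport along an isomorphism -/
theorem der_congr (e : H ≃* O) :
    Nonempty (↥(commutator (H ⧸ center H)) ≃* ↥(commutator (O ⧸ center O))) := by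
  have h1 : (center H).map e.toMonoidHom = center O := by
    ext x
    constructor
    · rintro ⟨y, hy, rfl⟩
      have hy' := Subgroup.mem_center_iff.1 hy
      rw [Subgroup.mem_center_iff]
      intro z
      have h2 := congrArg e (hy' (e.symm z))
      rw [map_mul, map_mul, MulEquiv.apply_symm_apply] at h2
      exact h2
    · intro hx
      rw [Subgroup.mem_center_iff] at hx
      refine ⟨e.symm x, ?_, e.apply_symm_apply x⟩
      show e.symm x ∈ center H
      rw [Subgroup.mem_center_iff]
      intro z
      apply e.injective
      rw [map_mul, map_mul, MulEquiv.apply_symm_apply]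
      exact hx (e z)
  let E : H ⧸ center H ≃* O ⧸ center O := QuotientGroup.congr _ _ e h1
  have h2 : (commutator (H ⧸ center H)).map E.toMonoidHom = commutator (O ⧸ center O) := by
    have h3 : (⊤ : Subgroup (H ⧸ center H)).map E.toMonoidHom = ⊤ :=
      Subgroup.map_top_of_surjective E.toMonoidHom E.surjective
    rw [commutator_def, Subgroup.map_commutator, commutator_def, h3]
  exact ⟨(E.subgroupMap (commutator (H ⧸ center H))).trans (MulEquiv.subgroupCongr h2)⟩

end

end Vale.Agent.P240.R2.H432.Q
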