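import Vale.Agent.P240.R2.H432.QA
import Vale.Agent.P240.R2.H38.D4

/-!
The derived group of an orthogonal group and the derived group of its elements of determinant one.
-/

set_option autoImplicit false
set_option linter.all false

namespace Vale.Agent.P240.R2.H432.Q

open Subgroup Matrix Vale.Agent.P240.H195
open Vale.Agent.P240.R2.H38.DD
open scoped commutatorElement

universe u

section
variable {k : ℕ} {K : Type u} [Field K]

/-- from the special linear group to the general linear group -/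
abbrev tg (k : ℕ) (K : Type u) [Field K] : SLm (2 * k + 1) K →* GL (VI k) K :=
  SpecialLinearGroup.toGL

lemma tg_coe (A : SLm (2 * k + 1) K) : (tg k K A).1 = A.1 := rfl

lemma tg_inj : Function.Injective (tg k K) := by
  intro A B h
  exact Subtype.ext (congrArg Units.val h)

/-- permutation matrices -/
def pM (σ : Equiv.Perm (VI k)) (K : Type u) [Field K] : Matrix (VI k) (VI k) K :=
  (1 : Matrix (VI k) (VI k) K).submatrix σ id

lemma pM_apply (σ : Equiv.Perm (VI k)) (i j : VI k) :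
    pM σ K i j = if σ i = j then 1 else 0 := by
  rw [pM, Matrix.submatrix_apply, Matrix.one_apply]
  rfl

lemma pM_det (σ : Equiv.Perm (VI k)) : (pM σ K).det = Equiv.Perm.sign σ := by
  rw [pM, Matrix.det_permute, det_one, mul_one]

lemma pM_mul_apply (σ : Equiv.Perm (VI k)) (A : Matrix (VI k) (VI k) K) (i j : VI k) :
    (pM σ K * A) i j = A (σ i) j := by
  rw [Matrix.mul_apply]
  simp only [pM_apply, ite_mul, one_mul, zero_mul]
  rw [Finset.sum_ite_eq Finset.univ (σ i) (fun l => A l j), if_pos (Finset.mem_univ _)]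

lemma mul_pM_apply (σ : Equiv.Perm (VI k)) (A : Matrix (VI k) (VI k) K) (i j : VI k) :
    (A * pM σ K) i j = A i (σ.symm j) := by
  rw [Matrix.mul_apply]
  simp only [pM_apply, mul_ite, mul_one, mul_zero]
  rw [Finset.sum_eq_single (σ.symm j)]
  · rw [if_pos (σ.apply_symm_apply j)]
  · intro l _ hl
    rw [if_neg]
    intro h
    exact hl (by rw [← h, σ.symm_apply_apply])
  · exact fun h => absurd (Finset.mem_univ _) h

/-- the reflection that interchanges the two middle vectors -/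
def rho (k : ℕ) (K : Type u) [Field K] : GL (VI k) K where
  val := pM (pp k) K
  inv := pM (pp k) K
  val_inv := by
    ext i j
    rw [pM_mul_apply, pM_apply, pp_pp, Matrix.one_apply]
  inv_val := by
    ext i j
    rw [pM_mul_apply, pM_apply, pp_pp, Matrix.one_apply]

lemma rho_mul : rho k K * rho k K = 1 := by
  apply Units.ext
  exact (rho k K).val_inv

lemma rho_inv : (rho k K)⁻¹ = rho k K := inv_eq_of_mul_eq_one_left rho_mul

lemma rho_conj (A : SLm (2 * k + 1) K) : rho k K * tg k K A * (rho k K)⁻¹ = tg k K (gm k K A) := by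
  rw [rho_inv]
  apply Units.ext
  ext i j
  show (pM (pp k) K * A.1 * pM (pp k) K) i j = (gm k K A).1 i j
  rw [mul_pM_apply, pM_mul_apply, gm_apply]
  rfl

lemma rho_det : (rho k K).1.det = -1 := by
  show (pM (pp k) K).det = -1
  rw [pM_det, pp, Equiv.Perm.sign_swap c0_ne]
  simp

/-- the first index -/
def z0 (k : ℕ) : VI k := ⟨0, by omega⟩

/-- the permutation that interchanges the two middle indices and the two outer indices -/
def sg (k : ℕ) : Equiv.Perm (VI k) := pp k * Equiv.swap (z0 k) (Fin.rev (z0 k))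

lemma z0_ne (hk : 0 < k) : z0 k ≠ c0 k := by
  intro h
  have := congrArg Fin.val h
  change 0 = k at this
  omega

lemma z0_ne' (hk : 0 < k) : z0 k ≠ c1 k := by
  intro h
  have := congrArg Fin.val h
  change 0 = k + 1 at this
  omega

lemma rz0_ne (hk : 0 < k) : Fin.rev (z0 k) ≠ c0 k := by
  intro h
  apply z0_ne' hk
  rw [← Fin.rev_rev (z0 k), h, rev_c0]

lemma rz0_ne' (hk : 0 < k) : Fin.rev (z0 k) ≠ c1 k := by
  intro h
  apply z0_ne hk
  rw [← Fin.rev_rev (z0 k), h, rev_c1]

/-- the monomial matrix of `sg` -/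
def wE (k : ℕ) (K : Type u) [Field K] : SLm (2 * k + 1) K := ⟨pM (sg k) K, by
  rw [pM_det, sg, Equiv.Perm.sign_mul, pp, Equiv.Perm.sign_swap c0_ne,
    Equiv.Perm.sign_swap (rv_ne (z0 k)).symm]
  simp⟩

lemma wE_apply (i j : VI k) : (wE k K).1 i j = if sg k i = j then 1 else 0 := pM_apply _ _ _

/-- the middle part of a diagonal matrix -/
def mf (t : SLm (2 * k + 1) K) (i : VI k) : K := if i = c0 k ∨ i = c1 k then t.1 i i else 1

lemma mf_c0 (t : SLm (2 * k + 1) K) : mf t (c0 k) = t.1 (c0 k) (c0 k) := if_pos (Or.inl rfl)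

lemma mf_c1 (t : SLm (2 * k + 1) K) : mf t (c1 k) = t.1 (c1 k) (c1 k) := if_pos (Or.inr rfl)

lemma mf_ne (t : SLm (2 * k + 1) K) {i : VI k} (h0 : i ≠ c0 k) (h1 : i ≠ c1 k) : mf t i = 1 :=
  if_neg (by rintro (h | h); exacts [h0 h, h1 h])

lemma mf_prod {t : SLm (2 * k + 1) K} (ht : t.1 (c0 k) (c0 k) * t.1 (c1 k) (c1 k) = 1) :
    ∏ i, mf t i = 1 := by
  have h1 : ∀ i, mf t i = (if i = c0 k then t.1 (c0 k) (c0 k) else 1) *
      (if i = c1 k then t.1 (c1 k) (c1 k) else 1) := by
    intro i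
    by_cases h0 : i = c0 k
    · subst h0
      rw [mf_c0, if_pos rfl, if_neg c0_ne, mul_one]
    · by_cases h1 : i = c1 k
      · subst h1
        rw [mf_c1, if_pos rfl, if_neg h0, one_mul]
      · rw [mf_ne t h0 h1, if_neg h0, if_neg h1, one_mul]
  rw [Finset.prod_congr rfl fun i _ => h1 i, Finset.prod_mul_distrib, Finset.prod_ite_eq',
    Finset.prod_ite_eq', if_pos (Finset.mem_univ _), if_pos (Finset.mem_univ _), ht]

/-- the middle part of a diagonal matrix -/
def mid (t : SLm (2 * k + 1) K) (ht : t.1 (c0 k) (c0 k) * t.1 (c1 k) (c1 k) = 1) :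
    SLm (2 * k + 1) K :=
  ⟨Matrix.diagonal (mf t), by rw [det_diagonal, mf_prod ht]⟩

lemma mid_mul_apply (t : SLm (2 * k + 1) K) (ht : t.1 (c0 k) (c0 k) * t.1 (c1 k) (c1 k) = 1)
    (A : SLm (2 * k + 1) K) (i j : VI k) : (mid t ht * A).1 i j = mf t i * A.1 i j := by
  rw [SpecialLinearGroup.coe_mul]
  show (Matrix.diagonal (mf t) * A.1) i j = _
  rw [Matrix.diagonal_mul]

lemma mul_mid_apply (t : SLm (2 * k + 1) K) (ht : t.1 (c0 k) (c0 k) * t.1 (c1 k) (c1 k) = 1)
    (A : SLm (2 * k + 1) K) (i j : VI k) : (A * mid t ht).1 i j = A.1 i j * mf t j := by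
  rw [SpecialLinearGroup.coe_mul]
  show (A.1 * Matrix.diagonal (mf t)) i j = _
  rw [Matrix.mul_diagonal]

lemma mon_one_mul {t : SLm (2 * k + 1) K} (ht : Mon t 1) (A : SLm (2 * k + 1) K) (i j : VI k) :
    (t * A).1 i j = t.1 i i * A.1 i j := by
  rw [sl_mul, Finset.sum_eq_single i]
  · intro l _ hl
    rw [mon_eq ht (show i ≠ (1 : Equiv.Perm (VI k)) l from hl.symm), zero_mul]
  · exact fun h => absurd (Finset.mem_univ _) h

lemma mon_gm {t : SLm (2 * k + 1) K} (ht : Mon t 1) : Mon (gm k K t) 1 := by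
  intro i j hij
  rw [gm_apply] at hij
  have h1 := ht _ _ hij
  exact (pp k).injective h1

lemma mon_inv1 [Finite K] {t : SLm (2 * k + 1) K} (ht : Mon t 1) : Mon t⁻¹ 1 := by
  have := mon_inv ht
  rwa [inv_one] at this

/-- the commutator of the middle part with the monomial matrix -/
lemma comm_mid [Finite K] (hk : 0 < k) {t : SLm (2 * k + 1) K} (ht : Mon t 1)
    (h1 : t.1 (c0 k) (c0 k) * t.1 (c1 k) (c1 k) = 1) :
    ⁅mid t h1, wE k K⁆ = t * (gm k K t)⁻¹ := by
  obtain ⟨d, hd⟩ : ∃ d, d = t * (gm k K t)⁻¹ := ⟨_, rfl⟩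
  have hdm : Mon d 1 := by
    rw [hd]
    have := mon_mul ht (mon_inv1 (mon_gm ht))
    rwa [mul_one] at this
  have hdt : ∀ i, d.1 i i * t.1 (pp k i) (pp k i) = t.1 i i := by
    intro i
    have h2 : d * gm k K t = t := by rw [hd, inv_mul_cancel_right]
    have h3 := congrArg (fun A : SLm (2 * k + 1) K => A.1 i i) h2
    simp only [mon_one_mul hdm, gm_apply] at h3
    exact h3
  rw [← hd]
  have h4 : mid t h1 * wE k K = d * (wE k K * mid t h1) := by
    refine sl_ext fun i j => ?_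
    rw [mid_mul_apply, mon_one_mul hdm, mul_mid_apply, wE_apply]
    by_cases hij : sg k i = j
    · rw [if_pos hij, mul_one, one_mul, ← hij]
      -- the entries
      have hne : ∀ x y : VI k, x ≠ y → t.1 x y = 0 := fun x y hxy =>
        mon_eq ht (show x ≠ (1 : Equiv.Perm (VI k)) y from hxy)
      have htn : ∀ x : VI k, t.1 x x ≠ 0 := fun x => mon_ne ht x
      have e0 : sg k (c0 k) = c1 k := by
        rw [sg, Equiv.Perm.mul_apply, Equiv.swap_apply_of_ne_of_ne (z0_ne hk).symm
          (rz0_ne hk).symm, pp, Equiv.swap_apply_left]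
      have e1 : sg k (c1 k) = c0 k := by
        rw [sg, Equiv.Perm.mul_apply, Equiv.swap_apply_of_ne_of_ne (z0_ne' hk).symm
          (rz0_ne' hk).symm, pp, Equiv.swap_apply_right]
      by_cases h0 : i = c0 k
      · have h5 := hdt (c0 k)
        rw [pp, Equiv.swap_apply_left] at h5
        rw [h0, e0, mf_c0, mf_c1, h5]
      · by_cases h0' : i = c1 k
        · have h5 := hdt (c1 k)
          rw [pp, Equiv.swap_apply_right] at h5
          rw [h0', e1, mf_c0, mf_c1, h5]
        · have h5 := hdt i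
          rw [pp, Equiv.swap_apply_of_ne_of_ne h0 h0'] at h5
          have h6 : d.1 i i = 1 := mul_right_cancel₀ (htn i) (by rw [h5, one_mul])
          have h7 : sg k i ≠ c0 k := by
            intro h8
            apply h0'
            apply (sg k).injective
            rw [h8, e1]
          have h8 : sg k i ≠ c1 k := by
            intro h8
            apply h0
            apply (sg k).injective
            rw [h8, e0]
          rw [mf_ne t h0 h0', mf_ne t h7 h8, h6, one_mul]
    · rw [if_neg hij, mul_zero, zero_mul, mul_zero]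
  rw [commutatorElement_def, h4]
  group

/-- elements of determinant one -/
lemma s_gm [Finite K] (hk : 0 < k) {H : Subgroup (SLm (2 * k + 1) K)}
    (hS : H ≤ SOD k K) (hgm : ∀ x ∈ H, gm k K x ∈ H) (hw : wE k K ∈ H)
    (hmid : ∀ t ∈ H, Mon t 1 → ∀ h1, mid t h1 ∈ H)
    (hE : ∀ A ∈ H, ∃ e ∈ ⁅H, H⁆, Mon (e * A) 1) {s : SLm (2 * k + 1) K} (hs : s ∈ H) :
    s * (gm k K s)⁻¹ ∈ ⁅H, H⁆ := by
  have hgmD : ∀ x ∈ ⁅H, H⁆, gm k K x ∈ ⁅H, H⁆ := by
    have h1 : ⁅H, H⁆.map (gm k K) ≤ ⁅H, H⁆ := by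
      rw [Subgroup.map_commutator]
      have h2 : H.map (gm k K) ≤ H := by
        rintro _ ⟨x, hx, rfl⟩
        exact hgm x hx
      exact Subgroup.commutator_mono h2 h2
    intro x hx
    exact h1 ⟨x, hx, rfl⟩
  have hDH : ⁅H, H⁆ ≤ H := Subgroup.commutator_le_self H
  obtain ⟨e, he, ht⟩ := hE s hs
  obtain ⟨t, rfl⟩ : ∃ t, s = e⁻¹ * t := ⟨e * s, by group⟩
  rw [mul_inv_cancel_left] at ht
  have htH : t ∈ H := by
    have := mul_mem (hDH he) hs
    rwa [mul_inv_cancel_left] at this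
  have h1 : t.1 (c0 k) (c0 k) * t.1 (c1 k) (c1 k) = 1 := by
    have h2 := up_dd (hS htH) (mem_T' ht) (c0 k)
    rwa [rev_c0] at h2
  have h2 : t * (gm k K t)⁻¹ ∈ ⁅H, H⁆ := by
    rw [← comm_mid hk ht h1]
    exact Subgroup.commutator_mem_commutator (hmid t htH ht h1) hw
  have h3 : e⁻¹ * t * (gm k K (e⁻¹ * t))⁻¹ = e⁻¹ * (t * (gm k K t)⁻¹) * gm k K e := by
    rw [map_mul, map_inv]
    group
  rw [h3]
  exact mul_mem (mul_mem (inv_mem he) h2) (hgmD e he)

end

end Vale.Agent.P240.R2.H432.Q
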