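import Vale.Agent.P240.R2.H432.QB

/-!
`PΩ(Q)` for the quadratic forms of plus type.
-/

set_option autoImplicit false
set_option linter.all false

namespace Vale.Agent.P240.R2.H432.Q

open Subgroup Matrix Vale.Agent.P240.H195
open Vale.Agent.P240.R2.H38.DD
open scoped commutatorElement

universe u

section
variable {k : ℕ} {K : Type u} [Field K]

/-- the isometries of the standard form of plus type -/
def OD0 (k : ℕ) (K : Type u) [Field K] : Subgroup (GL (VI k) K) where
  carrier := {g | ∀ v, Qd k K (g.1 *ᵥ v) = Qd k K v}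
  mul_mem' := by
    intro g h hg hh v
    have h1 : (g * h).1 *ᵥ v = g.1 *ᵥ (h.1 *ᵥ v) := by
      rw [mulVec_mulVec]
      rfl
    rw [h1, hg, hh]
  one_mem' := by
    intro v
    have h1 : (1 : GL (VI k) K).1 *ᵥ v = v := one_mulVec v
    rw [h1]
  inv_mem' := by
    intro g hg v
    have h1 : g.1 *ᵥ (g⁻¹.1 *ᵥ v) = v := by
      rw [mulVec_mulVec]
      have h2 : g.1 * g⁻¹.1 = 1 := by
        rw [← Units.val_mul, mul_inv_cancel, Units.val_one]
      rw [h2, one_mulVec]
    have h2 := hg (g⁻¹.1 *ᵥ v)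
    rw [h1] at h2
    exact h2.symm

lemma mem_OD0 {g : GL (VI k) K} : g ∈ OD0 k K ↔ ∀ v, Qd k K (g.1 *ᵥ v) = Qd k K v := Iff.rfl

lemma tg_mem {A : SLm (2 * k + 1) K} : tg k K A ∈ OD0 k K ↔ A ∈ SOD k K := Iff.rfl

lemma Pd_of' {g : GL (VI k) K} (hg : g ∈ OD0 k K) (v w : VI k → K) :
    Pd (g.1 *ᵥ v) (g.1 *ᵥ w) = Pd v w := by
  have h1 := Qd_add (g.1 *ᵥ v) (g.1 *ᵥ w)
  rw [← Matrix.mulVec_add, hg, hg, hg, Qd_add] at h1
  exact (add_left_cancel h1).symm

lemma det_sq {g : GL (VI k) K} (hg : g ∈ OD0 k K) : g.1.det * g.1.det = 1 := by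
  have h1 : g.1ᵀ * g.1.submatrix Fin.revPerm id = (1 : Matrix (VI k) (VI k) K).submatrix Fin.revPerm id := by
    ext i j
    have h2 := Pd_of' hg (Pi.single i 1) (Pi.single j 1)
    rw [Matrix.mul_apply, Matrix.submatrix_apply, Matrix.one_apply]
    unfold Pd at h2
    have h3 : ∀ l, (g.1 *ᵥ Pi.single i 1) l = g.1 l i := fun l => by
      rw [Matrix.mulVec_single_one]; rfl
    have h4 : ∀ l, (g.1 *ᵥ Pi.single j 1) l = g.1 l j := fun l => by
      rw [Matrix.mulVec_single_one]; rfl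
    simp only [h3, h4] at h2
    show ∑ l, g.1 l i * g.1 (Fin.rev l) j = if Fin.rev i = j then 1 else 0
    rw [h2, Finset.sum_eq_single i]
    · rw [Pi.single_eq_same, one_mul, Pi.single_apply]
    · intro l _ hl
      rw [Pi.single_eq_of_ne hl, zero_mul]
    · exact fun h => absurd (Finset.mem_univ _) h
  have h2 := congrArg Matrix.det h1
  rw [det_mul, det_transpose, det_permute, det_permute, det_one, mul_one] at h2
  have h3 : ((Equiv.Perm.sign (Fin.revPerm : Equiv.Perm (VI k)) : ℤ) : K) ≠ 0 := by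
    rcases Int.units_eq_one_or (Equiv.Perm.sign (Fin.revPerm : Equiv.Perm (VI k))) with h | h
    · rw [h]; simp
    · rw [h]; simp
  have h4 : ((Equiv.Perm.sign (Fin.revPerm : Equiv.Perm (VI k)) : ℤ) : K) * (g.1.det * g.1.det) =
      ((Equiv.Perm.sign (Fin.revPerm : Equiv.Perm (VI k)) : ℤ) : K) * 1 := by
    rw [mul_one]
    calc ((Equiv.Perm.sign (Fin.revPerm : Equiv.Perm (VI k)) : ℤ) : K) * (g.1.det * g.1.det)
        = g.1.det * (((Equiv.Perm.sign (Fin.revPerm : Equiv.Perm (VI k)) : ℤ) : K) * g.1.det) := by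
          ring
      _ = _ := h2
  exact mul_left_cancel₀ h3 h4

lemma det_cases {g : GL (VI k) K} (hg : g ∈ OD0 k K) : g.1.det = 1 ∨ g.1.det = -1 :=
  mul_self_eq_one_iff.1 (det_sq hg)

lemma exists_tg {g : GL (VI k) K} (hg : g ∈ OD0 k K) (hd : g.1.det = 1) :
    ∃ A ∈ SOD k K, tg k K A = g := ⟨⟨g.1, hd⟩, hg, Units.ext rfl⟩

lemma rho_mem : rho k K ∈ OD0 k K := by
  intro v
  have h1 : (rho k K).1 *ᵥ v = fun i => v (pp k i) := by
    funext i
    show (pM (pp k) K *ᵥ v) i = v (pp k i)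
    rw [Matrix.mulVec, dotProduct]
    simp only [pM_apply, ite_mul, one_mul, zero_mul]
    rw [Finset.sum_ite_eq Finset.univ (pp k i) v, if_pos (Finset.mem_univ _)]
  have h3 := HS_perm (f := fun i => v i * v (Fin.rev i)) (pp k) (fun i => pp_rev i)
    (fun i => by rw [Fin.rev_rev, mul_comm])
  rw [h1, Qd_eq, Qd_eq, ← h3]
  refine HS_congr fun i _ => ?_
  rw [pp_rev]

lemma sg_rev (i : VI k) : sg k (Fin.rev i) = Fin.rev (sg k i) := by
  unfold sg
  rw [Equiv.Perm.mul_apply, Equiv.Perm.mul_apply, ← pp_rev]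
  congr 1
  by_cases h0 : i = z0 k
  · rw [h0, Equiv.swap_apply_right, Equiv.swap_apply_left, Fin.rev_rev]
  · by_cases h1 : i = Fin.rev (z0 k)
    · rw [h1, Fin.rev_rev, Equiv.swap_apply_left, Equiv.swap_apply_right]
    · rw [Equiv.swap_apply_of_ne_of_ne h0 h1, Equiv.swap_apply_of_ne_of_ne]
      · intro h2
        apply h1
        rw [← Fin.rev_rev i, h2]
      · intro h2
        apply h0
        exact Fin.rev_injective h2

lemma wE_mem : wE k K ∈ SOD k K := by
  intro v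
  have h1 : (wE k K).1 *ᵥ v = fun i => v (sg k i) := by
    funext i
    rw [Matrix.mulVec, dotProduct]
    simp only [wE_apply, ite_mul, one_mul, zero_mul]
    rw [Finset.sum_ite_eq Finset.univ (sg k i) v, if_pos (Finset.mem_univ _)]
  have h3 := HS_perm (f := fun i => v i * v (Fin.rev i)) (sg k) (fun i => sg_rev i)
    (fun i => by rw [Fin.rev_rev, mul_comm])
  rw [h1, Qd_eq, Qd_eq, ← h3]
  refine HS_congr fun i _ => ?_
  rw [sg_rev]

lemma mid_mem {t : SLm (2 * k + 1) K} (ht : t.1 (c0 k) (c0 k) * t.1 (c1 k) (c1 k) = 1) :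
    mid t ht ∈ SOD k K := by
  intro v
  have h1 : (mid t ht).1 *ᵥ v = fun i => mf t i * v i := by
    funext i
    show (Matrix.diagonal (mf t) *ᵥ v) i = _
    rw [Matrix.mulVec_diagonal]
  rw [h1, Qd_eq, Qd_eq]
  refine HS_congr fun i _ => ?_
  have h2 : mf t i * mf t (Fin.rev i) = 1 := by
    by_cases h0 : i = c0 k
    · rw [h0, rev_c0, mf_c0, mf_c1, ht]
    · by_cases h0' : i = c1 k
      · rw [h0', rev_c1, mf_c0, mf_c1, mul_comm, ht]
      · rw [mf_ne t h0 h0', mf_ne t, one_mul]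
        · intro h3
          apply h0'
          rw [← Fin.rev_rev i, h3, rev_c0]
        · intro h3
          apply h0
          rw [← Fin.rev_rev i, h3, rev_c1]
  calc mf t i * v i * (mf t (Fin.rev i) * v (Fin.rev i))
      = (mf t i * mf t (Fin.rev i)) * (v i * v (Fin.rev i)) := by ring
    _ = _ := by rw [h2, one_mul]

/-- matrices that commute with the root elements are scalar -/
lemma scalar_of (hk : 0 < k) {M : Matrix (VI k) (VI k) K}
    (hM : ∀ a b : VI k, a ≠ b → a ≠ Fin.rev b → M * (xr a b (1 : K)).1 = (xr a b (1 : K)).1 * M) :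
    ∃ c : K, M = c • (1 : Matrix (VI k) (VI k) K) := by
  have key : ∀ a b : VI k, a ≠ b → a ≠ Fin.rev b → ∀ i,
      M i a = (if i = a then M b b else 0) + (if i = Fin.rev b then -M (Fin.rev a) b else 0) := by
    intro a b hab hab' i
    have h1 := congrArg (fun A : Matrix (VI k) (VI k) K => (A *ᵥ Pi.single b 1) i) (hM a b hab hab')
    simp only [← mulVec_mulVec] at h1
    rw [xr_mv hab, xr_mv hab] at h1
    have hb : b ≠ Fin.rev a := fun h => hab' (by rw [h, Fin.rev_rev])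
    have h2 : (Pi.single b 1 + fun i : VI k => (if i = a then (1 : K) * (Pi.single b (1 : K) : VI k → K) b else 0) +
        (if i = Fin.rev b then -(1 : K) * (Pi.single b (1 : K) : VI k → K) (Fin.rev a) else 0)) =
        Pi.single b 1 + Pi.single a 1 := by
      funext l
      simp only [Pi.add_apply, Pi.single_eq_same, Pi.single_eq_of_ne (Ne.symm hb), mul_zero, mul_one,
        ite_self, add_zero]
      rw [Pi.single_apply (i := a)]
    rw [h2, mulVec_add] at h1
    have h3 : ∀ c l : VI k, (M *ᵥ Pi.single c 1) l = M l c := fun c l => by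
      rw [Matrix.mulVec_single_one]; rfl
    simp only [Pi.add_apply, h3] at h1
    have h4 := add_left_cancel h1
    rw [h4]
    simp
  have hex : ∀ a i : VI k, ∃ b : VI k, b ≠ a ∧ b ≠ Fin.rev a ∧ b ≠ Fin.rev i := by
    intro a i
    by_contra hcon
    push Not at hcon
    have h1 : (Finset.univ : Finset (VI k)) ⊆ {a, Fin.rev a, Fin.rev i} := by
      intro b _
      by_cases h2 : b = a
      · simp [h2]
      · by_cases h3 : b = Fin.rev a
        · simp [h3]
        · simp [hcon b h2 h3]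
    have h2 := Finset.card_le_card h1
    rw [Finset.card_univ, Fintype.card_fin] at h2
    have h3 := Finset.card_le_three (a := a) (b := Fin.rev a) (c := Fin.rev i)
    omega
  have hoff : ∀ a i : VI k, i ≠ a → M i a = 0 := by
    intro a i hia
    obtain ⟨b, hb1, hb2, hb3⟩ := hex a i
    have h1 : a ≠ Fin.rev b := fun h => hb2 (by rw [h, Fin.rev_rev])
    rw [key a b hb1.symm h1 i, if_neg hia, if_neg, add_zero]
    intro h2
    exact hb3 (by rw [h2, Fin.rev_rev])
  have hdia : ∀ a b : VI k, b ≠ a → b ≠ Fin.rev a → M a a = M b b := by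
    intro a b hb1 hb2
    have h1 : a ≠ Fin.rev b := fun h => hb2 (by rw [h, Fin.rev_rev])
    rw [key a b hb1.symm h1 a, if_pos rfl, if_neg h1, add_zero]
  refine ⟨M (c0 k) (c0 k), ?_⟩
  ext i j
  rw [Matrix.smul_apply, Matrix.one_apply, smul_eq_mul]
  by_cases hij : i = j
  · subst hij
    rw [if_pos rfl, mul_one]
    obtain ⟨b, hb1, hb2, hb3⟩ := hex i (c0 k)
    by_cases hbc : b = c0 k
    · rw [← hbc]
      exact hdia i b hb1 hb2
    · have h5 : M b b = M (c0 k) (c0 k) := by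
        refine hdia b (c0 k) (Ne.symm hbc) ?_
        intro h6
        exact hb3 (by rw [h6, Fin.rev_rev])
      rw [← h5]
      exact hdia i b hb1 hb2
  · rw [if_neg hij, mul_zero]
    exact hoff j i hij

/-- the derived subgroup of the isometry group, characteristic two -/
lemma comm_two (h2 : (2 : K) = 0) : ⁅OD0 k K, OD0 k K⁆ = ⁅SOD k K, SOD k K⁆.map (tg k K) := by
  have h1 : (SOD k K).map (tg k K) = OD0 k K := by
    ext g
    constructor
    · rintro ⟨A, hA, rfl⟩
      exact hA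
    · intro hg
      obtain ⟨A, hA, hAg⟩ := exists_tg hg (by
        rcases det_cases hg with h | h
        · exact h
        · rw [h]
          linear_combination -h2)
      exact ⟨A, hA, hAg⟩
  rw [Subgroup.map_commutator, h1]

/-- the derived subgroup of the isometry group, odd characteristic -/
lemma comm_odd [Finite K] (hk : 0 < k)
    (hE : ∀ A ∈ SOD k K, ∃ e ∈ ⁅SOD k K, SOD k K⁆, Mon (e * A) 1) :
    ⁅OD0 k K, OD0 k K⁆ = ⁅SOD k K, SOD k K⁆.map (tg k K) := by
  have hgm : ∀ x ∈ SOD k K, gm k K x ∈ SOD k K := fun x hx => gm_SOD hx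
  have hs : ∀ s ∈ SOD k K, gm k K s * s⁻¹ ∈ ⁅SOD k K, SOD k K⁆ := by
    intro s hs
    have h1 := inv_mem (s_gm hk le_rfl hgm wE_mem (fun t _ _ h1 => mid_mem h1) hE hs)
    rwa [_root_.mul_inv_rev, inv_inv] at h1
  have hDS : ⁅SOD k K, SOD k K⁆ ≤ SOD k K := Subgroup.commutator_le_self _
  apply le_antisymm
  · rw [Subgroup.commutator_le]
    have hcase : ∀ g ∈ OD0 k K, ∃ A ∈ SOD k K, g = tg k K A ∨ g = tg k K A * rho k K := by
      intro g hg
      rcases det_cases hg with h | h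
      · obtain ⟨A, hA, hAg⟩ := exists_tg hg h
        exact ⟨A, hA, Or.inl hAg.symm⟩
      · obtain ⟨A, hA, hAg⟩ := exists_tg (mul_mem hg rho_mem) (by
          rw [Units.val_mul, det_mul, rho_det, h]
          ring)
        refine ⟨A, hA, Or.inr ?_⟩
        rw [hAg, mul_assoc, rho_mul, mul_one]
    have hconj : ∀ A : SLm (2 * k + 1) K, rho k K * tg k K A = tg k K (gm k K A) * rho k K := by
      intro A
      rw [← rho_conj, inv_mul_cancel_right]
    -- mixed commutators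
    have hmix : ∀ a ∈ SOD k K, ∀ b ∈ SOD k K,
        ⁅tg k K a * rho k K, tg k K b⁆ ∈ ⁅SOD k K, SOD k K⁆.map (tg k K) := by
      intro a ha b hb
      refine ⟨⁅a, gm k K b⁆ * (gm k K b * b⁻¹), mul_mem
        (Subgroup.commutator_mem_commutator ha (hgm b hb)) (hs b hb), ?_⟩
      have h1 : ⁅tg k K a * rho k K, tg k K b⁆ =
          tg k K a * (rho k K * tg k K b * (rho k K)⁻¹) * (tg k K a)⁻¹ * (tg k K b)⁻¹ := by
        rw [commutatorElement_def]
        group
      have h2 : ⁅a, gm k K b⁆ * (gm k K b * b⁻¹) = a * gm k K b * a⁻¹ * b⁻¹ := by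
        rw [commutatorElement_def]
        group
      rw [h1, rho_conj, h2]
      simp only [map_mul, map_inv]
    intro g hg h hh
    obtain ⟨a, ha, rfl | rfl⟩ := hcase g hg
    · obtain ⟨b, hb, rfl | rfl⟩ := hcase h hh
      · refine ⟨⁅a, b⁆, Subgroup.commutator_mem_commutator ha hb, ?_⟩
        rw [map_commutatorElement]
      · rw [← commutatorElement_inv]
        exact inv_mem (hmix b hb a ha)
    · obtain ⟨b, hb, rfl | rfl⟩ := hcase h hh
      · exact hmix a ha b hb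
      · obtain ⟨n, hn⟩ : ∃ n, n = gm k K (b * a⁻¹) * (b * a⁻¹)⁻¹ := ⟨_, rfl⟩
        have hnD : n ∈ ⁅SOD k K, SOD k K⁆ := by
          rw [hn]
          exact hs _ (mul_mem hb (inv_mem ha))
        refine ⟨⁅a, n⁆ * n * ⁅a, b⁆, mul_mem (mul_mem
          (Subgroup.commutator_mem_commutator ha (hDS hnD)) hnD)
          (Subgroup.commutator_mem_commutator ha hb), ?_⟩
        have h1 : ⁅tg k K a * rho k K, tg k K b * rho k K⁆ =
            tg k K a * (rho k K * (tg k K b * (tg k K a)⁻¹) * (rho k K)⁻¹) * (tg k K b)⁻¹ := by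
          rw [commutatorElement_def]
          group
        have h2 : ⁅a, n⁆ * n * ⁅a, b⁆ = a * gm k K (b * a⁻¹) * b⁻¹ := by
          rw [hn, commutatorElement_def, commutatorElement_def]
          group
        rw [h1, ← map_inv (tg k K) a, ← map_mul (tg k K) b, rho_conj, h2]
        rw [map_mul (tg k K) _ b⁻¹, map_mul (tg k K) a, map_inv (tg k K) b]
  · rw [Subgroup.map_commutator]
    have h1 : (SOD k K).map (tg k K) ≤ OD0 k K := by
      rintro _ ⟨A, hA, rfl⟩
      exact hA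
    exact Subgroup.commutator_mono h1 h1

/-- **the derived group of the isometry group modulo the centre** -/
theorem der_split [Finite K] (hk : 0 < k)
    (hE : (2 : K) = 0 ∨ ∀ A ∈ SOD k K, ∃ e ∈ ⁅SOD k K, SOD k K⁆, Mon (e * A) 1)
    (hx : ∀ a b : VI k, a ≠ b → a ≠ Fin.rev b → ∀ t : K, xr a b t ∈ ⁅SOD k K, SOD k K⁆) :
    Nonempty (↥(commutator (↥(OD0 k K) ⧸ center ↥(OD0 k K))) ≃*
      ↥⁅SOD k K, SOD k K⁆ ⧸ center ↥⁅SOD k K, SOD k K⁆) := by
  have hD : ⁅OD0 k K, OD0 k K⁆ = ⁅SOD k K, SOD k K⁆.map (tg k K) := by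
    rcases hE with h | h
    · exact comm_two h
    · exact comm_odd hk h
  have hDS : ⁅SOD k K, SOD k K⁆ ≤ SOD k K := Subgroup.commutator_le_self _
  let f : ↥⁅SOD k K, SOD k K⁆ →* ↥(OD0 k K) :=
    ((tg k K).comp (⁅SOD k K, SOD k K⁆).subtype).codRestrict (OD0 k K) fun A => hDS A.2
  have hfv : ∀ A, (f A).1 = tg k K A.1 := fun A => rfl
  have hfi : Function.Injective f := by
    intro A B h
    have h1 := congrArg Subtype.val h
    rw [hfv, hfv] at h1
    exact Subtype.ext (tg_inj h1)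
  have hr : f.range = commutator ↥(OD0 k K) := by
    have h1 : (commutator ↥(OD0 k K)).map (OD0 k K).subtype = ⁅OD0 k K, OD0 k K⁆ :=
      Subgroup.map_subtype_commutator _
    ext x
    have h2 : x ∈ commutator ↥(OD0 k K) ↔ x.1 ∈ ⁅OD0 k K, OD0 k K⁆ := by
      rw [← h1]
      constructor
      · intro h
        exact ⟨x, h, rfl⟩
      · rintro ⟨y, hy, hyx⟩
        have h3 : y = x := Subtype.ext hyx
        exact h3 ▸ hy
    rw [h2, hD]
    constructor
    · rintro ⟨A, rfl⟩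
      exact ⟨A.1, A.2, rfl⟩
    · rintro ⟨A, hA, hAx⟩
      exact ⟨⟨A, hA⟩, Subtype.ext hAx⟩
  refine der_equiv f hfi hr fun x _ hx' => ?_
  have h1 : ∀ a b : VI k, a ≠ b → a ≠ Fin.rev b →
      x.1.1 * (xr a b (1 : K)).1 = (xr a b (1 : K)).1 * x.1.1 := by
    intro a b hab hab'
    have h2 := hx' (f ⟨xr a b 1, hx a b hab hab' 1⟩) (by rw [← hr]; exact ⟨_, rfl⟩)
    exact congrArg (fun y : ↥(OD0 k K) => y.1.1) h2
  obtain ⟨c, hc⟩ := scalar_of hk h1
  rw [Subgroup.mem_center_iff]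
  intro y
  apply Subtype.ext
  apply Units.ext
  show y.1.1 * x.1.1 = x.1.1 * y.1.1
  rw [hc, mul_smul_comm, mul_one, smul_mul_assoc, one_mul]

/-- **`PΩ(Q)` for a quadratic form of plus type** -/
theorem poq_split [Finite K] (hk : 0 < k)
    (hE : (2 : K) = 0 ∨ ∀ A ∈ SOD k K, ∃ e ∈ ⁅SOD k K, SOD k K⁆, Mon (e * A) 1)
    (hx : ∀ a b : VI k, a ≠ b → a ≠ Fin.rev b → ∀ t : K, xr a b t ∈ ⁅SOD k K, SOD k K⁆)
    (Q : QuadraticForm K (Fin (2 * k + 1 + 1) → K)) (P : GL (Fin (2 * k + 1 + 1)) K)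
    (hP : ∀ v, Q (P.1 *ᵥ v) = Qd k K v) :
    Nonempty (POQ Q ≃* ↥⁅SOD k K, SOD k K⁆ ⧸ center ↥⁅SOD k K, SOD k K⁆) := by
  obtain ⟨e⟩ := der_split hk hE hx
  have h1 : (OQ Q).map (MulAut.conj P⁻¹).toMonoidHom = OD0 k K := by
    ext g
    constructor
    · rintro ⟨h, hh, rfl⟩ v
      show Qd k K ((P⁻¹ * h * P⁻¹⁻¹).1 *ᵥ v) = Qd k K v
      rw [← hP, ← hP v, mulVec_mulVec, ← Units.val_mul]
      have h2 : P * (P⁻¹ * h * P⁻¹⁻¹) = h * P := by group
      rw [h2, Units.val_mul, ← mulVec_mulVec]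
      exact hh _
    · intro hg
      refine ⟨P * g * P⁻¹, ?_, ?_⟩
      · intro v
        show Q ((P * g * P⁻¹).1 *ᵥ v) = Q v
        have h3 : (P * g * P⁻¹).1 *ᵥ v = P.1 *ᵥ (g.1 *ᵥ (P⁻¹.1 *ᵥ v)) := by
          rw [mulVec_mulVec, mulVec_mulVec]
          congr 1
        have h4 : v = P.1 *ᵥ (P⁻¹.1 *ᵥ v) := by
          rw [mulVec_mulVec, ← Units.val_mul, mul_inv_cancel, Units.val_one, one_mulVec]
        rw [h3, hP, hg, ← hP, ← h4]
      · show P⁻¹ * (P * g * P⁻¹) * P⁻¹⁻¹ = g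
        group
  obtain ⟨e'⟩ := der_congr (((MulAut.conj P⁻¹).subgroupMap (OQ Q)).trans (MulEquiv.subgroupCongr h1))
  exact ⟨e'.trans e⟩

end

end Vale.Agent.P240.R2.H432.Q
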