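import Vale.Agent.P240.R2.H432.QC

/-!
Base change for the quadratic forms of minus type.
-/

set_option autoImplicit false
set_option linter.all false

namespace Vale.Agent.P240.R2.H432.Q

open Subgroup Matrix Vale.Agent.P240.H195
open Vale.Agent.P240.R2.H38.DD
open scoped commutatorElement

universe u

section
variable {r : ℕ} {K : Type u} [Field K]

/-- the matrix that is the identity outside the middle block -/
def Mk (r : ℕ) (a b c d : K) : Matrix (VI r) (VI r) K := fun i j =>
  if i = c0 r then (if j = c0 r then a else 0) + (if j = c1 r then b else 0)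
  else if i = c1 r then (if j = c0 r then c else 0) + (if j = c1 r then d else 0)
  else if i = j then 1 else 0

lemma Mk_apply (a b c d : K) (i j : VI r) : Mk r a b c d i j =
    if i = c0 r then (if j = c0 r then a else 0) + (if j = c1 r then b else 0)
    else if i = c1 r then (if j = c0 r then c else 0) + (if j = c1 r then d else 0)
    else if i = j then 1 else 0 := rfl

lemma Mk_vec (a b c d : K) (v : VI r → K) (i : VI r) : (Mk r a b c d *ᵥ v) i =
    if i = c0 r then a * v (c0 r) + b * v (c1 r)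
    else if i = c1 r then c * v (c0 r) + d * v (c1 r) else v i := by
  rw [Matrix.mulVec, dotProduct]
  simp only [Mk_apply]
  by_cases h0 : i = c0 r
  · simp only [h0, if_true, add_mul, ite_mul, zero_mul, Finset.sum_add_distrib]
    rw [Finset.sum_ite_eq' Finset.univ (c0 r) (fun j => a * v j),
      Finset.sum_ite_eq' Finset.univ (c1 r) (fun j => b * v j), if_pos (Finset.mem_univ _),
      if_pos (Finset.mem_univ _)]
  · by_cases h1 : i = c1 r
    · simp only [h0, h1, c0_ne.symm, if_false, if_true, add_mul, ite_mul, zero_mul,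
        Finset.sum_add_distrib]
      rw [Finset.sum_ite_eq' Finset.univ (c0 r) (fun j => c * v j),
        Finset.sum_ite_eq' Finset.univ (c1 r) (fun j => d * v j), if_pos (Finset.mem_univ _),
        if_pos (Finset.mem_univ _)]
    · simp only [h0, h1, if_false, ite_mul, one_mul, zero_mul]
      rw [Finset.sum_ite_eq Finset.univ i v, if_pos (Finset.mem_univ _)]

lemma Mk_mul (a b c d a' b' c' d' : K) : Mk r a b c d * Mk r a' b' c' d' =
    Mk r (a * a' + b * c') (a * b' + b * d') (c * a' + d * c') (c * b' + d * d') := by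
  apply Matrix.ext_of_mulVec_single
  intro j
  rw [← mulVec_mulVec]
  ext i
  simp only [Mk_vec]
  by_cases h0 : i = c0 r
  · simp only [h0, if_true, c0_ne.symm, if_false]
    ring
  · by_cases h1 : i = c1 r
    · simp only [h1, if_true, c0_ne.symm, if_false]
      ring
    · simp only [h0, h1, if_false]

lemma Mk_one : Mk r (1 : K) 0 0 1 = 1 := by
  apply Matrix.ext_of_mulVec_single
  intro j
  ext i
  rw [Mk_vec, one_mulVec]
  by_cases h0 : i = c0 r
  · simp only [h0, if_true]; ring
  · by_cases h1 : i = c1 r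
    · simp only [h1, c0_ne.symm, if_true, if_false]; ring
    · simp only [h0, h1, if_false]

/-- the form of minus type over the small field -/
def qm (r : ℕ) {F : Type u} [Field F] (c : F) (v : VI r → F) : F :=
  (∑ i : VI r, if i.val < r then v i * v (Fin.rev i) else 0) +
    (v (c0 r) ^ 2 + v (c0 r) * v (c1 r) + c * v (c1 r) ^ 2)

lemma Qd_split (w : VI r → K) : Qd r K w =
    (∑ i : VI r, if i.val < r then w i * w (Fin.rev i) else 0) + w (c0 r) * w (c1 r) := by
  rw [Qd_eq, HS_eq]
  have h1 : ∀ i : VI r, (if i < Fin.rev i then w i * w (Fin.rev i) else 0) =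
      (if i.val < r then w i * w (Fin.rev i) else 0) +
        (if i = c0 r then w (c0 r) * w (c1 r) else 0) := by
    intro i
    by_cases h0 : i = c0 r
    · subst h0
      have h2 : c0 r < Fin.rev (c0 r) := by rw [lt_rv]; exact le_rfl
      have h3 : ¬ (c0 r).val < r := lt_irrefl _
      rw [if_pos h2, if_neg h3, if_pos rfl, rev_c0, zero_add]
    · rw [if_neg h0, add_zero]
      have h2 : i < Fin.rev i ↔ i.val < r := by
        rw [lt_rv]
        constructor
        · intro h
          rcases Nat.lt_or_eq_of_le h with h | h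
          · exact h
          · exact absurd (Fin.ext h) h0
        · exact fun h => h.le
      simp only [h2]
  rw [Finset.sum_congr rfl fun i _ => h1 i, Finset.sum_add_distrib]
  congr 1
  rw [Finset.sum_ite_eq' Finset.univ (c0 r), if_pos (Finset.mem_univ _)]

variable {F : Type u} [Field F] [Algebra F K]

/-- the form over the large field -/
lemma Qd_base {θ θ' : K} {c : F} (h1 : θ + θ' = 1) (h2 : θ * θ' = algebraMap F K c)
    (v : VI r → F) : Qd r K (Mk r 1 θ 1 θ' *ᵥ fun i => algebraMap F K (v i)) =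
      algebraMap F K (qm r c v) := by
  rw [Qd_split, qm, map_add, map_sum]
  congr 1
  · refine Finset.sum_congr rfl fun i _ => ?_
    by_cases hi : i.val < r
    · have h0 : i ≠ c0 r := fun h => by rw [h] at hi; exact lt_irrefl _ hi
      have h0' : i ≠ c1 r := fun h => by
        rw [h] at hi
        change r + 1 < r at hi
        omega
      have h3 : Fin.rev i ≠ c0 r := fun h => h0' (by rw [← Fin.rev_rev i, h, rev_c0])
      have h4 : Fin.rev i ≠ c1 r := fun h => h0 (by rw [← Fin.rev_rev i, h, rev_c1])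
      rw [if_pos hi, if_pos hi, Mk_vec, Mk_vec, if_neg h0, if_neg h0', if_neg h3, if_neg h4,
        map_mul]
    · rw [if_neg hi, if_neg hi, map_zero]
  · rw [Mk_vec, Mk_vec, if_pos rfl, if_neg c0_ne.symm, if_pos rfl]
    rw [map_add, map_add, map_mul, map_mul, map_pow, map_pow, ← h2]
    have h3 : θ' = 1 - θ := by rw [← h1]; ring
    rw [h3]
    ring

end

section
variable {r : ℕ} {K : Type u} [Field K] {F : Type u} [Field F] [Algebra F K]

/-- the base change matrix -/
structure BC (F : Type u) [Field F] [Algebra F K] (σ : K ≃+* K) (θ : K) (c : F) : Prop where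
  inv : ∀ x, σ (σ x) = x
  fix : ∀ x : K, σ x = x → ∃ y : F, algebraMap F K y = x
  fix' : ∀ y : F, σ (algebraMap F K y) = algebraMap F K y
  tr : θ + σ θ = 1
  nm : θ * σ θ = algebraMap F K c
  ne : σ θ ≠ θ

variable {σ : K ≃+* K} {θ : K} {c : F}

/-- the base change matrix -/
def Cu (r : ℕ) (h : BC F σ θ c) : GL (VI r) K where
  val := Mk r 1 θ 1 (σ θ)
  inv := Mk r ((σ θ - θ)⁻¹ * σ θ) (-((σ θ - θ)⁻¹ * θ)) (-(σ θ - θ)⁻¹) (σ θ - θ)⁻¹
  val_inv := by
    have h1 : σ θ - θ ≠ 0 := sub_ne_zero.2 h.ne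
    rw [Mk_mul, ← Mk_one]
    congr 1
    · field_simp
      ring
    · ring
    · ring
    · field_simp
      ring
  inv_val := by
    have h1 : σ θ - θ ≠ 0 := sub_ne_zero.2 h.ne
    rw [Mk_mul, ← Mk_one]
    congr 1
    · field_simp
      ring
    · ring
    · ring
    · field_simp
      ring

lemma map_mul_m (σ : K ≃+* K) (A B : Matrix (VI r) (VI r) K) :
    (A * B).map σ = A.map σ * B.map σ := by
  ext i j
  simp only [Matrix.map_apply, Matrix.mul_apply, map_sum, map_mul]

lemma map_one_m (σ : K ≃+* K) : (1 : Matrix (VI r) (VI r) K).map σ = 1 := by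
  ext i j
  simp only [Matrix.map_apply, Matrix.one_apply]
  split_ifs <;> simp

lemma pC (h : BC F σ θ c) : pM (pp r) K * (Cu r h).1 = (Cu r h).1.map σ := by
  ext i j
  rw [pM_mul_apply, Matrix.map_apply]
  show Mk r 1 θ 1 (σ θ) (pp r i) j = σ (Mk r 1 θ 1 (σ θ) i j)
  rw [Mk_apply, Mk_apply]
  by_cases h0 : i = c0 r
  · have e : pp r (c0 r) = c1 r := Equiv.swap_apply_left _ _
    rw [h0, e, if_neg c0_ne.symm, if_pos rfl, if_pos rfl]
    split_ifs <;> simp
  · by_cases h1 : i = c1 r
    · have e : pp r (c1 r) = c0 r := Equiv.swap_apply_right _ _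
      rw [h1, e, if_pos rfl, if_neg c0_ne.symm, if_pos rfl]
      split_ifs <;> simp [h.inv]
    · have e : pp r i = i := Equiv.swap_apply_of_ne_of_ne h0 h1
      rw [e, if_neg h0, if_neg h1]
      split_ifs <;> simp

lemma pM_pp : pM (pp r) K * pM (pp r) K = 1 := (rho r K).val_inv

lemma CC (h : BC F σ θ c) : (Cu r h).1 * (Cu r h)⁻¹.1 = 1 := (Cu r h).val_inv

lemma CC' (h : BC F σ θ c) : (Cu r h)⁻¹.1 * (Cu r h).1 = 1 := (Cu r h).inv_val

lemma pC' (h : BC F σ θ c) : (Cu r h)⁻¹.1 * pM (pp r) K = (Cu r h)⁻¹.1.map σ := by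
  have h1 : (Cu r h).1.map σ * (Cu r h)⁻¹.1.map σ = 1 := by
    rw [← map_mul_m, CC, map_one_m]
  calc (Cu r h)⁻¹.1 * pM (pp r) K
      = (Cu r h)⁻¹.1 * pM (pp r) K * ((Cu r h).1.map σ * (Cu r h)⁻¹.1.map σ) := by
        rw [h1, mul_one]
    _ = (Cu r h)⁻¹.1 * (pM (pp r) K * pM (pp r) K) * (Cu r h).1 * (Cu r h)⁻¹.1.map σ := by
        rw [← pC h]
        simp only [mul_assoc]
    _ = (Cu r h)⁻¹.1.map σ := by
        rw [pM_pp, mul_one, CC', one_mul]

/-- the twisted isometry group -/
def TO (r : ℕ) (σ : K ≃+* K) : Subgroup (GL (VI r) K) where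
  carrier := {g | g ∈ OD0 r K ∧ pM (pp r) K * g.1 * pM (pp r) K = g.1.map σ}
  mul_mem' := by
    rintro a b ⟨ha, ha'⟩ ⟨hb, hb'⟩
    refine ⟨mul_mem ha hb, ?_⟩
    rw [Units.val_mul, map_mul_m, ← ha', ← hb']
    calc pM (pp r) K * (a.1 * b.1) * pM (pp r) K
        = pM (pp r) K * a.1 * 1 * b.1 * pM (pp r) K := by simp only [mul_assoc, mul_one, one_mul]
      _ = pM (pp r) K * a.1 * (pM (pp r) K * pM (pp r) K) * b.1 * pM (pp r) K := by rw [pM_pp]
      _ = _ := by simp only [mul_assoc]
  one_mem' := by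
    refine ⟨one_mem _, ?_⟩
    rw [Units.val_one, mul_one, pM_pp, map_one_m]
  inv_mem' := by
    rintro a ⟨ha, ha'⟩
    refine ⟨inv_mem ha, ?_⟩
    have h1 : a.1 * a⁻¹.1 = 1 := a.val_inv
    have h2 : a⁻¹.1 * a.1 = 1 := a.inv_val
    have h3 : a.1.map σ * a⁻¹.1.map σ = 1 := by rw [← map_mul_m, h1, map_one_m]
    calc pM (pp r) K * a⁻¹.1 * pM (pp r) K
        = pM (pp r) K * a⁻¹.1 * pM (pp r) K * (a.1.map σ * a⁻¹.1.map σ) := by rw [h3, mul_one]
      _ = pM (pp r) K * a⁻¹.1 * (pM (pp r) K * pM (pp r) K) * a.1 * pM (pp r) K * a⁻¹.1.map σ := by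
          rw [← ha']
          simp only [mul_assoc]
      _ = pM (pp r) K * (a⁻¹.1 * a.1) * pM (pp r) K * a⁻¹.1.map σ := by
          rw [pM_pp, mul_one]
          simp only [mul_assoc]
      _ = a⁻¹.1.map σ := by rw [h2, mul_one, pM_pp, one_mul]

lemma mem_TO {g : GL (VI r) K} : g ∈ TO r σ ↔
    g ∈ OD0 r K ∧ pM (pp r) K * g.1 * pM (pp r) K = g.1.map σ := Iff.rfl

/-- the homomorphism given by base change -/
def Psi (r : ℕ) (h : BC F σ θ c) : GL (VI r) F →* GL (VI r) K :=
  (MulAut.conj (Cu r h)).toMonoidHom.comp (Matrix.GeneralLinearGroup.map (algebraMap F K))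

lemma Psi_val (h : BC F σ θ c) (g : GL (VI r) F) : (Psi r h g).1 =
    (Cu r h).1 * g.1.map (algebraMap F K) * (Cu r h)⁻¹.1 := rfl

lemma Psi_inj (h : BC F σ θ c) : Function.Injective (Psi r h) := by
  intro a b hab
  have h1 := (MulAut.conj (Cu r h)).injective hab
  have h2 := congrArg Units.val h1
  apply Units.ext
  ext i j
  have h3 := congrFun (congrFun h2 i) j
  exact (algebraMap F K).injective h3

lemma map_vec (A : Matrix (VI r) (VI r) F) (v : VI r → F) :
    A.map (algebraMap F K) *ᵥ (fun i => algebraMap F K (v i)) =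
      fun i => algebraMap F K ((A *ᵥ v) i) := by
  funext i
  simp only [mulVec, dotProduct, map_sum, map_mul, Matrix.map_apply]

/-- an isometry on the vectors of the small space is an isometry -/
lemma iso_of (h : BC F σ θ c) {g : GL (VI r) K}
    (hg : ∀ v : VI r → F, Qd r K (g.1 *ᵥ ((Cu r h).1 *ᵥ fun i => algebraMap F K (v i))) =
      Qd r K ((Cu r h).1 *ᵥ fun i => algebraMap F K (v i))) : g ∈ OD0 r K := by
  obtain ⟨b, hb⟩ : ∃ b : VI r → (VI r → K), ∀ j, b j = (Cu r h).1 *ᵥ Pi.single j 1 :=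
    ⟨_, fun j => rfl⟩
  have hemb : ∀ v : VI r → F, (∃ j, v = Pi.single j 1) →
      ∃ j, (fun i => algebraMap F K (v i)) = (Pi.single j 1 : VI r → K) := by
    rintro _ ⟨j, rfl⟩
    refine ⟨j, ?_⟩
    funext i
    by_cases hij : i = j
    · subst hij
      rw [Pi.single_eq_same, Pi.single_eq_same, map_one]
    · rw [Pi.single_eq_of_ne hij, Pi.single_eq_of_ne hij, map_zero]
  have hs : ∀ j : VI r, (fun i => algebraMap F K ((Pi.single j 1 : VI r → F) i)) =
      (Pi.single j 1 : VI r → K) := by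
    intro j
    funext i
    by_cases hij : i = j
    · subst hij
      rw [Pi.single_eq_same, Pi.single_eq_same, map_one]
    · rw [Pi.single_eq_of_ne hij, Pi.single_eq_of_ne hij, map_zero]
  have h1 : ∀ j, Qd r K (g.1 *ᵥ b j) = Qd r K (b j) := by
    intro j
    have h2 := hg (Pi.single j 1)
    rwa [hs, ← hb] at h2
  have h2 : ∀ i j, Pd (g.1 *ᵥ b i) (g.1 *ᵥ b j) = Pd (b i) (b j) := by
    intro i j
    have h3 := hg (Pi.single i 1 + Pi.single j 1)
    have h4 : (fun l => algebraMap F K ((Pi.single i 1 + Pi.single j 1 : VI r → F) l)) =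
        (Pi.single i 1 : VI r → K) + Pi.single j 1 := by
      rw [← hs i, ← hs j]
      funext l
      simp
    rw [h4, mulVec_add, ← hb, ← hb, mulVec_add, Qd_add, Qd_add, h1, h1] at h3
    exact add_left_cancel h3
  -- bilinearity
  have Pd_add_l : ∀ u v w : VI r → K, Pd (u + v) w = Pd u w + Pd v w := by
    intro u v w
    simp only [Pd, Pi.add_apply, add_mul, Finset.sum_add_distrib]
  have Pd_smul_l : ∀ (t : K) (u w : VI r → K), Pd (t • u) w = t * Pd u w := by
    intro t u w
    simp only [Pd, Pi.smul_apply, smul_eq_mul, Finset.mul_sum, mul_assoc]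
  have Pd_add_r : ∀ u v w : VI r → K, Pd u (v + w) = Pd u v + Pd u w := by
    intro u v w
    simp only [Pd, Pi.add_apply, mul_add, Finset.sum_add_distrib]
  have Pd_smul_r : ∀ (t : K) (u w : VI r → K), Pd u (t • w) = t * Pd u w := by
    intro t u w
    simp only [Pd, Pi.smul_apply, smul_eq_mul, Finset.mul_sum]
    exact Finset.sum_congr rfl fun i _ => by ring
  have hspan : Submodule.span K (Set.range b) = ⊤ := by
    rw [eq_top_iff]
    intro w _
    have h3 : w = ∑ j, ((Cu r h)⁻¹.1 *ᵥ w) j • b j := by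
      have h4 : w = (Cu r h).1 *ᵥ ((Cu r h)⁻¹.1 *ᵥ w) := by
        rw [mulVec_mulVec, CC, one_mulVec]
      conv_lhs => rw [h4]
      have h5 : ∀ x : VI r → K, x = ∑ j, x j • (Pi.single j 1 : VI r → K) := by
        intro x
        funext i
        rw [Finset.sum_apply, Finset.sum_eq_single i]
        · simp
        · intro l _ hl
          simp [Pi.single_eq_of_ne (Ne.symm hl)]
        · exact fun h => absurd (Finset.mem_univ _) h
      conv_lhs => rw [h5 ((Cu r h)⁻¹.1 *ᵥ w)]
      rw [Matrix.mulVec_sum]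
      refine Finset.sum_congr rfl fun j _ => ?_
      rw [mulVec_smul, hb]
    rw [h3]
    exact Submodule.sum_mem _ fun j _ => Submodule.smul_mem _ _ (Submodule.subset_span ⟨j, rfl⟩)
  have h3 : ∀ i w, Pd (g.1 *ᵥ b i) (g.1 *ᵥ w) = Pd (b i) w := by
    intro i w
    have hw : w ∈ Submodule.span K (Set.range b) := by rw [hspan]; trivial
    induction hw using Submodule.span_induction with
    | mem x hx =>
      obtain ⟨j, rfl⟩ := hx
      exact h2 i j
    | zero =>
      rw [mulVec_zero]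
      simp [Pd]
    | add x y _ _ hx hy => rw [mulVec_add, Pd_add_r, Pd_add_r, hx, hy]
    | smul t x _ hx => rw [mulVec_smul, Pd_smul_r, Pd_smul_r, hx]
  have h4 : ∀ u w, Pd (g.1 *ᵥ u) (g.1 *ᵥ w) = Pd u w := by
    intro u w
    have hu : u ∈ Submodule.span K (Set.range b) := by rw [hspan]; trivial
    induction hu using Submodule.span_induction with
    | mem x hx =>
      obtain ⟨j, rfl⟩ := hx
      exact h3 j w
    | zero =>
      rw [mulVec_zero]
      simp [Pd]
    | add x y _ _ hx hy => rw [mulVec_add, Pd_add_l, Pd_add_l, hx, hy]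
    | smul t x _ hx => rw [mulVec_smul, Pd_smul_l, Pd_smul_l, hx]
  intro w
  have hw : w ∈ Submodule.span K (Set.range b) := by rw [hspan]; trivial
  induction hw using Submodule.span_induction with
  | mem x hx =>
    obtain ⟨j, rfl⟩ := hx
    exact h1 j
  | zero => rw [mulVec_zero]
  | add x y _ _ hx hy => rw [mulVec_add, Qd_add, Qd_add, hx, hy, h4]
  | smul t x _ hx =>
    have hsm : ∀ x : VI r → K, Qd r K (t • x) = t ^ 2 * Qd r K x := by
      intro x
      rw [Qd, Qd, Finset.mul_sum]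
      refine Finset.sum_congr rfl fun i _ => ?_
      simp only [Pi.smul_apply, smul_eq_mul]
      ring
    rw [mulVec_smul, hsm, hsm, hx]

/-- the isometry group of the form of minus type -/
def OM (r : ℕ) {F : Type u} [Field F] (c : F) : Subgroup (GL (VI r) F) where
  carrier := {g | ∀ v, qm r c (g.1 *ᵥ v) = qm r c v}
  mul_mem' := by
    intro g h hg hh v
    have h1 : (g * h).1 *ᵥ v = g.1 *ᵥ (h.1 *ᵥ v) := by
      rw [mulVec_mulVec]
      rfl
    rw [h1, hg, hh]
  one_mem' := by
    intro v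
    have h1 : (1 : GL (VI r) F).1 *ᵥ v = v := one_mulVec v
    rw [h1]
  inv_mem' := by
    intro g hg v
    have h1 : g.1 *ᵥ (g⁻¹.1 *ᵥ v) = v := by
      rw [mulVec_mulVec]
      have h2 : g.1 * g⁻¹.1 = 1 := by
        rw [← Units.val_mul, mul_inv_cancel, Units.val_one]
      rw [h2, one_mulVec]
    have h2 := hg (g⁻¹.1 *ᵥ v)
    rw [h1] at h2
    exact h2.symm

lemma Psi_OM (h : BC F σ θ c) : (OM r c).map (Psi r h) = TO r σ := by
  have hval : (Cu r h).1 = Mk r 1 θ 1 (σ θ) := rfl
  ext g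
  constructor
  · rintro ⟨x, hx, rfl⟩
    refine ⟨iso_of h fun v => ?_, ?_⟩
    · have h1 : (Psi r h x).1 *ᵥ ((Cu r h).1 *ᵥ fun i => algebraMap F K (v i)) =
          (Cu r h).1 *ᵥ fun i => algebraMap F K ((x.1 *ᵥ v) i) := by
        rw [Psi_val, mulVec_mulVec, mul_assoc, CC', mul_one, ← mulVec_mulVec, map_vec]
      rw [h1, hval, Qd_base h.tr h.nm, Qd_base h.tr h.nm, hx]
    · rw [Psi_val, map_mul_m, map_mul_m, ← pC h, ← pC' h]
      have h1 : (x.1.map (algebraMap F K)).map σ = x.1.map (algebraMap F K) := by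
        ext i j
        exact h.fix' _
      rw [h1]
      simp only [mul_assoc]
  · rintro ⟨hg, hg'⟩
    have h1 : ((Cu r h)⁻¹.1 * g.1 * (Cu r h).1).map σ = (Cu r h)⁻¹.1 * g.1 * (Cu r h).1 := by
      rw [map_mul_m, map_mul_m, ← hg', ← pC h, ← pC' h]
      calc (Cu r h)⁻¹.1 * pM (pp r) K * (pM (pp r) K * g.1 * pM (pp r) K) *
            (pM (pp r) K * (Cu r h).1)
          = (Cu r h)⁻¹.1 * (pM (pp r) K * pM (pp r) K) * g.1 * (pM (pp r) K * pM (pp r) K) *
            (Cu r h).1 := by simp only [mul_assoc]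
        _ = _ := by rw [pM_pp, mul_one, mul_one]
    have h2 : ((Cu r h)⁻¹.1 * g⁻¹.1 * (Cu r h).1).map σ = (Cu r h)⁻¹.1 * g⁻¹.1 * (Cu r h).1 := by
      have hg2 := (inv_mem (show g ∈ TO r σ from ⟨hg, hg'⟩)).2
      rw [map_mul_m, map_mul_m, ← hg2, ← pC h, ← pC' h]
      calc (Cu r h)⁻¹.1 * pM (pp r) K * (pM (pp r) K * g⁻¹.1 * pM (pp r) K) *
            (pM (pp r) K * (Cu r h).1)
          = (Cu r h)⁻¹.1 * (pM (pp r) K * pM (pp r) K) * g⁻¹.1 * (pM (pp r) K * pM (pp r) K) *
            (Cu r h).1 := by simp only [mul_assoc]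
        _ = _ := by rw [pM_pp, mul_one, mul_one]
    have hex : ∀ A : Matrix (VI r) (VI r) K, A.map σ = A →
        ∃ B : Matrix (VI r) (VI r) F, B.map (algebraMap F K) = A := by
      intro A hA
      have h3 : ∀ i j, ∃ y : F, algebraMap F K y = A i j := fun i j =>
        h.fix _ (congrFun (congrFun hA i) j)
      choose B hB using h3
      exact ⟨Matrix.of B, by ext i j; exact hB i j⟩
    obtain ⟨B, hB⟩ := hex _ h1
    obtain ⟨B', hB'⟩ := hex _ h2
    have hmm : ∀ X Y : Matrix (VI r) (VI r) F, (X * Y).map (algebraMap F K) =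
        X.map (algebraMap F K) * Y.map (algebraMap F K) := by
      intro X Y
      ext i j
      simp only [Matrix.map_apply, Matrix.mul_apply, map_sum, map_mul]
    have hminj : ∀ X Y : Matrix (VI r) (VI r) F, X.map (algebraMap F K) =
        Y.map (algebraMap F K) → X = Y := by
      intro X Y hXY
      ext i j
      exact (algebraMap F K).injective (congrFun (congrFun hXY i) j)
    have hm1 : (1 : Matrix (VI r) (VI r) F).map (algebraMap F K) = 1 := by
      ext i j
      simp only [Matrix.map_apply, Matrix.one_apply]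
      split_ifs <;> simp
    have hg1 : g.1 * g⁻¹.1 = 1 := g.val_inv
    have hg2 : g⁻¹.1 * g.1 = 1 := g.inv_val
    have hBB : B * B' = 1 := by
      apply hminj
      rw [hmm, hB, hB', hm1]
      calc (Cu r h)⁻¹.1 * g.1 * (Cu r h).1 * ((Cu r h)⁻¹.1 * g⁻¹.1 * (Cu r h).1)
          = (Cu r h)⁻¹.1 * g.1 * ((Cu r h).1 * (Cu r h)⁻¹.1) * g⁻¹.1 * (Cu r h).1 := by
            simp only [mul_assoc]
        _ = (Cu r h)⁻¹.1 * (g.1 * g⁻¹.1) * (Cu r h).1 := by
            rw [CC, mul_one]
            simp only [mul_assoc]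
        _ = 1 := by rw [hg1, mul_one, CC']
    have hBB' : B' * B = 1 := mul_eq_one_comm.1 hBB
    refine ⟨⟨B, B', hBB, hBB'⟩, ?_, ?_⟩
    · intro v
      show qm r c (B *ᵥ v) = qm r c v
      apply (algebraMap F K).injective
      rw [← Qd_base h.tr h.nm, ← Qd_base h.tr h.nm, ← map_vec, hB]
      have h3 : Mk r 1 θ 1 (σ θ) *ᵥ (((Cu r h)⁻¹.1 * g.1 * (Cu r h).1) *ᵥ
          fun i => algebraMap F K (v i)) = g.1 *ᵥ (Mk r 1 θ 1 (σ θ) *ᵥ
          fun i => algebraMap F K (v i)) := by
        rw [← hval, mulVec_mulVec, mulVec_mulVec]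
        congr 1
        calc (Cu r h).1 * ((Cu r h)⁻¹.1 * g.1 * (Cu r h).1)
            = ((Cu r h).1 * (Cu r h)⁻¹.1) * g.1 * (Cu r h).1 := by simp only [mul_assoc]
          _ = g.1 * (Cu r h).1 := by rw [CC, one_mul]
      rw [h3, hg]
    · apply Units.ext
      rw [Psi_val]
      show (Cu r h).1 * B.map (algebraMap F K) * (Cu r h)⁻¹.1 = g.1
      rw [hB]
      calc (Cu r h).1 * ((Cu r h)⁻¹.1 * g.1 * (Cu r h).1) * (Cu r h)⁻¹.1
          = ((Cu r h).1 * (Cu r h)⁻¹.1) * g.1 * ((Cu r h).1 * (Cu r h)⁻¹.1) := by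
            simp only [mul_assoc]
        _ = g.1 := by rw [CC, one_mul, mul_one]

/-- the isometry group over the small field is the twisted group over the large field -/
noncomputable def OMTO (h : BC F σ θ c) : ↥(OM r c) ≃* ↥(TO r σ) :=
  ((OM r c).equivMapOfInjective (Psi r h) (Psi_inj h)).trans (MulEquiv.subgroupCongr (Psi_OM h))

end

end Vale.Agent.P240.R2.H432.Q
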