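import Vale.Agent.P240.R2.H432.QC

/-!
The derived group of a group of isometries and the derived group of its elements of determinant one.
-/

set_option autoImplicit false
set_option linter.all false

namespace Vale.Agent.P240.R2.H432.Q

open Subgroup Matrix Vale.Agent.P240.H195
open Vale.Agent.P240.R2.H38.DD
open scoped commutatorElement

universe u

section
variable {k : ℕ} {K : Type u} [Field K] {O : Subgroup (GL (VI k) K)}
  {H : Subgroup (SLm (2 * k + 1) K)}

lemma comm_two' (hO : O ≤ OD0 k K) (hHO : ∀ A, A ∈ H ↔ tg k K A ∈ O) (h2 : (2 : K) = 0) :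
    ⁅O, O⁆ = ⁅H, H⁆.map (tg k K) := by
  have h1 : H.map (tg k K) = O := by
    ext g
    constructor
    · rintro ⟨A, hA, rfl⟩
      exact (hHO A).1 hA
    · intro hg
      obtain ⟨A, hA, hAg⟩ := exists_tg (hO hg) (by
        rcases det_cases (hO hg) with h | h
        · exact h
        · rw [h]
          linear_combination -h2)
      exact ⟨A, (hHO A).2 (by rw [hAg]; exact hg), hAg⟩
  rw [Subgroup.map_commutator, h1]

lemma comm_odd' [Finite K] (hk : 0 < k) (hO : O ≤ OD0 k K)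
    (hHO : ∀ A, A ∈ H ↔ tg k K A ∈ O) (hρ : rho k K ∈ O) (hw : wE k K ∈ H)
    (hmid : ∀ t ∈ H, Mon t 1 → ∀ h1, mid t h1 ∈ H)
    (hE : ∀ A ∈ H, ∃ e ∈ ⁅H, H⁆, Mon (e * A) 1) :
    ⁅O, O⁆ = ⁅H, H⁆.map (tg k K) := by
  have hHS : H ≤ SOD k K := fun A hA => tg_mem.1 (hO ((hHO A).1 hA))
  have hgm : ∀ x ∈ H, gm k K x ∈ H := by
    intro x hx
    rw [hHO, ← rho_conj]
    exact mul_mem (mul_mem hρ ((hHO x).1 hx)) (inv_mem hρ)
  have hs : ∀ s ∈ H, gm k K s * s⁻¹ ∈ ⁅H, H⁆ := by
    intro s hs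
    have h1 := inv_mem (s_gm hk hHS hgm hw hmid hE hs)
    rwa [_root_.mul_inv_rev, inv_inv] at h1
  have hDS : ⁅H, H⁆ ≤ H := Subgroup.commutator_le_self _
  apply le_antisymm
  · rw [Subgroup.commutator_le]
    have hcase : ∀ g ∈ O, ∃ A ∈ H, g = tg k K A ∨ g = tg k K A * rho k K := by
      intro g hg
      rcases det_cases (hO hg) with h | h
      · obtain ⟨A, hA, hAg⟩ := exists_tg (hO hg) h
        exact ⟨A, (hHO A).2 (by rw [hAg]; exact hg), Or.inl hAg.symm⟩
      · obtain ⟨A, hA, hAg⟩ := exists_tg (mul_mem (hO hg) rho_mem) (by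
          rw [Units.val_mul, det_mul, rho_det, h]
          ring)
        refine ⟨A, (hHO A).2 (by rw [hAg]; exact mul_mem hg hρ), Or.inr ?_⟩
        rw [hAg, mul_assoc, rho_mul, mul_one]
    -- mixed commutators
    have hmix : ∀ a ∈ H, ∀ b ∈ H,
        ⁅tg k K a * rho k K, tg k K b⁆ ∈ ⁅H, H⁆.map (tg k K) := by
      intro a ha b hb
      refine ⟨⁅a, gm k K b⁆ * (gm k K b * b⁻¹), mul_mem
        (Subgroup.commutator_mem_commutator ha (hgm b hb)) (hs b hb), ?_⟩
      have h1 : ⁅tg k K a * rho k K, tg k K b⁆ =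
          tg k K a * (rho k K * tg k K b * (rho k K)⁻¹) * (tg k K a)⁻¹ * (tg k K b)⁻¹ := by
        rw [commutatorElement_def]
        group
      have h2 : ⁅a, gm k K b⁆ * (gm k K b * b⁻¹) = a * gm k K b * a⁻¹ * b⁻¹ := by
        rw [commutatorElement_def]
        group
      rw [h1, rho_conj, h2]
      simp only [map_mul, map_inv]
    intro g hg h hh
    obtain ⟨a, ha, rfl | rfl⟩ := hcase g hg
    · obtain ⟨b, hb, rfl | rfl⟩ := hcase h hh
      · refine ⟨⁅a, b⁆, Subgroup.commutator_mem_commutator ha hb, ?_⟩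
        rw [map_commutatorElement]
      · rw [← commutatorElement_inv]
        exact inv_mem (hmix b hb a ha)
    · obtain ⟨b, hb, rfl | rfl⟩ := hcase h hh
      · exact hmix a ha b hb
      · obtain ⟨n, hn⟩ : ∃ n, n = gm k K (b * a⁻¹) * (b * a⁻¹)⁻¹ := ⟨_, rfl⟩
        have hnD : n ∈ ⁅H, H⁆ := by
          rw [hn]
          exact hs _ (mul_mem hb (inv_mem ha))
        refine ⟨⁅a, n⁆ * n * ⁅a, b⁆, mul_mem (mul_mem
          (Subgroup.commutator_mem_commutator ha (hDS hnD)) hnD)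
          (Subgroup.commutator_mem_commutator ha hb), ?_⟩
        have h1 : ⁅tg k K a * rho k K, tg k K b * rho k K⁆ =
            tg k K a * (rho k K * (tg k K b * (tg k K a)⁻¹) * (rho k K)⁻¹) * (tg k K b)⁻¹ := by
          rw [commutatorElement_def]
          group
        have h2 : ⁅a, n⁆ * n * ⁅a, b⁆ = a * gm k K (b * a⁻¹) * b⁻¹ := by
          rw [hn, commutatorElement_def, commutatorElement_def]
          group
        rw [h1, ← map_inv (tg k K) a, ← map_mul (tg k K) b, rho_conj, h2]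
        rw [map_mul (tg k K) _ b⁻¹, map_mul (tg k K) a, map_inv (tg k K) b]
  · rw [Subgroup.map_commutator]
    have h1 : H.map (tg k K) ≤ O := by
      rintro _ ⟨A, hA, rfl⟩
      exact (hHO A).1 hA
    exact Subgroup.commutator_mono h1 h1

/-- **the derived group of the isometry group modulo the centre** -/
theorem der_gen (hHO : ∀ A, A ∈ H ↔ tg k K A ∈ O) (hD : ⁅O, O⁆ = ⁅H, H⁆.map (tg k K))
    (hc : ∀ g ∈ O, (∀ A ∈ ⁅H, H⁆, g.1 * A.1 = A.1 * g.1) →
      ∃ c : K, g.1 = c • (1 : Matrix (VI k) (VI k) K)) :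
    Nonempty (↥(commutator (↥O ⧸ center ↥O)) ≃*
      ↥(commutator ↥H) ⧸ center ↥(commutator ↥H)) := by
  have hDS : ⁅H, H⁆ ≤ H := Subgroup.commutator_le_self _
  let f : ↥⁅H, H⁆ →* ↥O :=
    ((tg k K).comp (⁅H, H⁆).subtype).codRestrict O fun A => (hHO _).1 (hDS A.2)
  have hfv : ∀ A, (f A).1 = tg k K A.1 := fun A => rfl
  have hfi : Function.Injective f := by
    intro A B h
    have h1 := congrArg Subtype.val h
    rw [hfv, hfv] at h1
    exact Subtype.ext (tg_inj h1)
  have hr : f.range = commutator ↥O := by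
    have h1 : (commutator ↥O).map O.subtype = ⁅O, O⁆ :=
      Subgroup.map_subtype_commutator _
    ext x
    have h2 : x ∈ commutator ↥O ↔ x.1 ∈ ⁅O, O⁆ := by
      rw [← h1]
      constructor
      · intro h
        exact ⟨x, h, rfl⟩
      · rintro ⟨y, hy, hyx⟩
        have h3 : y = x := Subtype.ext hyx
        exact h3 ▸ hy
    rw [h2, hD]
    constructor
    · rintro ⟨A, rfl⟩
      exact ⟨A.1, A.2, rfl⟩
    · rintro ⟨A, hA, hAx⟩
      exact ⟨⟨A, hA⟩, Subtype.ext hAx⟩
  obtain ⟨e⟩ : Nonempty (↥(commutator (↥O ⧸ center ↥O)) ≃* ↥⁅H, H⁆ ⧸ center ↥⁅H, H⁆) := by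
    refine der_equiv f hfi hr fun x _ hx' => ?_
    have h1 : ∀ A ∈ ⁅H, H⁆, x.1.1 * A.1 = A.1 * x.1.1 := by
      intro A hA
      have h2 := hx' (f ⟨A, hA⟩) (by rw [← hr]; exact ⟨_, rfl⟩)
      exact congrArg (fun y : ↥O => y.1.1) h2
    obtain ⟨c, hcc⟩ := hc x.1 x.2 h1
    rw [Subgroup.mem_center_iff]
    intro y
    apply Subtype.ext
    apply Units.ext
    show y.1.1 * x.1.1 = x.1.1 * y.1.1
    rw [hcc, mul_smul_comm, mul_one, smul_mul_assoc, one_mul]
  have e1 : ↥(commutator ↥H) ≃* ↥⁅H, H⁆ :=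
    ((commutator ↥H).equivMapOfInjective H.subtype Subtype.val_injective).trans
      (MulEquiv.subgroupCongr (map_subtype_commutator H))
  have e2 : (center ↥(commutator ↥H)).map e1.toMonoidHom = center ↥⁅H, H⁆ := by
    ext x
    constructor
    · rintro ⟨y, hy, rfl⟩
      rw [mem_center_iff]
      intro g
      have h1 := mem_center_iff.1 hy (e1.symm g)
      have h2 := congrArg e1 h1
      rw [map_mul, map_mul, e1.apply_symm_apply] at h2
      exact h2
    · intro hx
      refine ⟨e1.symm x, ?_, e1.apply_symm_apply x⟩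
      rw [SetLike.mem_coe, mem_center_iff]
      intro g
      apply e1.injective
      rw [map_mul, map_mul, e1.apply_symm_apply]
      exact mem_center_iff.1 hx (e1 g)
  exact ⟨e.trans (QuotientGroup.congr _ _ e1 e2).symm⟩

end

end Vale.Agent.P240.R2.H432.Q
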