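import Vale.Agent.P240.R2.H432.QE
import Vale.Agent.P240.R2.H432.QF
import Vale.Agent.P240.R2.H727.O5

/-!
`PΩ(Q)` for the quadratic forms of minus type.
-/

set_option autoImplicit false
set_option linter.all false

namespace Vale.Agent.P240.R2.H432.Q

open Subgroup Matrix Vale.Agent.P240.H195
open Vale.Agent.P240.R2.H38.DD
open Vale.Agent.P240.R2.H727
open scoped commutatorElement

universe u

section
variable {r : ℕ} {K : Type u} [Field K] {σ : K ≃+* K}

lemma pMp (A : Matrix (VI r) (VI r) K) (i j : VI r) :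
    (pM (pp r) K * A * pM (pp r) K) i j = A (pp r i) (pp r j) := by
  rw [mul_pM_apply, pM_mul_apply]
  have h : (pp r).symm j = pp r j := by rw [Equiv.symm_apply_eq, pp_pp]
  rw [h]

lemma PP_eq_pp : O.PP r = pp r := rfl

/-- the twisted group in the special linear group -/
lemma GM_iff [Finite K] (A : SLm (2 * r + 1) K) : A ∈ O.GM r σ ↔ tg r K A ∈ TO r σ := by
  rw [O.mem_GM, mem_TO]
  constructor
  · rintro ⟨h1, h2⟩
    refine ⟨h1, ?_⟩
    ext i j
    rw [pMp, Matrix.map_apply]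
    exact h2 i j
  · rintro ⟨h1, h2⟩
    refine ⟨h1, fun i j => ?_⟩
    have h3 := congrFun (congrFun h2 i) j
    rw [pMp, Matrix.map_apply] at h3
    exact h3

lemma TO_le : TO r σ ≤ OD0 r K := fun g hg => hg.1

lemma rho_TO : rho r K ∈ TO r σ := by
  refine ⟨rho_mem, ?_⟩
  ext i j
  rw [pMp, Matrix.map_apply]
  show pM (pp r) K (pp r i) (pp r j) = σ (pM (pp r) K i j)
  rw [pM_apply, pM_apply]
  have h : pp r (pp r i) = pp r j ↔ pp r i = j := (pp r).injective.eq_iff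
  simp only [h]
  split_ifs <;> simp

lemma sg_pp (hr : 0 < r) (i : VI r) : sg r (pp r i) = pp r (sg r i) := by
  unfold sg
  rw [Equiv.Perm.mul_apply, Equiv.Perm.mul_apply]
  congr 1
  have e1 : pp r (z0 r) = z0 r := Equiv.swap_apply_of_ne_of_ne (z0_ne hr) (z0_ne' hr)
  have e2 : pp r (Fin.rev (z0 r)) = Fin.rev (z0 r) :=
    Equiv.swap_apply_of_ne_of_ne (rz0_ne hr) (rz0_ne' hr)
  by_cases h0 : i = z0 r
  · rw [h0, e1, Equiv.swap_apply_left, e2]
  · by_cases h1 : i = Fin.rev (z0 r)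
    · rw [h1, e2, Equiv.swap_apply_right, e1]
    · have h2 : pp r i ≠ z0 r := fun h => h0 (by rw [← pp_pp i, h, e1])
      have h3 : pp r i ≠ Fin.rev (z0 r) := fun h => h1 (by rw [← pp_pp i, h, e2])
      rw [Equiv.swap_apply_of_ne_of_ne h2 h3, Equiv.swap_apply_of_ne_of_ne h0 h1]

lemma wE_GM [Finite K] (hr : 0 < r) : wE r K ∈ O.GM r σ := by
  rw [GM_iff, mem_TO]
  refine ⟨tg_mem.2 wE_mem, ?_⟩
  ext i j
  rw [pMp, Matrix.map_apply]
  show (wE r K).1 (pp r i) (pp r j) = σ ((wE r K).1 i j)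
  rw [wE_apply, wE_apply, sg_pp hr]
  have h : pp r (sg r i) = pp r j ↔ sg r i = j := (pp r).injective.eq_iff
  simp only [h]
  split_ifs <;> simp

lemma mid_GM [Finite K] {t : SLm (2 * r + 1) K} (ht : t ∈ O.GM r σ) (hm : Mon t 1)
    (h1 : t.1 (c0 r) (c0 r) * t.1 (c1 r) (c1 r) = 1) : mid t h1 ∈ O.GM r σ := by
  rw [GM_iff, mem_TO]
  refine ⟨tg_mem.2 (mid_mem h1), ?_⟩
  ext i j
  rw [pMp, Matrix.map_apply]
  show Matrix.diagonal (mf t) (pp r i) (pp r j) = σ (Matrix.diagonal (mf t) i j)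
  have hts : ∀ i, t.1 (pp r i) (pp r i) = σ (t.1 i i) := fun i => ((O.mem_GM σ).1 ht).2 i i
  have e0 : pp r (c0 r) = c1 r := Equiv.swap_apply_left _ _
  have e1 : pp r (c1 r) = c0 r := Equiv.swap_apply_right _ _
  by_cases hij : i = j
  · rw [hij, Matrix.diagonal_apply_eq, Matrix.diagonal_apply_eq]
    by_cases h2 : j = c0 r
    · rw [h2, e0, mf_c1, mf_c0, ← hts, e0]
    · by_cases h3 : j = c1 r
      · rw [h3, e1, mf_c1, mf_c0, ← hts, e1]
      · have e : pp r j = j := Equiv.swap_apply_of_ne_of_ne h2 h3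
        rw [e, mf_ne t h2 h3, map_one]
  · rw [Matrix.diagonal_apply_ne _ hij, Matrix.diagonal_apply_ne _
      (fun h => hij ((pp r).injective h)), map_zero]

/-- the entries of a matrix that commutes with a root element -/
lemma key_xr {M : Matrix (VI r) (VI r) K} {a b : VI r} (hab : a ≠ b) (hab' : a ≠ Fin.rev b)
    (hM : M * (xr a b (1 : K)).1 = (xr a b (1 : K)).1 * M) (i : VI r) :
    M i a = (if i = a then M b b else 0) + (if i = Fin.rev b then -M (Fin.rev a) b else 0) := by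
  have h1 := congrArg (fun A : Matrix (VI r) (VI r) K => (A *ᵥ Pi.single b 1) i) hM
  simp only [← mulVec_mulVec] at h1
  rw [xr_mv hab, xr_mv hab] at h1
  have hb : b ≠ Fin.rev a := fun h => hab' (by rw [h, Fin.rev_rev])
  have h2 : (Pi.single b 1 + fun i : VI r => (if i = a then (1 : K) * (Pi.single b (1 : K) : VI r → K) b else 0) +
      (if i = Fin.rev b then -(1 : K) * (Pi.single b (1 : K) : VI r → K) (Fin.rev a) else 0)) =
      Pi.single b 1 + Pi.single a 1 := by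
    funext l
    simp only [Pi.add_apply, Pi.single_eq_same, Pi.single_eq_of_ne (Ne.symm hb), mul_zero, mul_one,
      ite_self, add_zero]
    rw [Pi.single_apply (i := a)]
  rw [h2, mulVec_add] at h1
  have h3 : ∀ c l : VI r, (M *ᵥ Pi.single c 1) l = M l c := fun c l => by
    rw [Matrix.mulVec_single_one]; rfl
  simp only [Pi.add_apply, h3] at h1
  have h4 := add_left_cancel h1
  rw [h4]
  simp

/-- matrices that commute with the root elements are scalar -/
lemma scalar_minus (hr : 2 ≤ r) {θ : K} (hθ : σ θ ≠ θ) {M : Matrix (VI r) (VI r) K}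
    (hxe : ∀ (a b : VI r) (h : O.Lg a b), M * (O.xe h (1 : K)).1 = (O.xe h (1 : K)).1 * M)
    (hye : ∀ (p : VI r) (h : O.Sh p) (a : K), M * (O.ye σ h a).1 = (O.ye σ h a).1 * M) :
    ∃ c : K, M = c • (1 : Matrix (VI r) (VI r) K) := by
  have key : ∀ a b : VI r, a ≠ c0 r → a ≠ c1 r → b ≠ c0 r → b ≠ c1 r → a ≠ b → a ≠ Fin.rev b →
      ∀ i, M i a = (if i = a then M b b else 0) +
        (if i = Fin.rev b then -M (Fin.rev a) b else 0) := by
    intro a b ha0 ha1 hb0 hb1 hab hab'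
    refine key_xr hab hab' ?_
    have h : O.Lg a b := ⟨hab, fun h => hab' (by rw [h, Fin.rev_rev]), ha0, ha1, hb0, hb1⟩
    have h1 : O.xe h (1 : K) = xr a b 1 := (xr_def hab 1).symm
    rw [← h1]
    exact hxe a b h
  have hex : ∀ a i : VI r, ∃ b : VI r, b ≠ c0 r ∧ b ≠ c1 r ∧ b ≠ a ∧ b ≠ Fin.rev a ∧
      b ≠ Fin.rev i := by
    intro a i
    by_contra hcon
    push Not at hcon
    have h1 : (Finset.univ : Finset (VI r)) ⊆ {c0 r, c1 r, a, Fin.rev a, Fin.rev i} := by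
      intro b _
      by_cases h2 : b = c0 r
      · simp [h2]
      · by_cases h3 : b = c1 r
        · simp [h3]
        · by_cases h4 : b = a
          · simp [h4]
          · by_cases h5 : b = Fin.rev a
            · simp [h5]
            · simp [hcon b h2 h3 h4 h5]
    have h2 := Finset.card_le_card h1
    rw [Finset.card_univ, Fintype.card_fin] at h2
    have h3 : ({c0 r, c1 r, a, Fin.rev a, Fin.rev i} : Finset (VI r)).card ≤ 5 := by
      refine (Finset.card_insert_le _ _).trans ?_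
      refine Nat.succ_le_succ ((Finset.card_insert_le _ _).trans ?_)
      exact Nat.succ_le_succ Finset.card_le_three
    omega
  have hoff : ∀ a i : VI r, a ≠ c0 r → a ≠ c1 r → i ≠ a → M i a = 0 := by
    intro a i ha0 ha1 hia
    obtain ⟨b, hb0, hb1, hb2, hb3, hb4⟩ := hex a i
    have h1 : a ≠ Fin.rev b := fun h => hb3 (by rw [h, Fin.rev_rev])
    rw [key a b ha0 ha1 hb0 hb1 hb2.symm h1 i, if_neg hia, if_neg, add_zero]
    intro h2
    exact hb4 (by rw [h2, Fin.rev_rev])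
  have hdia : ∀ a b : VI r, a ≠ c0 r → a ≠ c1 r → b ≠ c0 r → b ≠ c1 r → b ≠ a →
      b ≠ Fin.rev a → M a a = M b b := by
    intro a b ha0 ha1 hb0 hb1 hb2 hb3
    have h1 : a ≠ Fin.rev b := fun h => hb3 (by rw [h, Fin.rev_rev])
    rw [key a b ha0 ha1 hb0 hb1 hb2.symm h1 a, if_pos rfl, if_neg h1, add_zero]
  have hz0 : z0 r ≠ c0 r := z0_ne (by omega)
  have hz1 : z0 r ≠ c1 r := z0_ne' (by omega)
  obtain ⟨l, hl⟩ : ∃ l, l = M (z0 r) (z0 r) := ⟨_, rfl⟩
  have hall : ∀ a : VI r, a ≠ c0 r → a ≠ c1 r → M a a = l := by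
    intro a ha0 ha1
    obtain ⟨b, hb0, hb1, hb2, hb3, hb4⟩ := hex a (z0 r)
    rw [hdia a b ha0 ha1 hb0 hb1 hb2 hb3, hl]
    by_cases hbz : b = z0 r
    · rw [hbz]
    · refine hdia b (z0 r) hb0 hb1 hz0 hz1 (Ne.symm hbz) ?_
      intro h6
      exact hb4 (by rw [h6, Fin.rev_rev])
  have hcol : ∀ a : VI r, a ≠ c0 r → a ≠ c1 r → M *ᵥ Pi.single a 1 = l • Pi.single a 1 := by
    intro a ha0 ha1
    funext i
    rw [Matrix.mulVec_single_one]
    show M i a = l * (Pi.single a 1 : VI r → K) i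
    by_cases hia : i = a
    · rw [hia, Pi.single_eq_same, mul_one, hall a ha0 ha1]
    · rw [Pi.single_eq_of_ne hia, mul_zero, hoff a i ha0 ha1 hia]
  -- the middle columns
  have hsh : O.Sh (z0 r) := ⟨hz0, hz1⟩
  have hmid : ∀ a : K, M *ᵥ (σ a • Pi.single (c0 r) 1 + a • Pi.single (c1 r) 1) =
      l • (σ a • Pi.single (c0 r) 1 + a • Pi.single (c1 r) 1) := by
    intro a
    have hv : (O.ye σ hsh a).1 *ᵥ Pi.single (Fin.rev (z0 r)) 1 =
        Pi.single (Fin.rev (z0 r)) 1 - (σ a • Pi.single (c0 r) 1 + a • Pi.single (c1 r) 1) -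
          (a * σ a) • Pi.single (z0 r) 1 := by
      rw [O.ye_vec]
      have e1 : (Pi.single (Fin.rev (z0 r)) 1 : VI r → K) (Fin.rev (z0 r)) = 1 := Pi.single_eq_same _ _
      have e2 : (Pi.single (Fin.rev (z0 r)) 1 : VI r → K) (c0 r) = 0 :=
        Pi.single_eq_of_ne (Ne.symm (rz0_ne (by omega))) _
      have e3 : (Pi.single (Fin.rev (z0 r)) 1 : VI r → K) (c1 r) = 0 :=
        Pi.single_eq_of_ne (Ne.symm (rz0_ne' (by omega))) _
      have e4 : O.ma r = c0 r := rfl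
      have e5 : O.mb r = c1 r := rfl
      funext i
      simp only [O.ad_apply, e4, e5, e1, e2, e3, Pi.sub_apply, Pi.add_apply, Pi.smul_apply,
        smul_eq_mul, Pi.single_apply]
      split_ifs <;> ring
    have h1 := congrArg (fun A : Matrix (VI r) (VI r) K => A *ᵥ Pi.single (Fin.rev (z0 r)) 1)
      (hye (z0 r) hsh a)
    simp only [← mulVec_mulVec] at h1
    rw [hcol _ (rz0_ne (by omega)) (rz0_ne' (by omega)), mulVec_smul, hv, mulVec_sub, mulVec_sub,
      mulVec_smul, hcol _ (rz0_ne (by omega)) (rz0_ne' (by omega)), hcol _ hz0 hz1] at h1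
    have h2 : M *ᵥ (σ a • Pi.single (c0 r) 1 + a • Pi.single (c1 r) 1) =
        l • Pi.single (Fin.rev (z0 r)) 1 - (a * σ a) • l • Pi.single (z0 r) 1 -
          (l • Pi.single (Fin.rev (z0 r)) 1 - M *ᵥ (σ a • Pi.single (c0 r) 1 +
            a • Pi.single (c1 r) 1) - (a * σ a) • l • Pi.single (z0 r) 1) := by
      abel
    rw [h2, h1, smul_sub, smul_sub, smul_comm l (a * σ a)]
    abel
  have h1 := hmid 1
  have h2 := hmid θ
  rw [map_one, one_smul, one_smul] at h1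
  have hne : σ θ - θ ≠ 0 := sub_ne_zero.2 hθ
  have h3 : M *ᵥ Pi.single (c0 r) 1 = l • Pi.single (c0 r) 1 := by
    have h4 : (σ θ - θ) • (Pi.single (c0 r) 1 : VI r → K) =
        (σ θ • Pi.single (c0 r) 1 + θ • Pi.single (c1 r) 1) -
          θ • (Pi.single (c0 r) 1 + Pi.single (c1 r) 1) := by
      rw [sub_smul, smul_add]
      abel
    have h5 : M *ᵥ ((σ θ - θ) • (Pi.single (c0 r) 1 : VI r → K)) =
        l • ((σ θ - θ) • (Pi.single (c0 r) 1 : VI r → K)) := by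
      rw [h4, mulVec_sub, h2, mulVec_smul, h1, smul_sub l, smul_comm l θ]
    rw [mulVec_smul, smul_comm l] at h5
    exact smul_right_injective _ hne h5
  have h4 : M *ᵥ Pi.single (c1 r) 1 = l • Pi.single (c1 r) 1 := by
    rw [mulVec_add, h3, smul_add] at h1
    exact add_left_cancel h1
  refine ⟨l, ?_⟩
  apply Matrix.ext_of_mulVec_single
  intro j
  rw [smul_mulVec, one_mulVec]
  by_cases hj0 : j = c0 r
  · rw [hj0, h3]
  · by_cases hj1 : j = c1 r
    · rw [hj1, h4]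
    · exact hcol j hj0 hj1

end

section
variable {r : ℕ} {K : Type u} [Field K] [Finite K] {F : Type u} [Field F] [Algebra F K]
  {σ : K ≃+* K} {θ : K} {c : F}

/-- **`PΩ(Q)` for a quadratic form of minus type** -/
theorem poq_minus (hr : 2 ≤ r) (h : BC F σ θ c)
    (hE : (2 : K) = 0 ∨ ∀ A ∈ O.GM r σ, ∃ e ∈ ⁅O.GM r σ, O.GM r σ⁆, Mon (e * A) 1)
    (hxe : ∀ (a b : VI r) (h : O.Lg a b), O.xe h (1 : K) ∈ ⁅O.GM r σ, O.GM r σ⁆)
    (hye : ∀ (p : VI r) (h : O.Sh p) (a : K), O.ye σ h a ∈ ⁅O.GM r σ, O.GM r σ⁆)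
    (Q : QuadraticForm F (Fin (2 * r + 1 + 1) → F)) (P : GL (Fin (2 * r + 1 + 1)) F)
    (hP : ∀ v, Q (P.1 *ᵥ v) = qm r c v) :
    Nonempty (POQ Q ≃* ↥(commutator ↥(O.GM r σ)) ⧸ center ↥(commutator ↥(O.GM r σ))) := by
  have hD : ⁅TO r σ, TO r σ⁆ = ⁅O.GM r σ, O.GM r σ⁆.map (tg r K) := by
    rcases hE with h2 | h2
    · exact comm_two' TO_le GM_iff h2
    · exact comm_odd' (by omega) TO_le GM_iff rho_TO (wE_GM (by omega))
        (fun t ht hm h1 => mid_GM ht hm h1) h2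
  obtain ⟨e⟩ := der_gen (O := TO r σ) (H := O.GM r σ) GM_iff hD (fun g _ hg =>
    scalar_minus hr h.ne (fun a b h1 => hg _ (hxe a b h1)) (fun p h1 a => hg _ (hye p h1 a)))
  obtain ⟨e2⟩ := der_congr (OMTO (r := r) h)
  have h1 : (OQ Q).map (MulAut.conj P⁻¹).toMonoidHom = OM r c := by
    ext g
    constructor
    · rintro ⟨x, hx, rfl⟩ v
      show qm r c ((P⁻¹ * x * P⁻¹⁻¹).1 *ᵥ v) = qm r c v
      rw [← hP, ← hP v, mulVec_mulVec, ← Units.val_mul]
      have h2 : P * (P⁻¹ * x * P⁻¹⁻¹) = x * P := by group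
      rw [h2, Units.val_mul, ← mulVec_mulVec]
      exact hx _
    · intro hg
      refine ⟨P * g * P⁻¹, ?_, ?_⟩
      · intro v
        show Q ((P * g * P⁻¹).1 *ᵥ v) = Q v
        have h3 : (P * g * P⁻¹).1 *ᵥ v = P.1 *ᵥ (g.1 *ᵥ (P⁻¹.1 *ᵥ v)) := by
          rw [mulVec_mulVec, mulVec_mulVec]
          congr 1
        have h4 : v = P.1 *ᵥ (P⁻¹.1 *ᵥ v) := by
          rw [mulVec_mulVec, ← Units.val_mul, mul_inv_cancel, Units.val_one, one_mulVec]
        rw [h3, hP, hg, ← hP, ← h4]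
      · show P⁻¹ * (P * g * P⁻¹) * P⁻¹⁻¹ = g
        group
  obtain ⟨e'⟩ := der_congr (((MulAut.conj P⁻¹).subgroupMap (OQ Q)).trans (MulEquiv.subgroupCongr h1))
  exact ⟨e'.trans (e2.trans e)⟩

end

end Vale.Agent.P240.R2.H432.Q
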