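import Vale.Agent.P240.R2.H432.QD
import Vale.Agent.P240.R2.H432.QG
import Vale.Agent.P240.R2.H727.O8
import Vale.Agent.P240.R2.H38.T2

/-!
`PΩ(Q)` for the quadratic forms of minus type: all finite fields.
-/

set_option autoImplicit false
set_option linter.all false

namespace Vale.Agent.P240.R2.H432.Q

open Subgroup Matrix Vale.Agent.P240.H195
open Vale.Agent.P240.R2.H38.DD
open Vale.Agent.P240.R2.H38.TT (ER elimT)
open Vale.Agent.P240.R2.H727
open scoped commutatorElement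

universe u

section
variable {r : ℕ} {K : Type u} [Field K] [Finite K] {σ : K ≃+* K}

lemma ER_comm (hσ : ∀ x, σ (σ x) = x) (hne : ∃ x, σ x ≠ x) :
    ER r σ ≤ ⁅O.GM r σ, O.GM r σ⁆ := by
  unfold ER
  rw [closure_le]
  rintro x (⟨a, b, h, c, hc, rfl⟩ | ⟨p, h, a, rfl⟩)
  · exact O.xe_comm_mem hσ hne h hc
  · exact O.ye_comm_mem hσ hne h a

/-- elimination, odd characteristic -/
lemma elim_minus (hσ : ∀ x, σ (σ x) = x) (hne : ∃ x, σ x ≠ x) (h2 : (2 : K) ≠ 0) :
    ∀ A ∈ O.GM r σ, ∃ e ∈ ⁅O.GM r σ, O.GM r σ⁆, Mon (e * A) 1 := by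
  intro A hA
  obtain ⟨e, he, n, hn, hm, rfl⟩ := elimT hσ hA
  refine ⟨e⁻¹, inv_mem (ER_comm hσ hne he), ?_⟩
  rw [inv_mul_cancel_left]
  rcases hm with h | h
  · exact h
  · exfalso
    have h3 : (tg r K n * rho r K).1.det = 1 := by
      refine diag_det (mul_mem (TO_le ((GM_iff n).1 hn)) rho_mem) ?_
      intro i j hij
      show (n.1 * pM (pp r) K) i j = 0
      rw [mul_pM_apply]
      refine mon_eq h ?_
      have h4 : (pp r).symm j = pp r j := by
        rw [Equiv.symm_apply_eq, pp_pp]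
      rw [h4, PP_eq_pp, pp_pp]
      exact hij
    rw [Units.val_mul, det_mul, rho_det] at h3
    have h4 : (tg r K n).1.det = 1 := n.2
    rw [h4] at h3
    apply h2
    linear_combination -h3

/-- **`PΩ(Q)`, minus type**, dimension `2 r + 2 ≥ 6`, any finite field -/
theorem poq_gm {F : Type u} [Field F] [Algebra F K] {θ : K} {c : F} (hr : 2 ≤ r)
    (h : BC F σ θ c) (Q : QuadraticForm F (Fin (2 * r + 1 + 1) → F))
    (P : GL (Fin (2 * r + 1 + 1)) F) (hP : ∀ v, Q (P.1 *ᵥ v) = qm r c v) :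
    Nonempty (POQ Q ≃* ↥(commutator ↥(O.GM r σ)) ⧸ center ↥(commutator ↥(O.GM r σ))) := by
  have hne : ∃ x, σ x ≠ x := ⟨θ, h.ne⟩
  refine poq_minus hr h ?_ (fun a b h1 => O.xe_comm_mem h.inv hne h1 (map_one σ))
    (fun p h1 a => O.ye_comm_mem h.inv hne h1 a) Q P hP
  by_cases h2 : (2 : K) = 0
  · exact Or.inl h2
  · exact Or.inr (elim_minus h.inv hne h2)

end

end Vale.Agent.P240.R2.H432.Q
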