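import Vale.Agent.P240.R2.H432.QI
import Vale.Agent.P240.R2.H38.D13
import Vale.Agent.P240.R2.H38.T7

/-!
The groups `PΩ(Q)`, even dimension at least `6`, are of Lie type and rigid in their characteristic.
-/

set_option autoImplicit false
set_option linter.all false

namespace Vale.Agent.P240.R2.H432.Q

open Subgroup Matrix Vale.Agent.P240.H195
open Vale.Agent.P240.R2.H38.DD
open Vale.Agent.P240.R2.H38.TT (P2 p2_lie p2_rigid)
open Vale.Agent.P240.R2.H727

universe u

section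
variable {F : Type u} [Field F] [Finite F] {k : ℕ} {p : ℕ}

/-- **Lie type**, dimension `2 k + 2 ≥ 6` -/
theorem poq_lie [hp : Fact p.Prime] [CharP F p] (hk : 2 ≤ k)
    (Q : QuadraticForm F (Fin (2 * k + 1 + 1) → F))
    (hQ : ∀ v, (∀ w, QuadraticMap.polar Q v w = 0) → v = 0) (hs : IsSimpleGroup (POQ Q))
    (hZ : ∀ x : POQ Q, (∀ y, x * y = y * x) → x = 1) : LieType p (POQ Q) := by
  rcases poq_cases hk Q hQ with ⟨⟨e⟩⟩ | ⟨K, i1, i2, σ, h1, h2, h3, ⟨e⟩⟩
  · exact LieType.tr e.symm (pod_lie (p := p) hk e.symm.isSimpleGroup (centreless_tr e hZ))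
  · haveI : CharP K p := h3 p inferInstance
    exact LieType.tr e.symm (p2_lie (p := p) (by omega) h1 h2 e.symm.isSimpleGroup
      (centreless_tr e hZ))

/-- **Rigidity**, dimension `2 k + 2 ≥ 6` -/
theorem poq_rigid [hp : Fact p.Prime] [CharP F p] (hk : 2 ≤ k)
    (Q : QuadraticForm F (Fin (2 * k + 1 + 1) → F))
    (hQ : ∀ v, (∀ w, QuadraticMap.polar Q v w = 0) → v = 0) (hs : IsSimpleGroup (POQ Q))
    (hZ : ∀ x : POQ Q, (∀ y, x * y = y * x) → x = 1) : RigidLie p (POQ Q) := by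
  rcases poq_cases hk Q hQ with ⟨⟨e⟩⟩ | ⟨K, i1, i2, σ, h1, h2, h3, ⟨e⟩⟩
  · exact RigidLie.tr e.symm (pod_rigid (p := p) hk e.symm.isSimpleGroup (centreless_tr e hZ))
  · haveI : CharP K p := h3 p inferInstance
    exact RigidLie.tr e.symm (p2_rigid (p := p) (by omega) h1 h2 e.symm.isSimpleGroup
      (centreless_tr e hZ))

end

end Vale.Agent.P240.R2.H432.Q
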