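import Vale.Agent.P240.R2.H432.UP2
import Vale.Agent.P240.R2.H472.PH

/-!
`LocTopF` for `PSU_n(q)`, `q > 3` odd, `n ≥ 3`, `p` odd with `p ∤ q (q + 1)`, from `StmtOA` and `StmtUN`.
-/

set_option autoImplicit false
set_option linter.all false

namespace Vale.Agent.P240.R2.H432.Odd

open Matrix Subgroup
open Vale.Agent.P240.R2.H38 (mt)
open Vale.Agent.P240.R2.H687.Odd
open Vale.Agent.P240.R2.H487 (LocTopF)
open Vale.Agent.P240.R2.AS (PSU)

universe u v w

section
variable {K : Type u} [Field K] [Fintype K] [StarRing K] {n q : ℕ} {p : ℕ} {G : Type v} [Group G]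

omit [Fintype K] in
lemma norm_scalar (hn : 1 ≤ n) {g : H38.SU K n} {c : K}
    (h : mt g = c • (1 : Matrix (Fin n) (Fin n) K)) : c * star c = 1 := by
  have h1 := mt_uni g
  rw [h, star_smul, star_one, smul_mul_smul_comm, mul_one] at h1
  have h2 := congrFun (congrFun h1 ⟨0, by omega⟩) ⟨0, by omega⟩
  rw [Matrix.smul_apply, Matrix.one_apply_eq, smul_eq_mul, mul_one] at h2
  exact h2

/-- the data of the abstract theorem -/
lemma dat (hn : 1 ≤ n) (hs : ∀ x : K, star x = x ^ q) (hp : p.Prime) (hpq : ¬ p ∣ q + 1)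
    (hpK : (p : K) ≠ 0) {ε : H38.SU K n →* G}
    (hker : ∀ g : H38.SU K n, ε g = 1 ↔ ∃ c : K, mt g = c • (1 : Matrix (Fin n) (Fin n) K)) :
    Dat p (jU K n) (star : Matrix (Fin n) (Fin n) K → Matrix (Fin n) (Fin n) K) ε where
  inj := fun g h e => H38.mt_inj e
  one := star_one _
  add := star_add
  mul := star_mul
  inv := fun g => rfl
  unit := by
    have h1 : IsUnit (algebraMap K (Matrix (Fin n) (Fin n) K) (p : K)) :=
      (IsUnit.mk0 (p : K) hpK).map _
    rwa [map_natCast] at h1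
  mem := by
    intro x hx hx' hxp
    refine mkSU hx ?_
    have h1 : x.det ^ p = 1 := by rw [← det_pow, hxp, det_one]
    have h2 : x.det * star x.det = 1 := by
      rw [← det_conjTranspose, ← star_eq_conjTranspose, ← det_mul, hx, det_one]
    have h3 := pow_gcd_eq_one.2 ⟨h1, norm_pow hs h2⟩
    rw [Nat.Coprime.gcd_eq_one ((Nat.Prime.coprime_iff_not_dvd hp).2 hpq), pow_one] at h3
    exact h3
  ker := by
    refine ⟨q + 1, hpq, fun g hg => ?_⟩
    obtain ⟨c, hc⟩ := (hker g).1 hg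
    refine ⟨?_, fun a => ?_⟩
    · apply H38.mt_inj
      have h1 : mt (g ^ (q + 1)) = mt g ^ (q + 1) := map_pow (jU K n) g (q + 1)
      rw [h1, hc, smul_pow, one_pow, norm_pow hs (norm_scalar hn hc), one_smul]
      rfl
    · show mt g * a = a * mt g
      rw [hc, smul_mul_assoc, one_mul, mul_smul_comm, mul_one]

/-- the centre is trivial -/
lemma inf_bot (hn : 3 ≤ n) (hK : Nat.card K = q ^ 2) (hs : ∀ x : K, star x = x ^ q)
    {ε : H38.SU K n →* G}
    (hker : ∀ g : H38.SU K n, ε g = 1 ↔ ∃ c : K, mt g = c • (1 : Matrix (Fin n) (Fin n) K)) :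
    ε.range ⊓ centralizer (ε.range : Set G) = ⊥ := by
  rw [eq_bot_iff]
  rintro x ⟨⟨h, rfl⟩, hx⟩
  have hx' := Subgroup.mem_centralizer_iff.1 hx
  rw [mem_bot, hker]
  refine (uniq (σ := RingEquiv.refl K) hn hK hs (mt_uni h) (fun a => rfl) fun g => ?_).2
  have h1 : ε (h * g * h⁻¹ * g⁻¹) = 1 := by
    have h2 := hx' (ε g) ⟨g, rfl⟩
    rw [map_mul, map_mul, map_mul, ← h2, map_inv, map_inv]
    group
  obtain ⟨c, hc⟩ := (hker _).1 h1
  refine ⟨c, ?_⟩
  have h3 : mt (h * g * h⁻¹ * g⁻¹ * g) = mt (h * g * h⁻¹ * g⁻¹) * mt g := rfl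
  rw [inv_mul_cancel_right, hc, smul_mul_assoc, one_mul] at h3
  rw [← h3]
  have h4 : (mt g).map (RingEquiv.refl K) = mt g := by
    ext i j
    rfl
  rw [h4]
  rfl

/-- skew elements fixed by an automorphism of odd order -/
lemma exists_skew (hK : Nat.card K = q ^ 2) (hs : ∀ x : K, star x = x ^ q) (hp2 : Odd p)
    {σ : K ≃+* K} (hσ : ∀ a : K, σ (star a) = star (σ a)) (hσp : (σ : RingAut K) ^ p = 1) :
    ∃ a : K, σ a = a ∧ a ≠ 0 ∧ star a = -a := by
  obtain ⟨z, hz⟩ := H401.exists_star_ne hK hs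
  obtain ⟨s, hss, hs0⟩ : ∃ s : K, star s = -s ∧ s ≠ 0 := by
    refine ⟨z - star z, ?_, fun h0 => hz (sub_eq_zero.1 h0).symm⟩
    rw [star_sub, star_star]
    ring
  have hcomm : ∀ (k : ℕ) (x : K), ((σ : RingAut K) ^ k) (star x) = star (((σ : RingAut K) ^ k) x) := by
    intro k
    induction k with
    | zero => intro x; rfl
    | succ k ih =>
      intro x
      rw [pow_succ, RingAut.mul_apply, RingAut.mul_apply, hσ, ih]
  refine ⟨∏ k ∈ Finset.range p, ((σ : RingAut K) ^ k) s, ?_, ?_, ?_⟩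
  · rw [map_prod]
    have h1 := Finset.prod_range_succ' (fun k => ((σ : RingAut K) ^ k) s) p
    have h2 := Finset.prod_range_succ (fun k => ((σ : RingAut K) ^ k) s) p
    rw [h1, hσp, pow_zero] at h2
    have h3 := mul_right_cancel₀ (by simpa using hs0) h2
    rw [← h3]
    refine Finset.prod_congr rfl fun k _ => ?_
    rw [pow_succ' (σ : RingAut K) k, RingAut.mul_apply]
  · rw [Finset.prod_ne_zero_iff]
    intro k _
    exact (map_ne_zero _).2 hs0
  · have h1 : star (∏ k ∈ Finset.range p, ((σ : RingAut K) ^ k) s) =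
        ∏ k ∈ Finset.range p, star (((σ : RingAut K) ^ k) s) := by
      have := map_prod (starRingEnd K) (fun k => ((σ : RingAut K) ^ k) s) (Finset.range p)
      exact this
    rw [h1]
    have h2 : ∀ k ∈ Finset.range p, star (((σ : RingAut K) ^ k) s) =
        (-1) * ((σ : RingAut K) ^ k) s := by
      intro k _
      rw [← hcomm, hss, map_neg]
      ring
    rw [Finset.prod_congr rfl h2, Finset.prod_mul_distrib, Finset.prod_const, Finset.card_range,
      Odd.neg_one_pow hp2]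
    ring

/-- two skew elements -/
lemma exists_skews (hK : Nat.card K = q ^ 2) (hs : ∀ x : K, star x = x ^ q) (h2 : (2 : K) ≠ 0)
    (hp2 : Odd p) {M : Matrix (Fin n) (Fin n) K} {σ : K ≃+* K}
    {θ : Matrix (Fin n) (Fin n) K ≃+* Matrix (Fin n) (Fin n) K} (hD : DscU p M σ θ) :
    ∃ a b : K, σ a = a ∧ σ b = b ∧ a ≠ 0 ∧ b ≠ 0 ∧ a ≠ b ∧ star a = -a ∧ star b = -b := by
  have hσp : (σ : RingAut K) ^ p = 1 := by
    rcases hD.ord with ⟨-, h⟩ | ⟨h, -⟩
    · rw [h]
      exact one_pow p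
    · exact h
  obtain ⟨a, h3, h4, h5⟩ := exists_skew hK hs hp2 hD.com hσp
  refine ⟨a, -a, h3, by rw [map_neg, h3], h4, neg_ne_zero.2 h4, ?_, h5, by rw [star_neg, h5]⟩
  intro h6
  have h7 : 2 * a = 0 := by linear_combination h6
  rcases mul_eq_zero.1 h7 with h8 | h8
  · exact h2 h8
  · exact h4 h8

end

/-- **`LocTopF` for `PSU_n(q)`**, `q > 3` odd, `p` odd, `p ∤ q (q + 1)` -/
theorem locTopF_PSU_of (hOA : StmtOA.{v, w, 0}) (hUN : StmtUN.{0}) {K : Type} [Field K] [Fintype K]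
    [StarRing K] {n q : ℕ} (hq : 3 < q) (hK : Nat.card K = q ^ 2) (hs : ∀ x : K, star x = x ^ q)
    (h2 : (2 : K) ≠ 0) (hn : 3 ≤ n) {p : ℕ} [Fact p.Prime] (hp2 : p ≠ 2) (hpq : ¬ p ∣ q + 1)
    (hpK : (p : K) ≠ 0) {G : Type v} [Group G] [Finite G] (𝕜 : Type w) [Field 𝕜] {L : Subgroup G}
    (e : Nonempty (L ≃* PSU K n)) (hd : p ∣ Nat.card L) : LocTopF 𝕜 p L := by
  have hp : p.Prime := Fact.out
  obtain ⟨e⟩ := e
  obtain ⟨ε, -, h4, h5, h6⟩ := H472.exists_psuHom hq hK hs h2 hn L e.symm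
  have hA : PSUHomA n L ε := ⟨h4, h5, h6⟩
  haveI : Finite (Matrix (Fin n) (Fin n) K) := inferInstanceAs (Finite (Fin n → Fin n → K))
  haveI : Finite (AS.GU K n) := Subtype.finite
  haveI : Finite (H38.SU K n) := Subtype.finite
  have h7 := hOA p hp2 𝕜 G (Matrix (Fin n) (Fin n) K) (H38.SU K n) (jU K n) star ε
    (dat (by omega) hs hp hpq hpK h5) (by rw [h4]; exact hd) (inf_bot hn hK hs h5)
    (by
      rw [h4]
      exact stmtUP3 K q (by omega) hK hs n p hp2 hpq hn G L ε hA)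
    (by
      rw [h4]
      intro y hy hyp hor
      obtain ⟨M, σ, θ, hD, hg⟩ := stmtUP2 K q (by omega) hK hs n p hp2 hpq hn G L ε hA y hy hyp hor
      exact ⟨θ, hUN K q (by omega) hK hs n p hp2 hpq hpK M σ θ hD
        (exists_skews hK hs h2 (hp.odd_of_ne_two hp2) hD), fun g => hg g⟩)
  rwa [h4] at h7

end Vale.Agent.P240.R2.H432.Odd
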