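import Vale.Agent.P240.R2.H432.UAsm
import Vale.Agent.P240.R2.H687.OddA
import Vale.Agent.P240.R2.H487.TF

/-!
`TopFac` for `PSU_n(q)`, `n ≥ 3`, `p` odd with `p ∤ q (q + 1)`, both parities of `q`, from the
semilinearity of the automorphisms and the lemma on blocks.
-/

set_option autoImplicit false
set_option linter.all false

namespace Vale.Agent.P240.R2.H432.Odd

open Matrix Subgroup
open Vale.Agent.P240.R2.H38 (mt)
open Vale.Agent.P240.R2.H687.Odd
open Vale.Agent.P240.R2.H487 (LocTopF TopFac)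
open Vale.Agent.P240.R2.AS (PSU GU PGU SA act mapGU)

universe u v w

section
variable {K : Type u} [Field K] [Fintype K] [StarRing K] {n q : ℕ}

/-- the projection onto `PSU` -/
def prA (K : Type u) [Field K] [Fintype K] [StarRing K] (n : ℕ) : H38.SU K n →* PSU K n :=
  ((QuotientGroup.mk' (center (GU K n))).comp (H38.SU K n).subtype).codRestrict (PSU K n)
    fun g => ⟨g.1, g.2, rfl⟩

theorem prA_val (g : H38.SU K n) :
    ((prA K n g : PSU K n) : PGU K n) = QuotientGroup.mk g.1 := rfl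

theorem prA_surj : Function.Surjective (prA K n) := by
  rintro ⟨_, A, hA, rfl⟩
  exact ⟨⟨A, hA⟩, rfl⟩

theorem prA_eq_one (hK : Nat.card K = q ^ 2) (hs : ∀ x : K, star x = x ^ q) (g : H38.SU K n) :
    prA K n g = 1 ↔ ∃ c : K, mt g = c • (1 : Matrix (Fin n) (Fin n) K) := by
  obtain ⟨z, hz⟩ := H401.exists_star_ne hK hs
  have hz0 : z ≠ 0 := by
    rintro rfl
    exact hz (star_zero K)
  have hzs : star z ≠ 0 := by simpa using hz0
  have h4 : (z / star z) * star (z / star z) = 1 := by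
    rw [star_div₀, star_star, div_mul_div_cancel₀ hzs, div_self hz0]
  have h3 : z / star z ≠ 1 := by
    intro h1
    rw [div_eq_one_iff_eq hzs] at h1
    exact hz h1.symm
  have h5 := H296.mem_center_iff h3 h4 g.1
  rw [show mt g = (g.1 : Matrix (Fin n) (Fin n) K) from rfl, ← h5, ← QuotientGroup.eq_one_iff,
    ← prA_val]
  exact Subtype.ext_iff

/-- the structure `PSUHomA` from the semilinearity of the automorphisms of `PSU_n(q)` -/
theorem homA_of_TR (hK : Nat.card K = q ^ 2) (hs : ∀ x : K, star x = x ^ q)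
    (hTR : ∀ α : MulAut ↥(PSU K n), ∃ (s : SA K) (g : GU K n), ∀ y : ↥(PSU K n),
      ((α y : ↥(PSU K n)) : PGU K n) =
        (QuotientGroup.mk g : PGU K n) * act n s (y : PGU K n) * (QuotientGroup.mk g : PGU K n)⁻¹)
    {G : Type v} [Group G] (L : Subgroup G) (e : L ≃* PSU K n) :
    ∃ ε : H38.SU K n →* G, PSUHomA n L ε := by
  refine ⟨L.subtype.comp (e.symm.toMonoidHom.comp (prA K n)), ⟨?_, ?_, ?_⟩⟩
  · ext y
    constructor
    · rintro ⟨g, rfl⟩
      exact (e.symm (prA K n g)).2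
    · intro hy
      obtain ⟨g, hg⟩ := prA_surj (e ⟨y, hy⟩)
      refine ⟨g, ?_⟩
      show ((e.symm (prA K n g) : L) : G) = y
      rw [hg, MulEquiv.symm_apply_apply]
  · intro g
    rw [← prA_eq_one hK hs]
    show ((e.symm (prA K n g) : L) : G) = 1 ↔ _
    rw [OneMemClass.coe_eq_one, EmbeddingLike.map_eq_one_iff]
  · intro x hx
    obtain ⟨s, g, hg⟩ := hTR ((e.symm.trans (Subgroup.normalizerMonoidHom L ⟨x, hx⟩)).trans e)
    refine ⟨g, s.1, s.2, fun h h' hh' => ?_⟩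
    have h1 := hg (prA K n h)
    have h2 : ((e (Subgroup.normalizerMonoidHom L ⟨x, hx⟩ (e.symm (prA K n h))) : PSU K n) :
        PGU K n) = ((prA K n h' : PSU K n) : PGU K n) := by
      refine h1.trans ?_
      rw [prA_val, prA_val]
      have h5 : h'.1 = g * mapGU s h.1 * g⁻¹ := Subtype.ext hh'
      rw [h5]
      rfl
    have h3 := Subtype.ext h2
    have h4 : Subgroup.normalizerMonoidHom L ⟨x, hx⟩ (e.symm (prA K n h)) = e.symm (prA K n h') := by
      rw [← h3, MulEquiv.symm_apply_apply]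
    exact congrArg Subtype.val h4

/-- skew elements, `q` even -/
lemma exists_skews_even {p : ℕ} (hK : Nat.card K = q ^ 2) (hs : ∀ x : K, star x = x ^ q)
    (hp2 : Odd p) {M : Matrix (Fin n) (Fin n) K} {σ : K ≃+* K} (h2 : (2 : K) = 0)
    {θ : Matrix (Fin n) (Fin n) K ≃+* Matrix (Fin n) (Fin n) K} (hD : DscU p M σ θ)
    (h : ∃ a : K, σ a = a ∧ star a = a ∧ a ≠ 0 ∧ a ≠ 1) :
    ∃ a b : K, σ a = a ∧ σ b = b ∧ a ≠ 0 ∧ b ≠ 0 ∧ a ≠ b ∧ star a = -a ∧ star b = -b := by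
  obtain ⟨a, h3, h4, h5, h6⟩ := h
  have hneg : ∀ x : K, -x = x := by
    intro x
    have : (2 : K) * x = 0 := by rw [h2, zero_mul]
    linear_combination -this
  exact ⟨a, 1, h3, map_one σ, h5, one_ne_zero, h6, by rw [hneg, h4], by rw [hneg, star_one]⟩

end

/-- **`LocTopF` from `PSUHomA`** -/
theorem locTopF_homA {K : Type u} [Field K] [Fintype K]
    [StarRing K] {n q : ℕ} (hq : 3 ≤ q) (hK : Nat.card K = q ^ 2) (hs : ∀ x : K, star x = x ^ q)
    (hn : 3 ≤ n) {p : ℕ} [Fact p.Prime] (hp2 : p ≠ 2) (hpq : ¬ p ∣ q + 1)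
    (hpK : (p : K) ≠ 0)
    (hNN : ∀ (M : Matrix (Fin n) (Fin n) K) (σ : K ≃+* K)
      (θ : Matrix (Fin n) (Fin n) K ≃+* Matrix (Fin n) (Fin n) K), DscU p M σ θ →
      NN p (jU K n) star θ)
    {G : Type v} [Group G] [Finite G] (𝕜 : Type w) [Field 𝕜] {L : Subgroup G}
    {ε : H38.SU K n →* G} (hA : PSUHomA n L ε) (hd : p ∣ Nat.card L) : LocTopF 𝕜 p L := by
  have hp : p.Prime := Fact.out
  haveI : Finite (Matrix (Fin n) (Fin n) K) := inferInstanceAs (Finite (Fin n → Fin n → K))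
  haveI : Finite (AS.GU K n) := Subtype.finite
  haveI : Finite (H38.SU K n) := Subtype.finite
  have h7 := stmtOA p hp2 𝕜 G (Matrix (Fin n) (Fin n) K) (H38.SU K n) (jU K n) star ε
    (dat (by omega) hs hp hpq hpK hA.ker) (by rw [hA.range]; exact hd)
    (inf_bot hn hK hs hA.ker)
    (by
      rw [hA.range]
      exact stmtUP3 K q (by omega) hK hs n p hp2 hpq hn G L ε hA)
    (by
      rw [hA.range]
      intro y hy hyp hor
      obtain ⟨M, σ, θ, hD, hg⟩ := stmtUP2 K q (by omega) hK hs n p hp2 hpq hn G L ε hA y hy hyp hor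
      exact ⟨θ, hNN M σ θ hD, fun g => hg g⟩)
  rwa [hA.range] at h7

/-- **`TopFac` for `PSU_n(q)`** from the semilinearity of the automorphisms -/
theorem topFac_of_TR {K : Type u} [Field K] [Fintype K]
    [StarRing K] {n q : ℕ} (hq : 3 ≤ q) (hK : Nat.card K = q ^ 2) (hs : ∀ x : K, star x = x ^ q)
    (hn : 3 ≤ n) {p : ℕ} [Fact p.Prime] (hp2 : p ≠ 2) (hpq : ¬ p ∣ q + 1)
    (hpK : (p : K) ≠ 0)
    (hNN : ∀ (M : Matrix (Fin n) (Fin n) K) (σ : K ≃+* K)
      (θ : Matrix (Fin n) (Fin n) K ≃+* Matrix (Fin n) (Fin n) K), DscU p M σ θ →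
      NN p (jU K n) star θ)
    (hTR : ∀ α : MulAut ↥(PSU K n), ∃ (s : SA K) (g : GU K n), ∀ y : ↥(PSU K n),
      ((α y : ↥(PSU K n)) : PGU K n) =
        (QuotientGroup.mk g : PGU K n) * act n s (y : PGU K n) * (QuotientGroup.mk g : PGU K n)⁻¹)
    (𝕜 : Type w) [Field 𝕜] {L : Type v} [Group L]
    (e : Nonempty (L ≃* PSU K n)) (hd : p ∣ Nat.card L) : TopFac 𝕜 p L := by
  intro G _ _ M hM
  obtain ⟨e⟩ := e
  obtain ⟨f⟩ := hM
  obtain ⟨ε, hA⟩ := homA_of_TR hK hs hTR M (f.symm.trans e)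
  exact locTopF_homA hq hK hs hn hp2 hpq hpK hNN 𝕜 hA
    (by rw [← Nat.card_congr f.toEquiv]; exact hd)

end Vale.Agent.P240.R2.H432.Odd
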