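import Vale.Agent.P240.R2.H432.UAsm2
import Vale.Agent.P240.R2.H667.UN2
import Vale.Agent.P240.R2.H923.TRStmts

/-!
`TopFac` and `LocTopF` for `PSU_n(q)`, `n ≥ 3`, `p` odd with `p ∤ q (q + 1)`: unconditional for odd
`q > 3`, and from `StmtTReven` for even `q ≥ 4`, `q ≠ 8`.
-/

set_option autoImplicit false
set_option linter.all false

namespace Vale.Agent.P240.R2.H432.Odd

open Matrix Subgroup
open Vale.Agent.P240.R2.H687.Odd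
open Vale.Agent.P240.R2.H487 (LocTopF TopFac)
open Vale.Agent.P240.R2.AS (PSU)

universe u v w

/-- **`TopFac` for `PSU_n(q)`**, `q > 3` odd, `n ≥ 3`, `p` odd, `p ∤ q (q + 1)` -/
theorem topFac_PSU {K : Type} [Field K] [Fintype K]
    [StarRing K] {n q : ℕ} (hq : 3 < q) (hK : Nat.card K = q ^ 2) (hs : ∀ x : K, star x = x ^ q)
    (h2 : (2 : K) ≠ 0) (hn : 3 ≤ n) {p : ℕ} [Fact p.Prime] (hp2 : p ≠ 2) (hpq : ¬ p ∣ q + 1)
    (hpK : (p : K) ≠ 0) (𝕜 : Type w) [Field 𝕜] {L : Type v} [Group L]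
    (e : Nonempty (L ≃* PSU K n)) (hd : p ∣ Nat.card L) : TopFac 𝕜 p L :=
  topFac_of_TR (by omega) hK hs hn hp2 hpq hpK
    (fun M σ θ hD => H667.Un.un_all hK hs hp2 hpq hD)
    (fun α => H472.tr_PSU hq hK hs h2 hn α) 𝕜 e hd

/-- **`LocTopF` for `PSU_n(q)`**, `q > 3` odd, `n ≥ 3`, `p` odd, `p ∤ q (q + 1)` -/
theorem locTopF_PSU {K : Type} [Field K] [Fintype K]
    [StarRing K] {n q : ℕ} (hq : 3 < q) (hK : Nat.card K = q ^ 2) (hs : ∀ x : K, star x = x ^ q)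
    (h2 : (2 : K) ≠ 0) (hn : 3 ≤ n) {p : ℕ} [Fact p.Prime] (hp2 : p ≠ 2) (hpq : ¬ p ∣ q + 1)
    (hpK : (p : K) ≠ 0) {G : Type v} [Group G] [Finite G] (𝕜 : Type w) [Field 𝕜] {L : Subgroup G}
    (e : Nonempty (L ≃* PSU K n)) (hd : p ∣ Nat.card L) : LocTopF 𝕜 p L :=
  (topFac_PSU hq hK hs h2 hn hp2 hpq hpK 𝕜 e hd).top

/-- **`TopFac` for `PSU_n(q)`**, `q ≥ 4` even, `q ≠ 8`, `n ≥ 3`, `p` odd, `p ∤ q + 1` -/
theorem topFac_PSU_even (hT : H923.TR.StmtTReven.{u}) {K : Type u} [Field K] [Fintype K]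
    [StarRing K] {n q : ℕ} (hq : 4 ≤ q) (hq8 : q ≠ 8) (hqe : Even q) (hK : Nat.card K = q ^ 2)
    (hs : ∀ x : K, star x = x ^ q) (hn : 3 ≤ n) {p : ℕ} [Fact p.Prime] (hp2 : p ≠ 2)
    (hpq : ¬ p ∣ q + 1) (hpK : (p : K) ≠ 0) (𝕜 : Type w) [Field 𝕜] {L : Type v} [Group L]
    (e : Nonempty (L ≃* PSU K n)) (hd : p ∣ Nat.card L) : TopFac 𝕜 p L :=
  topFac_of_TR (by omega) hK hs hn hp2 hpq hpK
    (fun M σ θ hD => H667.Un.un_all hK hs hp2 hpq hD)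
    (fun α => hT K q hq hq8 hqe ⟨hK, hs⟩ n hn α) 𝕜 e hd

end Vale.Agent.P240.R2.H432.Odd
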