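import Vale.Agent.P240.R2.H432.UFin
import Vale.Agent.P240.R2.H923.TR5

/-!
`TopFac` for `PSU_n(q)`, `n ≥ 3`, `p` odd with `p ∤ q (q + 1)`, even `q ≥ 4`, `q ≠ 8`; both parities.
-/

set_option autoImplicit false
set_option linter.all false

namespace Vale.Agent.P240.R2.H432.Odd

open Vale.Agent.P240.R2.H487 (LocTopF TopFac)
open Vale.Agent.P240.R2.AS (PSU)

universe u v w

/-- **`TopFac` for `PSU_n(q)`**, `q > 3`, `q ≠ 8`, `n ≥ 3`, `p` odd, `p ∤ q (q + 1)` -/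
theorem topFac_PSU_all {K : Type} [Field K] [Fintype K]
    [StarRing K] {n q : ℕ} (hq : 4 ≤ q) (hq8 : q ≠ 8) (hK : Nat.card K = q ^ 2)
    (hs : ∀ x : K, star x = x ^ q) (hn : 3 ≤ n) {p : ℕ} [Fact p.Prime] (hp2 : p ≠ 2)
    (hpq : ¬ p ∣ q + 1) (hpK : (p : K) ≠ 0) (𝕜 : Type w) [Field 𝕜] {L : Type v} [Group L]
    (e : Nonempty (L ≃* PSU K n)) (hd : p ∣ Nat.card L) : TopFac 𝕜 p L := by
  by_cases h2 : Even q
  · exact topFac_PSU_even H923.TR.stmtTReven hq hq8 h2 hK hs hn hp2 hpq hpK 𝕜 e hd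
  · exact topFac_PSU (by omega) hK hs
      (H401.two_ne_zero_of_odd hK (Nat.not_even_iff_odd.1 h2)) hn hp2 hpq hpK 𝕜 e hd

end Vale.Agent.P240.R2.H432.Odd
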