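import Vale.Agent.P240.R2.H432.UPa

/-!
The elements of order `p` outside `L ⊔ C(L)` for `L ≅ PSU_n(q)`, `p ∤ q + 1`: `StmtUP2`, `StmtUP3`.
-/

set_option autoImplicit false
set_option linter.all false

namespace Vale.Agent.P240.R2.H432.Odd

open Matrix Subgroup
open Vale.Agent.P240.R2.H38 (mt)
open Vale.Agent.P240.R2.H687.Odd (DscU PSUHomA StmtUP2 StmtUP3)

universe u v

section
variable {K : Type u} [Field K] {n : ℕ}

lemma map_mul_mat (σ : K ≃+* K) (A B : Matrix (Fin n) (Fin n) K) :
    (A * B).map σ = A.map σ * B.map σ := by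
  ext i j
  simp only [Matrix.map_apply, Matrix.mul_apply, map_sum, map_mul]

lemma map_one_mat (σ : K ≃+* K) : (1 : Matrix (Fin n) (Fin n) K).map σ = 1 := by
  ext i j
  simp only [Matrix.map_apply, Matrix.one_apply]
  split_ifs <;> simp

lemma map_map_mat (σ τ : K ≃+* K) (A : Matrix (Fin n) (Fin n) K) :
    (A.map τ).map σ = A.map ((σ : RingAut K) * τ : RingAut K) := by
  ext i j
  rfl

lemma det_map_mat (σ : K ≃+* K) (A : Matrix (Fin n) (Fin n) K) : (A.map σ).det = σ A.det :=
  (RingHom.map_det (σ : K →+* K) A).symm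

lemma map_star_mat [StarRing K] {σ : K ≃+* K} (hσ : ∀ a, σ (star a) = star (σ a))
    (A : Matrix (Fin n) (Fin n) K) : (star A).map σ = star (A.map σ) := by
  ext i j
  simp only [Matrix.map_apply, Matrix.star_apply, hσ]

/-- the semilinear map -/
def sl (M : Matrix (Fin n) (Fin n) K) (σ : K ≃+* K) (v : Fin n → K) : Fin n → K :=
  M *ᵥ (fun i => σ (v i))

lemma sl_smul (M : Matrix (Fin n) (Fin n) K) (σ : K ≃+* K) (a : K) (v : Fin n → K) :
    sl M σ (a • v) = σ a • sl M σ v := by
  have h : (fun i => σ ((a • v) i)) = σ a • fun i => σ (v i) := by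
    funext i
    simp
  rw [sl, h, mulVec_smul]
  rfl

/-- the matrices of the powers -/
def pw (M : Matrix (Fin n) (Fin n) K) (σ : K ≃+* K) : ℕ → Matrix (Fin n) (Fin n) K
  | 0 => 1
  | k + 1 => M * (pw M σ k).map σ

lemma map_mulVec' (σ : K ≃+* K) (A : Matrix (Fin n) (Fin n) K) (v : Fin n → K) :
    (fun i => σ ((A *ᵥ v) i)) = A.map σ *ᵥ fun i => σ (v i) := by
  funext i
  simp only [mulVec, dotProduct, map_sum, map_mul, Matrix.map_apply]

lemma sl_iter (M : Matrix (Fin n) (Fin n) K) (σ : K ≃+* K) (k : ℕ) (v : Fin n → K) :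
    (sl M σ)^[k] v = pw M σ k *ᵥ fun i => ((σ : RingAut K) ^ k) (v i) := by
  induction k with
  | zero =>
    rw [Function.iterate_zero_apply, pw, one_mulVec, pow_zero]
    rfl
  | succ k ih =>
    rw [Function.iterate_succ_apply', ih, sl, map_mulVec', mulVec_mulVec, pw]
    congr 1
    funext i
    rw [pow_succ' (σ : RingAut K) k, RingAut.mul_apply]

lemma sl_iter_smul {M : Matrix (Fin n) (Fin n) K} {σ : K ≃+* K} {a : K} (ha : σ a = a) (k : ℕ)
    (v : Fin n → K) : (sl (a • M) σ)^[k] v = a ^ k • (sl M σ)^[k] v := by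
  induction k with
  | zero => simp
  | succ k ih =>
    have h : ∀ w, sl (a • M) σ w = a • sl M σ w := by
      intro w
      rw [sl, smul_mulVec]
      rfl
    rw [Function.iterate_succ_apply', Function.iterate_succ_apply', ih, h, sl_smul, map_pow, ha,
      smul_smul, pow_succ']

end

section
variable {K : Type u} [Field K] [StarRing K] {n : ℕ} {G : Type v} [Group G]

/-- `x` acts on the image of the special unitary group as `h ↦ M σ(h) M⁻¹` -/
structure AM (ε : H38.SU K n →* G) (x : G) (M : Matrix (Fin n) (Fin n) K) (σ : K ≃+* K) : Prop where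
  com : ∀ a, σ (star a) = star (σ a)
  uni : M * star M = 1
  act : ∀ h h' : H38.SU K n, mt h' = M * (mt h).map σ * star M → x * ε h * x⁻¹ = ε h'

variable {ε : H38.SU K n →* G} {x y : G} {M N : Matrix (Fin n) (Fin n) K} {σ τ : K ≃+* K}

lemma AM.of {g : Vale.Agent.P240.R2.AS.GU K n} (h : H38.Acts ε x g σ) : AM ε x g.1 σ :=
  ⟨h.1, Matrix.mem_unitaryGroup_iff.1 g.2, h.2⟩

lemma uni_conj (hM : M * star M = 1) (hN : N * star N = 1) : (M * N) * star (M * N) = 1 := by
  rw [star_mul, mul_assoc, ← mul_assoc N, hN, one_mul, hM]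

lemma uni_map (hσ : ∀ a, σ (star a) = star (σ a)) (hM : M * star M = 1) :
    M.map σ * star (M.map σ) = 1 := by
  rw [← map_star_mat hσ, ← map_mul_mat, hM, map_one_mat]

lemma uni_star (hM : M * star M = 1) : star M * star (star M) = 1 := by
  rw [star_star, star_mul_of hM]

/-- the element that `M σ` makes of `h` -/
lemma exists_im (hσ : ∀ a, σ (star a) = star (σ a)) (hM : M * star M = 1) (h : H38.SU K n) :
    ∃ h' : H38.SU K n, mt h' = M * (mt h).map σ * star M := by
  refine mkSU ?_ ?_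
  · exact uni_conj (uni_conj hM (uni_map hσ (mt_uni h))) (uni_star hM)
  · rw [det_mul, det_mul, det_map_mat, mt_det, map_one, mul_one, ← det_mul, hM, det_one]

lemma AM.mul (hx : AM ε x M σ) (hy : AM ε y N τ) :
    AM ε (x * y) (M * N.map σ) ((σ : RingAut K) * τ : RingAut K) := by
  refine ⟨fun a => ?_, uni_conj hx.uni (uni_map hx.com hy.uni), fun h h' hh => ?_⟩
  · rw [RingAut.mul_apply, RingAut.mul_apply, hy.com, hx.com]
  · obtain ⟨h₁, hh₁⟩ := exists_im hy.com hy.uni h
    have h2 := hy.act h h₁ hh₁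
    have h3 := hx.act h₁ h' (by
      rw [hh, hh₁, map_mul_mat, map_mul_mat, map_map_mat, map_star_mat hx.com, star_mul]
      simp only [mul_assoc])
    rw [← h3, ← h2]
    group

lemma AM.one : AM ε (1 : G) (1 : Matrix (Fin n) (Fin n) K) ((1 : RingAut K) : K ≃+* K) := by
  refine ⟨fun a => rfl, by rw [star_one, mul_one], fun h h' hh => ?_⟩
  have h1 : h' = h := by
    apply H38.mt_inj
    rw [hh, star_one, mul_one, one_mul]
    ext i j
    rfl
  rw [h1, one_mul, inv_one, mul_one]

lemma AM.pow (hx : AM ε x M σ) (k : ℕ) : AM ε (x ^ k) (pw M σ k) ((σ : RingAut K) ^ k : RingAut K) := by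
  induction k with
  | zero =>
    rw [pow_zero, pow_zero, pw]
    exact AM.one
  | succ k ih =>
    rw [pow_succ' x k, pow_succ' (σ : RingAut K) k, pw]
    exact hx.mul ih

lemma AM.smul (hx : AM ε x M σ) {a : K} (ha : a * star a = 1) : AM ε x (a • M) σ := by
  have h1 : ∀ A : Matrix (Fin n) (Fin n) K, (a • M) * A * star (a • M) = M * A * star M := by
    intro A
    rw [star_smul, smul_mul_assoc, smul_mul_smul_comm, ha, one_smul]
  refine ⟨hx.com, ?_, fun h h' hh => hx.act h h' ?_⟩
  · have := h1 1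
    rw [mul_one, mul_one] at this
    rw [this, hx.uni]
  · rw [hh, h1]

end

section
variable {K : Type u} [Field K] [Fintype K] [StarRing K] {n q : ℕ} {G : Type v} [Group G]
  {L : Subgroup G} {ε : H38.SU K n →* G}

lemma norm_pow (hs : ∀ x : K, star x = x ^ q) {d : K} (hd : d * star d = 1) : d ^ (q + 1) = 1 := by
  rw [pow_succ', ← hs, hd]

/-- elements of order `p` -/
theorem main (hn : 3 ≤ n) (hK : Nat.card K = q ^ 2) (hs : ∀ x : K, star x = x ^ q) {p : ℕ}
    (hp : p.Prime) (hpq : ¬ p ∣ q + 1) (hε : PSUHomA n L ε) {y : G}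
    {M : Matrix (Fin n) (Fin n) K} {σ : K ≃+* K} (hy : AM ε y M σ) (hyp : y ^ p = 1) :
    (σ : RingAut K) ^ p = 1 ∧ (∃ M' : Matrix (Fin n) (Fin n) K, AM ε y M' σ ∧
      ∀ v, (sl M' σ)^[p] v = v) ∧ (σ = 1 → y ∈ L ⊔ centralizer (L : Set G)) := by
  have hq : 1 < q := H401.one_lt_q hK
  have hcop : Nat.Coprime p (q + 1) := (Nat.Prime.coprime_iff_not_dvd hp).2 hpq
  -- the `p`-th power is a scalar
  have hP := hy.pow p
  rw [hyp] at hP
  have hsc : ∀ g : H38.SU K n, ∃ a : K,
      pw M σ p * (mt g).map ((σ : RingAut K) ^ p : RingAut K) * star (pw M σ p) = a • mt g := by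
    intro g
    obtain ⟨g', hg'⟩ := exists_im hP.com hP.uni g
    have h1 := hP.act g g' hg'
    rw [one_mul, inv_one, mul_one] at h1
    have h2 : ε (g' * g⁻¹) = 1 := by rw [map_mul, map_inv, ← h1, mul_inv_cancel]
    obtain ⟨c, hc⟩ := (hε.ker _).1 h2
    refine ⟨c, ?_⟩
    rw [← hg']
    have h3 : mt (g' * g⁻¹ * g) = mt (g' * g⁻¹) * mt g := rfl
    rw [inv_mul_cancel_right, hc, smul_mul_assoc, one_mul] at h3
    exact h3
  obtain ⟨hσp, d, hd⟩ := uniq hn hK hs hP.uni hP.com hsc
  let i0 : Fin n := ⟨0, by omega⟩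
  have hdd : d * star d = 1 := by
    have h1 := hP.uni
    rw [hd, star_smul, star_one, smul_mul_smul_comm, mul_one] at h1
    have h2 := congrFun (congrFun h1 i0) i0
    rw [Matrix.smul_apply, Matrix.one_apply_eq, smul_eq_mul, mul_one] at h2
    exact h2
  have hiter : ∀ v, (sl M σ)^[p] v = d • v := by
    intro v
    rw [sl_iter, hd, hσp, smul_mulVec, one_mulVec]
    rfl
  have hσd : σ d = d := by
    have h1 : ∀ v, σ d • sl M σ v = d • sl M σ v := by
      intro v
      rw [← sl_smul, ← hiter, ← hiter, ← Function.iterate_succ_apply, Function.iterate_succ_apply']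
    have h2 : ∃ i, sl M σ (Pi.single i0 1) i ≠ 0 := by
      by_contra hcon
      push Not at hcon
      have h3 : sl M σ (Pi.single i0 1) = 0 := funext hcon
      have h4 := congrArg (fun w => star M *ᵥ w) h3
      simp only [sl, mulVec_mulVec, star_mul_of hy.uni, one_mulVec, mulVec_zero] at h4
      have h5 := congrFun h4 i0
      simp at h5
    obtain ⟨i, hi⟩ := h2
    have h3 := congrFun (h1 (Pi.single i0 1)) i
    rw [Pi.smul_apply, Pi.smul_apply, smul_eq_mul, smul_eq_mul] at h3
    exact mul_right_cancel₀ hi h3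
  -- rescale
  obtain ⟨k, -, hk⟩ := Nat.exists_mul_mod_eq_one_of_coprime hcop (by omega)
  have hdk : d ^ (p * k) = d := by
    rw [← Nat.div_add_mod (p * k) (q + 1), hk, pow_add, pow_mul, norm_pow hs hdd, one_pow, one_mul,
      pow_one]
  set l : K := star (d ^ k) with hl
  have hll : l * star l = 1 := by
    rw [hl, star_star, star_pow, ← mul_pow, mul_comm, hdd, one_pow]
  have hσl : σ l = l := by
    rw [hl, hy.com, map_pow, hσd]
  have hlp : l ^ p * d = 1 := by
    rw [hl, ← star_pow, ← pow_mul, mul_comm k p, hdk, mul_comm, hdd]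
  have hAM := hy.smul hll
  have hpow : ∀ v, (sl (l • M) σ)^[p] v = v := by
    intro v
    rw [sl_iter_smul hσl, hiter, smul_smul, hlp, one_smul]
  refine ⟨hσp, ⟨l • M, hAM, hpow⟩, fun hσ1 => ?_⟩
  -- the linear case
  subst hσ1
  set M' := l • M with hM'
  have hMp : M' ^ p = 1 := by
    have h1 : ∀ (k : ℕ) (v : Fin n → K), (sl M' (1 : RingAut K))^[k] v = M' ^ k *ᵥ v := by
      intro k v
      induction k with
      | zero => rw [Function.iterate_zero_apply, pow_zero, one_mulVec]
      | succ k ih =>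
        rw [Function.iterate_succ_apply', ih, pow_succ', ← mulVec_mulVec]
        rfl
    apply Matrix.ext_of_mulVec_single
    intro i
    rw [← h1, one_mulVec]
    exact hpow _
  have hdet : M'.det = 1 := by
    have h1 : M'.det ^ p = 1 := by rw [← det_pow, hMp, det_one]
    have h2 : M'.det * star M'.det = 1 := by
      rw [← det_conjTranspose, ← star_eq_conjTranspose, ← det_mul, hAM.uni, det_one]
    have h3 := pow_gcd_eq_one.2 ⟨h1, norm_pow hs h2⟩
    rw [Nat.Coprime.gcd_eq_one hcop, pow_one] at h3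
    exact h3
  obtain ⟨h0, hh0⟩ := mkSU hAM.uni hdet
  have hz : (ε h0)⁻¹ * y ∈ centralizer (L : Set G) := by
    rw [Subgroup.mem_centralizer_iff]
    intro z hz
    have hz' : z ∈ ε.range := by rw [hε.range]; exact hz
    obtain ⟨h, rfl⟩ := hz'
    have h1 := hAM.act h (h0 * h * h0⁻¹) (by
      have h2 : mt (h0 * h * h0⁻¹) = mt h0 * mt h * star (mt h0) := rfl
      rw [h2, hh0]
      rfl)
    rw [map_mul, map_mul, map_inv] at h1
    calc ε h * ((ε h0)⁻¹ * y) = (ε h0)⁻¹ * (ε h0 * ε h * (ε h0)⁻¹) * y := by group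
      _ = (ε h0)⁻¹ * (y * ε h * y⁻¹) * y := by rw [h1]
      _ = (ε h0)⁻¹ * y * ε h := by group
  have h5 : y = ε h0 * ((ε h0)⁻¹ * y) := by group
  rw [h5]
  refine Subgroup.mul_mem_sup ?_ hz
  rw [← hε.range]
  exact ⟨h0, rfl⟩

end

section
variable {K : Type u} [Field K] [StarRing K] {n : ℕ}

/-- conjugation by a semilinear isometry -/
def thU {M : Matrix (Fin n) (Fin n) K} (σ : K ≃+* K) (hM : M * star M = 1) :
    Matrix (Fin n) (Fin n) K ≃+* Matrix (Fin n) (Fin n) K where
  toFun A := M * A.map σ * star M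
  invFun A := (star M * A * M).map σ.symm
  left_inv A := by
    have h1 : star M * (M * A.map σ * star M) * M = A.map σ := by
      calc star M * (M * A.map σ * star M) * M = (star M * M) * A.map σ * (star M * M) := by
            simp only [mul_assoc]
        _ = A.map σ := by rw [star_mul_of hM, one_mul, mul_one]
    show (star M * (M * A.map σ * star M) * M).map σ.symm = A
    rw [h1]
    ext i j
    simp
  right_inv A := by
    show M * ((star M * A * M).map σ.symm).map σ * star M = A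
    have h1 : ((star M * A * M).map σ.symm).map σ = star M * A * M := by
      ext i j
      exact σ.apply_symm_apply _
    rw [h1]
    calc M * (star M * A * M) * star M = (M * star M) * A * (M * star M) := by
          simp only [mul_assoc]
      _ = A := by rw [hM, one_mul, mul_one]
  map_mul' A B := by
    rw [map_mul_mat]
    calc M * (A.map σ * B.map σ) * star M = M * A.map σ * 1 * B.map σ * star M := by
          simp only [mul_assoc, one_mul]
      _ = M * A.map σ * (star M * M) * B.map σ * star M := by rw [star_mul_of hM]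
      _ = M * A.map σ * star M * (M * B.map σ * star M) := by simp only [mul_assoc]
  map_add' A B := by
    have h1 : (A + B).map σ = A.map σ + B.map σ := by
      ext i j
      simp
    rw [h1, mul_add, add_mul]

lemma thU_apply {M : Matrix (Fin n) (Fin n) K} (σ : K ≃+* K) (hM : M * star M = 1)
    (A : Matrix (Fin n) (Fin n) K) : thU σ hM A = M * A.map σ * star M := rfl

end

/-- **UP2** -/
theorem stmtUP2 : StmtUP2.{u, v} := by
  intro K _ _ _ q hq hK hs n p hp hp2 hpq hn G _ L ε hε y hy hyp hor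
  rcases hor with h1 | h1
  · subst h1
    have hone : (1 : Matrix (Fin n) (Fin n) K) * star 1 = 1 := by rw [star_one, mul_one]
    refine ⟨1, RingEquiv.refl K, RingEquiv.refl _, ⟨hone, fun a => rfl, fun A => ?_, fun v => ?_,
      Or.inl ⟨rfl, rfl⟩⟩, fun g => ⟨g, rfl, ?_⟩⟩
    · rw [mul_one, one_mul]
      ext i j
      rfl
    · have h2 : (fun v : Fin n → K => (1 : Matrix (Fin n) (Fin n) K) *ᵥ
          (fun i => (RingEquiv.refl K) (v i))) = id := by
        funext w
        rw [one_mulVec]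
        rfl
      rw [h2, Function.iterate_id]
      rfl
    · rw [one_mul, inv_one, mul_one]
  · obtain ⟨g, σ, hg⟩ := hε.sem y hy
    obtain ⟨hσp, ⟨M, hM, hpow⟩, hσ1⟩ := main hn hK hs hp.out hpq hε (AM.of hg) hyp
    refine ⟨M, σ, thU σ hM.uni, ⟨hM.uni, hM.com, fun A => ?_, hpow, Or.inr ⟨hσp, ?_⟩⟩, fun h => ?_⟩
    · rw [thU_apply, mul_assoc, star_mul_of hM.uni, mul_one]
    · intro h2
      exact h1 (hσ1 h2)
    · obtain ⟨h', hh'⟩ := exists_im hM.com hM.uni h
      exact ⟨h', hh', (hM.act h h' hh').symm⟩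

/-- **UP3** -/
theorem stmtUP3 : StmtUP3.{u, v} := by
  intro K _ _ _ q hq hK hs n p hp hp2 hpq hn G _ L ε hε t ht x hx htp hxp hcomm htL
  obtain ⟨g, σ, hg⟩ := hε.sem t ht
  obtain ⟨h, τ, hh⟩ := hε.sem x hx
  obtain ⟨hσp, -, hσ1⟩ := main hn hK hs hp.out hpq hε (AM.of hg) htp
  obtain ⟨hτp, -, -⟩ := main hn hK hs hp.out hpq hε (AM.of hh) hxp
  have hσ : σ ≠ 1 := fun h2 => htL (hσ1 h2)
  obtain ⟨k, -, hk⟩ := H401.aut_pow hp.out σ ((τ : RingAut K)⁻¹ : RingAut K) hσp
    (by rw [inv_pow, hτp, inv_one]) hσ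
  refine ⟨k, ?_⟩
  have h2 := (AM.of hh).mul ((AM.of hg).pow k)
  have h3 : ((τ : RingAut K) * (σ : RingAut K) ^ k : RingAut K) = 1 := by
    rw [← hk, mul_inv_cancel]
  have h4 : (x * t ^ k) ^ p = 1 := by
    have h5 : Commute x (t ^ k) := (Commute.pow_left (show Commute t x from hcomm) k).symm
    rw [h5.mul_pow, hxp, ← pow_mul, mul_comm k p, pow_mul, htp, one_pow, one_mul]
  exact (main hn hK hs hp.out hpq hε h2 h4).2.2 h3

end Vale.Agent.P240.R2.H432.Odd
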