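import Vale.Agent.P240.R2.H687.UnDefs
import Vale.Agent.P240.R2.H401.NL5

/-!
Uniqueness of the semilinear isometry that induces a given automorphism of the special unitary group
modulo scalars.
-/

set_option autoImplicit false
set_option linter.all false

namespace Vale.Agent.P240.R2.H432.Odd

open Matrix
open Vale.Agent.P240.R2.H38 (mt)

universe u v

section
variable {K : Type u} [Field K] [StarRing K] {n : ℕ}

/-- elements of the special unitary group -/
lemma mkSU {M : Matrix (Fin n) (Fin n) K} (h : M * star M = 1) (hd : M.det = 1) :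
    ∃ g : H38.SU K n, mt g = M :=
  ⟨⟨⟨M, Matrix.mem_unitaryGroup_iff.2 h⟩, hd⟩, rfl⟩

lemma mt_uni (g : H38.SU K n) : mt g * star (mt g) = 1 := Matrix.mem_unitaryGroup_iff.1 g.1.2

lemma mt_det (g : H38.SU K n) : (mt g).det = 1 := g.2

lemma star_mul_of {M : Matrix (Fin n) (Fin n) K} (h : M * star M = 1) : star M * M = 1 :=
  mul_eq_one_comm.1 h

/-- the vector `e_i + α e_j` -/
def iv (i j : Fin n) (α : K) : Fin n → K := fun r => if r = i then 1 else if r = j then α else 0

lemma iv_i (i j : Fin n) (α : K) : iv i j α i = 1 := by simp [iv]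

lemma iv_j {i j : Fin n} (h : i ≠ j) (α : K) : iv i j α j = α := by
  simp [iv, Ne.symm h]

lemma iv_ne {i j l : Fin n} (hi : l ≠ i) (hj : l ≠ j) (α : K) : iv i j α l = 0 := by
  simp [iv, hi, hj]

lemma sum_iv {i j : Fin n} (h : i ≠ j) (α : K) (f : Fin n → K) (g : K → K) (h0 : g 0 = 0)
    (h1 : g 1 = 1) : ∑ r, g (iv i j α r) * f r = f i + g α * f j := by
  classical
  have h2 : ∀ r, g (iv i j α r) * f r =
      (if r = i then f i else 0) + (if r = j then g α * f j else 0) := by
    intro r
    by_cases hi : r = i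
    · subst hi
      rw [iv_i, h1, one_mul, if_pos rfl, if_neg h, add_zero]
    · by_cases hj : r = j
      · subst hj
        rw [iv_j h, if_neg hi, if_pos rfl, zero_add]
      · rw [iv_ne hi hj, h0, zero_mul, if_neg hi, if_neg hj, add_zero]
  rw [Finset.sum_congr rfl fun r _ => h2 r, Finset.sum_add_distrib]
  simp

lemma iv_norm {i j : Fin n} (h : i ≠ j) {α : K} (hα : α * star α = -1) :
    ∑ r, star (iv i j α r) * iv i j α r = 0 := by
  rw [sum_iv h α (iv i j α) star (star_zero K) (star_one K), iv_i, iv_j h, mul_comm, hα]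
  ring

/-- the transvection -/
def tv (s : K) (v : Fin n → K) : Matrix (Fin n) (Fin n) K :=
  1 + s • vecMulVec v (star v)

lemma tv_apply (s : K) (v : Fin n → K) (r c : Fin n) :
    tv s v r c = (if r = c then 1 else 0) + s * v r * star (v c) := by
  simp only [tv, Matrix.add_apply, Matrix.one_apply, Matrix.smul_apply, vecMulVec_apply, smul_eq_mul,
    Pi.star_apply]
  ring

lemma tv_uni {s : K} (hs : star s = -s) {v : Fin n → K} (hv : ∑ r, star (v r) * v r = 0) :
    tv s v * star (tv s v) = 1 := by
  have h1 : star (vecMulVec v (star v)) = vecMulVec v (star v) := by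
    rw [star_eq_conjTranspose, conjTranspose_vecMulVec, star_star]
  have h2 : vecMulVec v (star v) * vecMulVec v (star v) = 0 := by
    rw [vecMulVec_mul_vecMulVec]
    have : star v ⬝ᵥ v = 0 := hv
    rw [this]
    ext r c
    simp [vecMulVec_apply]
  rw [tv, star_add, star_one, star_smul, h1, hs, mul_add, mul_one, add_mul, one_mul,
    smul_mul_smul_comm, h2, smul_zero, add_zero, add_assoc, ← add_smul, add_neg_cancel, zero_smul,
    add_zero]

lemma tv_det (s : K) {v : Fin n → K} (hv : ∑ r, star (v r) * v r = 0) :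
    (tv s v).det = 1 := by
  have h1 : tv s v = 1 + replicateCol Unit (s • v) * replicateRow Unit (star v) := by
    rw [tv, ← vecMulVec_eq, smul_vecMulVec]
  rw [h1, det_one_add_replicateCol_mul_replicateRow, dotProduct_smul]
  have : star v ⬝ᵥ v = 0 := hv
  rw [this, smul_zero, add_zero]

/-- the basic identity -/
lemma tv_key {M : Matrix (Fin n) (Fin n) K} {σ : K ≃+* K} (hM : M * star M = 1)
    (hσ : ∀ a, σ (star a) = star (σ a))
    (h : ∀ g : H38.SU K n, ∃ a : K, M * (mt g).map σ * star M = a • mt g)
    {s : K} (hs : star s = -s) {i j : Fin n} (hij : i ≠ j) {α : K} (hα : α * star α = -1) :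
    ∃ a : K, ∀ r c, M r c + σ s * (M r i + σ α * M r j) * star (σ (iv i j α c)) =
      a * (M r c + s * iv i j α r * (M i c + star α * M j c)) := by
  obtain ⟨g, hg⟩ := mkSU (tv_uni hs (iv_norm hij hα)) (tv_det s (iv_norm hij hα))
  obtain ⟨a, ha⟩ := h g
  refine ⟨a, fun r c => ?_⟩
  have h1 : M * (mt g).map σ = a • (mt g * M) := by
    have h2 := congrArg (fun A => A * M) ha
    simp only [mul_assoc, star_mul_of hM, mul_one, smul_mul_assoc] at h2
    exact h2
  have h2 := congrFun (congrFun h1 r) c
  rw [hg, Matrix.mul_apply, Matrix.smul_apply, Matrix.mul_apply, smul_eq_mul] at h2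
  have h3 : ∑ k, M r k * ((tv s (iv i j α)).map σ) k c =
      M r c + σ s * (M r i + σ α * M r j) * star (σ (iv i j α c)) := by
    have h4 : ∀ k, M r k * ((tv s (iv i j α)).map σ) k c = M r k * (if k = c then 1 else 0) +
        σ s * star (σ (iv i j α c)) * (σ (iv i j α k) * M r k) := by
      intro k
      rw [Matrix.map_apply, tv_apply, map_add, map_mul, map_mul, hσ]
      have : σ (if k = c then (1 : K) else 0) = if k = c then 1 else 0 := by
        split_ifs <;> simp
      rw [this]
      ring
    rw [Finset.sum_congr rfl fun k _ => h4 k, Finset.sum_add_distrib, ← Finset.mul_sum,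
      sum_iv hij α (fun k => M r k) σ (map_zero σ) (map_one σ)]
    simp only [mul_ite, mul_one, mul_zero, Finset.sum_ite_eq', Finset.mem_univ, if_true]
    ring
  have h5 : ∑ k, tv s (iv i j α) r k * M k c =
      M r c + s * iv i j α r * (M i c + star α * M j c) := by
    have h4 : ∀ k, tv s (iv i j α) r k * M k c = (if r = k then 1 else 0) * M k c +
        s * iv i j α r * (star (iv i j α k) * M k c) := by
      intro k
      rw [tv_apply]
      ring
    rw [Finset.sum_congr rfl fun k _ => h4 k, Finset.sum_add_distrib, ← Finset.mul_sum,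
      sum_iv hij α (fun k => M k c) star (star_zero K) (star_one K)]
    simp
  rw [h3, h5] at h2
  exact h2

end

section
variable {K : Type u} [Field K] [Fintype K] [StarRing K] {n q : ℕ}

omit [Fintype K] in
lemma exists_third (hn : 3 ≤ n) (i j : Fin n) : ∃ k : Fin n, k ≠ i ∧ k ≠ j := by
  classical
  by_contra hcon
  push Not at hcon
  have h1 : (Finset.univ : Finset (Fin n)) ⊆ {i, j} := by
    intro k _
    by_cases hk : k = i
    · simp [hk]
    · simp [hcon k hk]
  have h2 := Finset.card_le_card h1
  rw [Finset.card_univ, Fintype.card_fin] at h2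
  have h3 : ({i, j} : Finset (Fin n)).card ≤ 2 := Finset.card_le_two
  omega

/-- uniqueness -/
theorem uniq (hn : 3 ≤ n) (hK : Nat.card K = q ^ 2) (hs : ∀ x : K, star x = x ^ q)
    {M : Matrix (Fin n) (Fin n) K} {σ : K ≃+* K} (hM : M * star M = 1)
    (hσ : ∀ a, σ (star a) = star (σ a))
    (h : ∀ g : H38.SU K n, ∃ a : K, M * (mt g).map σ * star M = a • mt g) :
    σ = 1 ∧ ∃ d : K, M = d • (1 : Matrix (Fin n) (Fin n) K) := by
  obtain ⟨z, hz⟩ := H401.exists_star_ne hK hs
  -- a skew element
  obtain ⟨s, hss, hs0⟩ : ∃ s : K, star s = -s ∧ s ≠ 0 := by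
    refine ⟨z - star z, ?_, fun h0 => hz (sub_eq_zero.1 h0).symm⟩
    rw [star_sub, star_star]
    ring
  -- elements of norm `-1`
  have hm1 : (-1 : K) ≠ 0 := neg_ne_zero.2 one_ne_zero
  obtain ⟨α₀, hα00, hα0⟩ := H401.exists_norm_eq hK hs hm1 (by rw [star_neg, star_one])
  have hz0 : z ≠ 0 := by
    rintro rfl
    exact hz (star_zero K)
  have hzs : star z ≠ 0 := by simpa using hz0
  have hζ : (z / star z) * star (z / star z) = 1 := by
    rw [star_div₀, star_star, div_mul_div_cancel₀ hzs, div_self hz0]
  have hζ1 : z / star z ≠ 1 := by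
    intro h1
    rw [div_eq_one_iff_eq hzs] at h1
    exact hz h1.symm
  have hnorm : ∀ x : K, x * star x = 1 → (α₀ * x) * star (α₀ * x) = -1 := by
    intro x hx
    rw [star_mul']
    calc α₀ * x * (star α₀ * star x) = (α₀ * star α₀) * (x * star x) := by ring
      _ = -1 := by rw [hα0, hx, mul_one]
  -- the scalar is one and the vector is orthogonal to the other columns
  have hcol : ∀ (i j : Fin n) (hij : i ≠ j) (α : K), α * star α = -1 → ∀ l, l ≠ i → l ≠ j →
      M i l + star α * M j l = 0 ∧ ∃ a : K, a = 1 ∧ ∀ r c,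
        M r c + σ s * (M r i + σ α * M r j) * star (σ (iv i j α c)) =
        a * (M r c + s * iv i j α r * (M i c + star α * M j c)) := by
    intro i j hij α hα l hli hlj
    obtain ⟨a, ha⟩ := tv_key hM hσ h hss hij hα
    have h1 : ∀ r, (1 - a) * M r l = a * s * (M i l + star α * M j l) * iv i j α r := by
      intro r
      have h2 := ha r l
      rw [iv_ne hli hlj, map_zero, star_zero, mul_zero, add_zero] at h2
      linear_combination h2
    have ha1 : a = 1 := by
      have h2 : ∑ r, star ((1 - a) * M r l) * ((1 - a) * M r l) = 0 := by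
        set x := a * s * (M i l + star α * M j l) with hx
        have h3 : ∀ r, star ((1 - a) * M r l) * ((1 - a) * M r l) =
            star x * x * (star (iv i j α r) * iv i j α r) := by
          intro r
          rw [h1 r, star_mul']
          ring
        rw [Finset.sum_congr rfl fun r _ => h3 r, ← Finset.mul_sum, iv_norm hij hα, mul_zero]
      have h3 : ∑ r, star (M r l) * M r l = 1 := by
        have h4 := congrFun (congrFun (star_mul_of hM) l) l
        rw [Matrix.mul_apply, Matrix.one_apply_eq] at h4
        exact h4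
      have h4 : ∀ r, star ((1 - a) * M r l) * ((1 - a) * M r l) =
          star (1 - a) * (1 - a) * (star (M r l) * M r l) := by
        intro r
        rw [star_mul']
        ring
      rw [Finset.sum_congr rfl fun r _ => h4 r, ← Finset.mul_sum, h3, mul_one] at h2
      rcases mul_eq_zero.1 h2 with h5 | h5
      · exact (sub_eq_zero.1 (star_eq_zero.1 h5)).symm
      · exact (sub_eq_zero.1 h5).symm
    refine ⟨?_, a, ha1, ha⟩
    have h2 := h1 i
    rw [ha1, sub_self, zero_mul, one_mul, iv_i, mul_one] at h2
    exact (mul_eq_zero.1 h2.symm).resolve_left hs0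
  -- `M` is diagonal
  have hdiag : ∀ j l : Fin n, l ≠ j → M j l = 0 := by
    intro j l hlj
    obtain ⟨i, hij, hil⟩ := exists_third hn j l
    have h1 := (hcol i j hij α₀ hα0 l (Ne.symm hil) hlj).1
    have h2 := (hcol i j hij _ (hnorm _ hζ) l (Ne.symm hil) hlj).1
    have h3 : (star α₀ - star (α₀ * (z / star z))) * M j l = 0 := by linear_combination h1 - h2
    rcases mul_eq_zero.1 h3 with h4 | h4
    · exfalso
      rw [← star_sub] at h4
      have h5 : α₀ - α₀ * (z / star z) = 0 := star_eq_zero.1 h4
      have h6 : α₀ * (1 - z / star z) = 0 := by linear_combination h5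
      rcases mul_eq_zero.1 h6 with h7 | h7
      · exact hα00 h7
      · exact hζ1 (sub_eq_zero.1 h7).symm
    · exact h4
  have hd0 : ∀ i, M i i ≠ 0 := by
    intro i h0
    have h1 : M *ᵥ (Pi.single i 1) = 0 := by
      ext r
      rw [mulVec_single_one]
      by_cases hr : r = i
      · subst hr; exact h0
      · exact hdiag r i (Ne.symm hr)
    have h2 := congrArg (fun v => star M *ᵥ v) h1
    simp only [mulVec_mulVec, star_mul_of hM, one_mulVec, mulVec_zero] at h2
    have h3 := congrFun h2 i
    rw [Pi.single_eq_same] at h3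
    exact one_ne_zero h3
  have hpair : ∀ (i j : Fin n) (hij : i ≠ j) (α : K), α * star α = -1 →
      M j j * σ α = α * M i i := by
    intro i j hij α hα
    obtain ⟨l, hli, hlj⟩ := exists_third hn i j
    obtain ⟨-, a, ha1, ha⟩ := hcol i j hij α hα l hli hlj
    have h1 := ha i i
    have h2 := ha j i
    have e1 : M i j = 0 := hdiag i j (Ne.symm hij)
    have e2 : M j i = 0 := hdiag j i hij
    rw [ha1, iv_i, map_one, star_one, e1, e2] at h1
    rw [ha1, iv_i, map_one, star_one, iv_j hij, e2] at h2
    have h3 : (σ s - s) * M i i = 0 := by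
      linear_combination h1
    have h4 : σ s = s := by
      rcases mul_eq_zero.1 h3 with h5 | h5
      · exact sub_eq_zero.1 h5
      · exact absurd h5 (hd0 i)
    rw [h4] at h2
    have h5 : s * (M j j * σ α - α * M i i) = 0 := by
      linear_combination h2
    rcases mul_eq_zero.1 h5 with h6 | h6
    · exact absurd h6 hs0
    · exact sub_eq_zero.1 h6
  have heq : ∀ i j : Fin n, M i i = M j j := by
    intro i j
    by_cases hij : i = j
    · rw [hij]
    · obtain ⟨k, hki, hkj⟩ := exists_third hn i j
      have h1 := hpair i k (Ne.symm hki) α₀ hα0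
      have h2 := hpair j k (Ne.symm hkj) α₀ hα0
      exact mul_left_cancel₀ hα00 (h1.symm.trans h2)
  have hfix : ∀ α : K, α * star α = -1 → σ α = α := by
    intro α hα
    have e : (⟨0, by omega⟩ : Fin n) ≠ ⟨1, by omega⟩ := by
      intro h0
      have := congrArg Fin.val h0
      simp at this
    have h1 := hpair _ _ e α hα
    rw [heq ⟨1, by omega⟩ ⟨0, by omega⟩, mul_comm] at h1
    exact mul_right_cancel₀ (hd0 _) h1
  refine ⟨?_, M ⟨0, by omega⟩ ⟨0, by omega⟩, ?_⟩
  · refine H401.eq_one_of_norm_one hK hs σ fun x hx => ?_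
    have h1 := hfix _ (hnorm x hx)
    rw [map_mul, hfix α₀ hα0] at h1
    exact mul_left_cancel₀ hα00 h1
  · ext r c
    rw [Matrix.smul_apply, Matrix.one_apply, smul_eq_mul]
    by_cases hrc : r = c
    · subst hrc
      rw [if_pos rfl, mul_one]
      exact heq _ _
    · rw [if_neg hrc, mul_zero]
      exact hdiag r c (Ne.symm hrc)

end

end Vale.Agent.P240.R2.H432.Odd
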