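import Vale.Agent.P240.R2.H432.UAsm
import Vale.Agent.P240.R2.H687.OddA
import Vale.Agent.P240.R2.H487.TF

/-!
`TopFac` for `PSU_n(q)`, `q > 3` odd, `n ≥ 3`, `p` odd with `p ∤ q (q + 1)`, from `StmtUN`.
-/

set_option autoImplicit false
set_option linter.all false

namespace Vale.Agent.P240.R2.H432.Odd

open Matrix Subgroup
open Vale.Agent.P240.R2.H687.Odd
open Vale.Agent.P240.R2.H487 (LocTopF TopFac)
open Vale.Agent.P240.R2.AS (PSU)

universe u v w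

/-- **`TopFac` for `PSU_n(q)`**, `q > 3` odd, `p` odd, `p ∤ q (q + 1)` -/
theorem topFac_PSU_of (hUN : StmtUN.{0}) {K : Type} [Field K] [Fintype K]
    [StarRing K] {n q : ℕ} (hq : 3 < q) (hK : Nat.card K = q ^ 2) (hs : ∀ x : K, star x = x ^ q)
    (h2 : (2 : K) ≠ 0) (hn : 3 ≤ n) {p : ℕ} [Fact p.Prime] (hp2 : p ≠ 2) (hpq : ¬ p ∣ q + 1)
    (hpK : (p : K) ≠ 0) (𝕜 : Type w) [Field 𝕜] {L : Type v} [Group L]
    (e : Nonempty (L ≃* PSU K n)) (hd : p ∣ Nat.card L) : TopFac 𝕜 p L := by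
  intro G _ _ M hM
  obtain ⟨e⟩ := e
  obtain ⟨f⟩ := hM
  exact locTopF_PSU_of stmtOA hUN hq hK hs h2 hn hp2 hpq hpK 𝕜 ⟨f.symm.trans e⟩
    (by rw [← Nat.card_congr f.toEquiv]; exact hd)

end Vale.Agent.P240.R2.H432.Odd
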